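import Vale.Agent.Lib.P252.Pinch

open Matrix Set Filter Topology
open scoped MatrixOrder

namespace Vale.Agent.Lib.P252

variable {n : ℕ}

theorem contDiffOn_det_hess {u : (Fin n → ℝ) → ℝ} {Ω : Set (Fin n → ℝ)} (hO : IsOpen Ω)
    (hu : ContDiffOn ℝ 4 u Ω) : ContDiffOn ℝ 2 (fun x => (hess u x).det) Ω := by
  have h1 : ContDiffOn ℝ 3 (fderiv ℝ u) Ω := hu.fderiv_of_isOpen hO (by norm_num)
  have h2 : ContDiffOn ℝ 2 (fderiv ℝ (fderiv ℝ u)) Ω := h1.fderiv_of_isOpen hO (by norm_num)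
  have h3 : ∀ i j : Fin n, ContDiffOn ℝ 2
      (fun x => fderiv ℝ (fderiv ℝ u) x (Pi.single i 1) (Pi.single j 1)) Ω := by
    intro i j
    exact (h2.clm_apply contDiffOn_const).clm_apply contDiffOn_const
  simp only [hess, Matrix.det_apply, Matrix.of_apply]
  apply ContDiffOn.sum
  intro σ _
  apply ContDiffOn.const_smul
  apply contDiffOn_prod
  intro i _
  exact h3 _ _

theorem eq_zero_of_sum_eq_zero (U W : Matrix (Fin n) (Fin n) ℝ) (hU : U.PosDef) (hW : W.PosSemidef)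
    (h : ∑ i, ∑ j, U i j * W i j = 0) : W = 0 := by
  classical
  obtain ⟨B, hB⟩ := CStarAlgebra.nonneg_iff_eq_star_mul_self.mp hU.posSemidef.nonneg
  have hBt : star B = Bᵀ := by
    ext i j
    simp [Matrix.star_apply]
  rw [hBt] at hB
  have hdetU : 0 < U.det := hU.det_pos
  have hdetB : B.det ≠ 0 := by
    intro h0
    rw [hB, det_mul, h0, mul_zero] at hdetU
    exact lt_irrefl _ hdetU
  have hBu : IsUnit B.det := isUnit_iff_ne_zero.mpr hdetB
  have hX : (B * W * Bᵀ).PosSemidef := by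
    have := hW.mul_mul_conjTranspose_same B
    rwa [conjTranspose_eq_transpose_of_trivial] at this
  have hWt : Wᵀ = W := by
    have := hW.isHermitian.eq
    rwa [conjTranspose_eq_transpose_of_trivial] at this
  have htr : (B * W * Bᵀ).trace = 0 := by
    rw [Matrix.trace_mul_comm, ← Matrix.mul_assoc, ← hB]
    rw [← h]
    simp only [Matrix.trace, Matrix.diag_apply, Matrix.mul_apply]
    refine Finset.sum_congr rfl fun i _ => Finset.sum_congr rfl fun j _ => ?_
    rw [← Matrix.transpose_apply W i j, hWt]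
  have hX0 : B * W * Bᵀ = 0 := hX.trace_eq_zero_iff.mp htr
  have h1 : W = B⁻¹ * (B * W * Bᵀ) * (Bᵀ)⁻¹ := by
    have hBtu : IsUnit (Bᵀ).det := by rwa [det_transpose]
    calc W = (B⁻¹ * B) * W * (Bᵀ * (Bᵀ)⁻¹) := by
          rw [Matrix.nonsing_inv_mul B hBu, Matrix.mul_nonsing_inv _ hBtu]; simp
      _ = B⁻¹ * (B * W * Bᵀ) * (Bᵀ)⁻¹ := by simp only [Matrix.mul_assoc]
  rw [h1, hX0]
  simp

theorem rpow_aux (hn : 1 ≤ n) {D : ℝ} (hD : 0 < D) :
    (D ^ (-((n : ℝ) + 1) / ((n : ℝ) + 2))) ^ (-(((n : ℝ) + 2) / ((n : ℝ) + 1))) = D := by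
  have hN : (0 : ℝ) ≤ (n : ℝ) := Nat.cast_nonneg n
  rw [← Real.rpow_mul hD.le]
  have : -((n : ℝ) + 1) / ((n : ℝ) + 2) * -(((n : ℝ) + 2) / ((n : ℝ) + 1)) = 1 := by
    field_simp
  rw [this, Real.rpow_one]

/-- A closed graph with Monge-Ampère measure pinched between positive constants lies over `ℝⁿ`. -/
theorem entire_of_pinched {u : (Fin n → ℝ) → ℝ} {Ω : Set (Fin n → ℝ)}
    (hn : 1 ≤ n) (hO : IsOpen Ω) (hc : Convex ℝ Ω) (hne : Ω.Nonempty)
    (hu : ContDiffOn ℝ 2 u Ω) (hpd : ∀ x ∈ Ω, (hess u x).PosDef)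
    (hclosed : IsClosed (graphOver Ω u))
    {lam Lam : ℝ} (hlam : 0 < lam) (hLam : 0 < Lam)
    (hlow : ∀ x ∈ Ω, lam ≤ (hess u x).det) (hup : ∀ x ∈ Ω, (hess u x).det ≤ Lam) :
    Ω = Set.univ := by
  by_contra hne'
  obtain ⟨p, hp⟩ := (Set.ne_univ_iff_exists_notMem _).mp hne'
  obtain ⟨f, hf⟩ := geometric_hahn_banach_open_point hc hO hp
  set b : Fin n → ℝ := fun i => - f (Pi.single i 1) with hb
  have hform : ∀ x, f p + b ⬝ᵥ x = f p - f x := by
    intro x
    have h1 : f x = ∑ i, x i * f (Pi.single i 1) := by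
      conv_lhs => rw [basis_expand x]
      simp
    rw [h1]
    simp only [hb, dotProduct, neg_mul, Finset.sum_neg_distrib]
    have : ∀ i : Fin n, f (Pi.single i 1) * x i = x i * f (Pi.single i 1) := fun i => mul_comm _ _
    simp only [this]
    ring
  have hb0 : b ≠ 0 := by
    intro h0
    obtain ⟨a, ha⟩ := hne
    have h1 := hform a
    have h2 := hform p
    rw [h0] at h1 h2
    simp only [zero_dotProduct] at h1 h2
    have := hf a ha
    linarith
  refine pinching_false hn hO hc hne hu hpd hclosed b hb0 (f p) ?_ (β := 0) le_rfl (by norm_num)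
    hlam hLam ?_ ?_
  · intro x hx
    rw [hform]
    linarith [hf x hx]
  · intro x hx
    simpa using hlow x hx
  · intro x hx
    simpa using hup x hx

theorem main_am {u : (Fin n → ℝ) → ℝ} {Ω : Set (Fin n → ℝ)}
    (hn : 1 ≤ n) (hO : IsOpen Ω) (hc : Convex ℝ Ω) (hne : Ω.Nonempty)
    (hu : ContDiffOn ℝ 4 u Ω) (hpd : ∀ x ∈ Ω, (hess u x).PosDef)
    (hAM : ∀ x ∈ Ω, ∑ i, ∑ j, ((hess u x).det • (hess u x)⁻¹) i j * hess (affW u) x i j = 0)
    (hclosed : IsClosed (graphOver Ω u))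
    (hsemi : ∀ x ∈ Ω, (hess (affW u) x).PosSemidef ∨ (-hess (affW u) x).PosSemidef) :
    Ω = Set.univ ∧ ∃ c : ℝ, 0 < c ∧ ∀ x, (hess u x).det = c := by
  classical
  have hDpos : ∀ x ∈ Ω, 0 < (hess u x).det := fun x hx => (hpd x hx).det_pos
  have hD2 := contDiffOn_det_hess hO hu
  have hw2 : ContDiffOn ℝ 2 (affW u) Ω :=
    hD2.rpow_const_of_ne fun x hx => (hDpos x hx).ne'
  have hu2 : ContDiffOn ℝ 2 u Ω := hu.of_le (by norm_num)
  have hwpos : ∀ x ∈ Ω, 0 < affW u x := fun x hx => Real.rpow_pos_of_pos (hDpos x hx) _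
  -- the Hessian of `w` vanishes
  have hW0 : ∀ x ∈ Ω, hess (affW u) x = 0 := by
    intro x hx
    have hUpd : ((hess u x).det • (hess u x)⁻¹).PosDef :=
      (hpd x hx).inv.smul (hDpos x hx)
    rcases hsemi x hx with h1 | h1
    · exact eq_zero_of_sum_eq_zero _ _ hUpd h1 (hAM x hx)
    · have h2 := eq_zero_of_sum_eq_zero _ _ hUpd h1 (by
        simp only [Matrix.neg_apply, mul_neg, Finset.sum_neg_distrib]
        rw [hAM x hx, neg_zero])
      exact neg_eq_zero.mp h2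
  have hD2w : ∀ x ∈ Ω, fderiv ℝ (fderiv ℝ (affW u)) x = 0 := by
    intro x hx
    apply ContinuousLinearMap.ext
    intro e
    apply ContinuousLinearMap.ext
    intro e'
    rw [D2_eq_hess, hW0 x hx]
    simp
  obtain ⟨x0, hx0⟩ := hne
  have hw1 : DifferentiableOn ℝ (fderiv ℝ (affW u)) Ω := fun x hx =>
    (diffAt2 hO hw2 hx).differentiableWithinAt
  have hconst : ∀ x ∈ Ω, fderiv ℝ (affW u) x = fderiv ℝ (affW u) x0 := fun x hx =>
    IsOpen.is_const_of_fderiv_eq_zero hO hc.isPreconnected hw1 (fun y hy => hD2w y hy) hx hx0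
  set q := fderiv ℝ (affW u) x0 with hq
  have hdiff0 : DifferentiableOn ℝ (fun x => affW u x - q x) Ω := fun x hx =>
    ((diffAt hO hw2 hx).sub q.differentiableAt).differentiableWithinAt
  have hconst2 : ∀ x ∈ Ω, affW u x - q x = affW u x0 - q x0 := by
    intro x hx
    refine IsOpen.is_const_of_fderiv_eq_zero hO hc.isPreconnected hdiff0 (fun y hy => ?_) hx hx0
    have h1 : HasFDerivAt (fun x => affW u x - q x) (fderiv ℝ (affW u) y - q) y :=
      (diffAt hO hw2 hy).hasFDerivAt.sub q.hasFDerivAt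
    rw [h1.fderiv, hconst y hy]
    simp
  set γ := affW u x0 - q x0 with hγ
  set b : Fin n → ℝ := fun i => q (Pi.single i 1) with hb
  have hform : ∀ x ∈ Ω, γ + b ⬝ᵥ x = affW u x := by
    intro x hx
    have h1 : q x = ∑ i, x i * q (Pi.single i 1) := by
      conv_lhs => rw [basis_expand x]
      simp
    have h2 : b ⬝ᵥ x = q x := by
      rw [h1]
      simp only [hb, dotProduct]
      exact Finset.sum_congr rfl fun i _ => mul_comm _ _
    rw [h2, ← hconst2 x hx]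
    ring
  have hN : (0 : ℝ) ≤ (n : ℝ) := Nat.cast_nonneg n
  have hN1 : (1 : ℝ) ≤ (n : ℝ) := by exact_mod_cast hn
  set β : ℝ := ((n : ℝ) + 2) / ((n : ℝ) + 1) with hβ
  have hβ0 : 0 ≤ β := by positivity
  have hβ2 : β < 2 := by
    rw [hβ, div_lt_iff₀ (by positivity)]
    linarith
  have hDw : ∀ x ∈ Ω, (hess u x).det = (γ + b ⬝ᵥ x) ^ (-β) := by
    intro x hx
    rw [hform x hx, affW]
    exact (rpow_aux hn (hDpos x hx)).symm
  have hb0 : b = 0 := by
    by_contra hb0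
    refine pinching_false hn hO hc ⟨x0, hx0⟩ hu2 hpd hclosed b hb0 γ ?_ hβ0 hβ2
      (lam := 1) (Lam := 1) one_pos one_pos ?_ ?_
    · intro x hx
      rw [hform x hx]
      exact hwpos x hx
    · intro x hx
      rw [one_mul, ← hDw x hx]
    · intro x hx
      rw [one_mul, ← hDw x hx]
  have hγ0 : 0 < γ := by
    have := hform x0 hx0
    rw [hb0, zero_dotProduct, add_zero] at this
    rw [this]
    exact hwpos x0 hx0
  set c := γ ^ (-β) with hc'
  have hcpos : 0 < c := Real.rpow_pos_of_pos hγ0 _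
  have hDc : ∀ x ∈ Ω, (hess u x).det = c := by
    intro x hx
    rw [hDw x hx, hb0, zero_dotProduct, add_zero]
  have hΩ : Ω = Set.univ := entire_of_pinched hn hO hc ⟨x0, hx0⟩ hu2 hpd hclosed hcpos hcpos
    (fun x hx => (hDc x hx).ge) (fun x hx => (hDc x hx).le)
  refine ⟨hΩ, c, hcpos, fun x => hDc x ?_⟩
  rw [hΩ]
  exact mem_univ x

end Vale.Agent.Lib.P252
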