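import Vale.Agent.Lib.P252.Mass

open Matrix Set Filter Topology

namespace Vale.Agent.Lib.P252

variable {n : ℕ} {φ : (Fin n → ℝ) → ℝ} {O : Set (Fin n → ℝ)}

/-- Second order condition at a local maximum of the difference barrier minus `φ`. -/
theorem quad_le_at_max (hO : IsOpen O) (hφ : ContDiffOn ℝ 2 φ O)
    (α : Fin n → ℝ) (γ p K C0 C1 : ℝ) {y : Fin n → ℝ} (hy : y ∈ O)
    (hg : 0 < γ + α ⬝ᵥ y)
    (hmax : IsLocalMax (fun z => (C0 + C1 * (z ⬝ᵥ z) - K * (γ + α ⬝ᵥ z) ^ p) - φ z) y)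
    (e : Fin n → ℝ) :
    2 * C1 * (e ⬝ᵥ e) + K * p * (1 - p) * (γ + α ⬝ᵥ y) ^ (p - 2) * (α ⬝ᵥ e) ^ 2
      ≤ fderiv ℝ (fderiv ℝ φ) y e e := by
  set A0 := y ⬝ᵥ y with hA0
  set A1 := y ⬝ᵥ e with hA1
  set A2 := e ⬝ᵥ e with hA2
  set g0 := γ + α ⬝ᵥ y with hg0
  set g1 := α ⬝ᵥ e with hg1
  have hline : ∀ t : ℝ, γ + α ⬝ᵥ (y + t • e) = g0 + t * g1 := by
    intro t
    simp only [dotProduct_add, dotProduct_smul, smul_eq_mul, hg0, hg1]
    ring
  have hsq : ∀ t : ℝ, (y + t • e) ⬝ᵥ (y + t • e) = A0 + 2 * t * A1 + t ^ 2 * A2 := by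
    intro t
    simp only [dotProduct_add, add_dotProduct, dotProduct_smul, smul_dotProduct, smul_eq_mul,
      hA0, hA1, hA2, dotProduct_comm e y]
    ring
  set h : ℝ → ℝ := fun t => (C0 + C1 * (A0 + 2 * t * A1 + t ^ 2 * A2)
      - K * (g0 + t * g1) ^ p) - φ (y + t • e) with hh
  set h' : ℝ → ℝ := fun t => (C1 * (2 * A1 + 2 * t * A2)
      - K * (g1 * p * (g0 + t * g1) ^ (p - 1))) - fderiv ℝ φ (y + t • e) e with hh'
  have hcont : ContinuousAt (fun t : ℝ => y + t • e) 0 := by fun_prop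
  have hloc : IsLocalMax h 0 := by
    have h1 : IsLocalMax (fun z => (C0 + C1 * (z ⬝ᵥ z) - K * (γ + α ⬝ᵥ z) ^ p) - φ z)
        ((fun t : ℝ => y + t • e) 0) := by simpa using hmax
    have h2 := IsLocalMax.comp_continuous (g := fun t : ℝ => y + t • e) (b := 0) h1 hcont
    have h3 : ((fun z => (C0 + C1 * (z ⬝ᵥ z) - K * (γ + α ⬝ᵥ z) ^ p) - φ z) ∘
        fun t : ℝ => y + t • e) = h := by
      funext t
      simp only [Function.comp_apply, hh, hsq, hline]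
    rwa [h3] at h2
  -- eventually in `O`, with positive base
  have hev1 : ∀ᶠ t : ℝ in 𝓝 0, y + t • e ∈ O := by
    have : Tendsto (fun t : ℝ => y + t • e) (𝓝 0) (𝓝 y) := by
      have h1 := hcont.tendsto
      simpa using h1
    exact this (hO.mem_nhds hy)
  have hev2 : ∀ᶠ t : ℝ in 𝓝 0, 0 < g0 + t * g1 := by
    have : ContinuousAt (fun t : ℝ => g0 + t * g1) 0 := by fun_prop
    exact this.eventually (lt_mem_nhds (by simpa using hg))
  have hd : ∀ᶠ t in 𝓝 (0 : ℝ), HasDerivAt h (h' t) t := by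
    filter_upwards [hev1, hev2] with t ht1 ht2
    have h1 : HasDerivAt (fun t : ℝ => C0 + C1 * (A0 + 2 * t * A1 + t ^ 2 * A2))
        (C1 * (2 * A1 + 2 * t * A2)) t := by
      have h11 : HasDerivAt (fun t : ℝ => A0 + 2 * t * A1 + t ^ 2 * A2)
          (2 * A1 + 2 * t * A2) t := by
        have a1 : HasDerivAt (fun t : ℝ => 2 * t * A1) (2 * A1) t := by
          simpa using ((hasDerivAt_id t).const_mul 2).mul_const A1
        have a2 : HasDerivAt (fun t : ℝ => t ^ 2 * A2) (2 * t * A2) t := by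
          simpa using (hasDerivAt_pow 2 t).mul_const A2
        simpa using ((hasDerivAt_const t A0).fun_add a1).fun_add a2
      exact (h11.const_mul C1).const_add C0
    have h2 : HasDerivAt (fun t : ℝ => g0 + t * g1) g1 t := by
      simpa using ((hasDerivAt_id t).mul_const g1).const_add g0
    have h3 : HasDerivAt (fun t : ℝ => (g0 + t * g1) ^ p) (g1 * p * (g0 + t * g1) ^ (p - 1)) t :=
      h2.rpow_const (Or.inl ht2.ne')
    have h4 : HasDerivAt (fun t : ℝ => φ (y + t • e)) (fderiv ℝ φ (y + t • e) e) t :=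
      hasDerivAt_line (diffAt hO hφ ht1)
    exact (h1.fun_sub (h3.const_mul K)).fun_sub h4
  have hd2 : HasDerivAt h' (C1 * (2 * A2) - K * (g1 * p * (g1 * (p - 1) * g0 ^ (p - 2)))
      - fderiv ℝ (fderiv ℝ φ) y e e) 0 := by
    have h1 : HasDerivAt (fun t : ℝ => C1 * (2 * A1 + 2 * t * A2)) (C1 * (2 * A2)) 0 := by
      have h11 : HasDerivAt (fun t : ℝ => 2 * A1 + 2 * t * A2) (2 * A2) 0 := by
        simpa using (((hasDerivAt_id (0 : ℝ)).const_mul 2).mul_const A2).const_add (2 * A1)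
      exact h11.const_mul C1
    have h2 : HasDerivAt (fun t : ℝ => g0 + t * g1) g1 0 := by
      simpa using ((hasDerivAt_id (0 : ℝ)).mul_const g1).const_add g0
    have h0 : g0 + 0 * g1 = g0 := by ring
    have h3 : HasDerivAt (fun t : ℝ => (g0 + t * g1) ^ (p - 1))
        (g1 * (p - 1) * g0 ^ (p - 1 - 1)) 0 := by
      have := h2.rpow_const (p := p - 1) (Or.inl (by rw [h0]; exact hg.ne'))
      rwa [h0] at this
    have h3' : p - 1 - 1 = p - 2 := by ring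
    rw [h3'] at h3
    have h4 : HasDerivAt (fun t : ℝ => fderiv ℝ φ (y + t • e) e)
        (fderiv ℝ (fderiv ℝ φ) y e e) 0 := by
      have := hasDerivAt_line2 (φ := φ) (y := y) (e := e) (t := 0)
        (by simpa using diffAt2 hO hφ hy)
      simpa using this
    exact (h1.fun_sub ((h3.const_mul (g1 * p)).const_mul K)).fun_sub h4
  have hfinal := deriv2_nonpos_of_localMax hloc hd hd2
  have hpow : K * (g1 * p * (g1 * (p - 1) * g0 ^ (p - 2)))
      = - (K * p * (1 - p) * g0 ^ (p - 2) * g1 ^ 2) := by ring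
  rw [hpow] at hfinal
  nlinarith

theorem barrier (hn : 1 ≤ n) (hO : IsOpen O) (hφ : ContDiffOn ℝ 2 φ O)
    (hpd : ∀ y ∈ O, (hess φ y).PosDef)
    (hS : IsCompact {y | y ∈ O ∧ φ y ≤ 1})
    (hcube : ∀ y ∈ O, φ y ≤ 1 → ∀ i, |y i| ≤ 1)
    (α : Fin n → ℝ) (γ : ℝ)
    (hg : ∀ y ∈ O, φ y ≤ 1 → 0 < γ + α ⬝ᵥ y ∧ γ + α ⬝ᵥ y ≤ 1)
    {B β p K : ℝ} (hp0 : 0 < p) (hp1 : p < 1) (hpβ : p - 2 ≤ -β) (hK : 0 < K)
    (hup : ∀ y ∈ O, φ y ≤ 1 → (hess φ y).det ≤ B * (γ + α ⬝ᵥ y) ^ (-β))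
    (hKB : B < (1 / (2 * (n : ℝ))) ^ (n - 1) * (K * p * (1 - p) * (α ⬝ᵥ α))) :
    ∀ y ∈ O, φ y ≤ 1 → 3 / 4 - K * (γ + α ⬝ᵥ y) ^ p ≤ φ y := by
  intro y1 hy1 hy11
  by_contra hcon
  rw [not_le] at hcon
  have hN : (1 : ℝ) ≤ (n : ℝ) := by exact_mod_cast hn
  have hNpos : (0 : ℝ) < (n : ℝ) := by linarith
  set C1 : ℝ := 1 / (4 * (n : ℝ)) with hC1
  have hC1pos : 0 < C1 := by positivity
  set F : (Fin n → ℝ) → ℝ := fun z => (3 / 4 + C1 * (z ⬝ᵥ z) - K * (γ + α ⬝ᵥ z) ^ p) - φ z with hF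
  set S : Set (Fin n → ℝ) := {y | y ∈ O ∧ φ y ≤ 1} with hSdef
  have hcontφ : ContinuousOn φ O := hφ.continuousOn
  have hFcont : ContinuousOn F S := by
    have h1 : Continuous fun z : Fin n → ℝ => 3 / 4 + C1 * (z ⬝ᵥ z) - K * (γ + α ⬝ᵥ z) ^ p := by
      have h2 : Continuous fun z : Fin n → ℝ => γ + α ⬝ᵥ z := by
        unfold dotProduct; fun_prop
      have h3 : Continuous fun z : Fin n → ℝ => (γ + α ⬝ᵥ z) ^ p :=
        h2.rpow_const (fun _ => Or.inr hp0.le)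
      have h4 : Continuous fun z : Fin n → ℝ => z ⬝ᵥ z := by
        unfold dotProduct; fun_prop
      fun_prop
    exact h1.continuousOn.sub (hcontφ.mono fun z hz => hz.1)
  obtain ⟨yM, hyM, hmaxon⟩ := hS.exists_isMaxOn ⟨y1, hy1, hy11⟩ hFcont
  have hyMO : yM ∈ O := hyM.1
  have hgM := hg yM hyM.1 hyM.2
  have hFy1 : 0 < F y1 := by
    simp only [hF]
    have : 0 ≤ C1 * (y1 ⬝ᵥ y1) := by
      apply mul_nonneg hC1pos.le
      exact dotProduct_self_star_nonneg (v := y1) |>.trans_eq (by simp [star_trivial])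
    linarith
  have hFM : 0 < F yM := hFy1.trans_le (hmaxon ⟨hy1, hy11⟩)
  have hdots : yM ⬝ᵥ yM ≤ (n : ℝ) := by
    have h1 : ∀ i, yM i * yM i ≤ 1 := by
      intro i
      have := hcube yM hyM.1 hyM.2 i
      have h2 := abs_le.mp this
      nlinarith [h2.1, h2.2]
    calc yM ⬝ᵥ yM = ∑ i, yM i * yM i := rfl
      _ ≤ ∑ _i : Fin n, (1 : ℝ) := Finset.sum_le_sum fun i _ => h1 i
      _ = (n : ℝ) := by simp
  have hpowpos : 0 < (γ + α ⬝ᵥ yM) ^ p := Real.rpow_pos_of_pos hgM.1 p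
  have hφM : φ yM < 1 := by
    have h1 : C1 * (yM ⬝ᵥ yM) ≤ 1 / 4 := by
      calc C1 * (yM ⬝ᵥ yM) ≤ C1 * n := mul_le_mul_of_nonneg_left hdots hC1pos.le
        _ = 1 / 4 := by rw [hC1]; field_simp
    have h2 : 0 < K * (γ + α ⬝ᵥ yM) ^ p := mul_pos hK hpowpos
    simp only [hF] at hFM
    linarith
  -- local maximum
  have hnhds : S ∈ 𝓝 yM := by
    have hcat : ContinuousAt φ yM := (cda hO hφ hyMO).continuousAt
    have h1 : ∀ᶠ z in 𝓝 yM, φ z < 1 := hcat.eventually (gt_mem_nhds hφM)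
    have h2 : ∀ᶠ z in 𝓝 yM, z ∈ O := hO.mem_nhds hyMO
    filter_upwards [h1, h2] with z hz1 hz2
    exact ⟨hz2, hz1.le⟩
  have hloc : IsLocalMax F yM := hmaxon.isLocalMax hnhds
  have hquad := quad_le_at_max hO hφ α γ p K (3 / 4) C1 hyMO hgM.1 hloc
  set g0 := γ + α ⬝ᵥ yM with hg0
  set κ := K * p * (1 - p) * g0 ^ (p - 2) with hκ
  have hκpos : 0 < κ := by
    have : 0 < 1 - p := by linarith
    have h2 : 0 < g0 ^ (p - 2) := Real.rpow_pos_of_pos hgM.1 _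
    positivity
  set c : ℝ := 1 / (2 * (n : ℝ)) with hc
  have hcpos : 0 < c := by positivity
  set A : Matrix (Fin n) (Fin n) ℝ := c • (1 : Matrix (Fin n) (Fin n) ℝ) + κ • vecMulVec α α
    with hA
  have hC1c : 2 * C1 = c := by rw [hC1, hc]; field_simp; ring
  have hAquad : ∀ e : Fin n → ℝ, e ⬝ᵥ A *ᵥ e = c * (e ⬝ᵥ e) + κ * (α ⬝ᵥ e) ^ 2 := fun e =>
    quad_smul_one_add_vecMulVec c κ α e
  have hApd : A.PosDef := by
    apply Matrix.PosDef.of_dotProduct_mulVec_pos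
    · rw [Matrix.IsHermitian, Matrix.conjTranspose_eq_transpose_of_trivial]
      rw [hA]
      ext i j
      simp [Matrix.one_apply, vecMulVec_apply, mul_comm, eq_comm]
    · intro x hx
      rw [star_trivial, hAquad]
      have h1 : 0 < x ⬝ᵥ x := by
        have := Matrix.dotProduct_star_self_pos_iff.mpr hx
        simpa [star_trivial] using this
      positivity
  have hle : A.det ≤ (hess φ yM).det := by
    apply det_le_det_of_quad_le A (hess φ yM) hApd (hpd yM hyMO).isHermitian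
    intro e
    rw [hAquad, ← D2_eq_hess]
    have := hquad e
    rw [hC1c] at this
    linarith
  have hdetA : A.det = c ^ (n - 1) * (c + κ * (α ⬝ᵥ α)) :=
    det_smul_one_add_vecMulVec hn c κ hcpos.ne' α
  have hαα : 0 ≤ α ⬝ᵥ α := by
    exact dotProduct_self_star_nonneg (v := α) |>.trans_eq (by simp [star_trivial])
  have hlower : c ^ (n - 1) * (K * p * (1 - p) * (α ⬝ᵥ α)) * g0 ^ (p - 2) ≤ A.det := by
    rw [hdetA]
    have h1 : 0 < c ^ (n - 1) := by positivity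
    have h2 : κ * (α ⬝ᵥ α) ≤ c + κ * (α ⬝ᵥ α) := by linarith
    calc c ^ (n - 1) * (K * p * (1 - p) * (α ⬝ᵥ α)) * g0 ^ (p - 2)
        = c ^ (n - 1) * (κ * (α ⬝ᵥ α)) := by rw [hκ]; ring
      _ ≤ c ^ (n - 1) * (c + κ * (α ⬝ᵥ α)) := mul_le_mul_of_nonneg_left h2 h1.le
  have hupM := hup yM hyM.1 hyM.2
  have hexp : g0 ^ (-β) ≤ g0 ^ (p - 2) :=
    Real.rpow_le_rpow_of_exponent_ge hgM.1 hgM.2 hpβ
  have hQ : 0 ≤ c ^ (n - 1) * (K * p * (1 - p) * (α ⬝ᵥ α)) := by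
    have : 0 < 1 - p := by linarith
    positivity
  have hgβ : 0 < g0 ^ (-β) := Real.rpow_pos_of_pos hgM.1 _
  have hcontra : c ^ (n - 1) * (K * p * (1 - p) * (α ⬝ᵥ α)) * g0 ^ (-β) ≤ B * g0 ^ (-β) := by
    calc c ^ (n - 1) * (K * p * (1 - p) * (α ⬝ᵥ α)) * g0 ^ (-β)
        ≤ c ^ (n - 1) * (K * p * (1 - p) * (α ⬝ᵥ α)) * g0 ^ (p - 2) :=
          mul_le_mul_of_nonneg_left hexp hQ
      _ ≤ A.det := hlower
      _ ≤ (hess φ yM).det := hle
      _ ≤ B * g0 ^ (-β) := hupM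
  have := le_of_mul_le_mul_right hcontra hgβ
  linarith

end Vale.Agent.Lib.P252
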