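import Vale.Agent.Lib.P252.LinAlg

open Matrix

namespace Vale.Agent.Lib.P252

variable {m : ℕ}

/-- The symmetric matrix with corner entry `c`, first row `b y` and lower block `ρ I + τ y yᵀ`. -/
noncomputable def blockMat (c b ρ τ : ℝ) (y : Fin m → ℝ) : Matrix (Fin (m + 1)) (Fin (m + 1)) ℝ :=
  Matrix.of (Fin.cases (Fin.cases c (fun j => b * y j))
    (fun i => Fin.cases (b * y i) (fun j => (if i = j then ρ else 0) + τ * y i * y j)))

@[simp] theorem blockMat_zero_zero (c b ρ τ : ℝ) (y : Fin m → ℝ) :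
    blockMat c b ρ τ y 0 0 = c := rfl

@[simp] theorem blockMat_zero_succ (c b ρ τ : ℝ) (y : Fin m → ℝ) (j : Fin m) :
    blockMat c b ρ τ y 0 j.succ = b * y j := rfl

@[simp] theorem blockMat_succ_zero (c b ρ τ : ℝ) (y : Fin m → ℝ) (i : Fin m) :
    blockMat c b ρ τ y i.succ 0 = b * y i := rfl

@[simp] theorem blockMat_succ_succ (c b ρ τ : ℝ) (y : Fin m → ℝ) (i j : Fin m) :
    blockMat c b ρ τ y i.succ j.succ = (if i = j then ρ else 0) + τ * y i * y j := rfl

theorem sum_y_mul_y (y : Fin m → ℝ) : ∑ k, y k * y k = y ⬝ᵥ y := rfl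

theorem blockMat_mul_eq_one {c b ρ τ c' b' ρ' τ' : ℝ} (y : Fin m → ℝ) 
    (h1 : c * c' + b * b' * (y ⬝ᵥ y) = 1)
    (h2 : c * b' + b * ρ' + b * τ' * (y ⬝ᵥ y) = 0)
    (h3 : b * c' + ρ * b' + τ * b' * (y ⬝ᵥ y) = 0)
    (h4 : ρ * ρ' = 1)
    (h5 : b * b' + ρ * τ' + τ * ρ' + τ * τ' * (y ⬝ᵥ y) = 0) :
    blockMat c b ρ τ y * blockMat c' b' ρ' τ' y = 1 := by
  set t := y ⬝ᵥ y with ht
  have hsum : ∑ k, y k * y k = t := rfl
  ext i j
  rw [Matrix.mul_apply, Fin.sum_univ_succ]
  refine Fin.cases ?_ (fun i => ?_) i <;> refine Fin.cases ?_ (fun j => ?_) j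
  · simp only [blockMat_zero_zero, blockMat_zero_succ, blockMat_succ_zero, Matrix.one_apply_eq]
    have : ∑ k : Fin m, b * y k * (b' * y k) = b * b' * t := by
      rw [← hsum, Finset.mul_sum]
      exact Finset.sum_congr rfl fun k _ => by ring
    rw [this, h1]
  · simp only [blockMat_zero_zero, blockMat_zero_succ, blockMat_succ_succ]
    have : ∑ k : Fin m, b * y k * ((if k = j then ρ' else 0) + τ' * y k * y j)
        = (b * ρ' + b * τ' * t) * y j := by
      simp only [mul_add, Finset.sum_add_distrib]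
      have e1 : ∑ k : Fin m, b * y k * (if k = j then ρ' else 0) = b * ρ' * y j := by
        simp [mul_ite]
        ring
      have e2 : ∑ k : Fin m, b * y k * (τ' * y k * y j) = b * τ' * t * y j := by
        rw [← hsum, Finset.mul_sum, Finset.sum_mul]
        exact Finset.sum_congr rfl fun k _ => by ring
      rw [e1, e2]
      ring
    rw [this]
    have h0 : (0 : Fin (m + 1)) ≠ j.succ := (Fin.succ_ne_zero j).symm
    rw [Matrix.one_apply_ne h0]
    linear_combination (y j) * h2
  · simp only [blockMat_succ_zero, blockMat_zero_zero, blockMat_succ_succ]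
    have : ∑ k : Fin m, ((if i = k then ρ else 0) + τ * y i * y k) * (b' * y k)
        = (ρ * b' + τ * b' * t) * y i := by
      simp only [add_mul, Finset.sum_add_distrib]
      have e1 : ∑ k : Fin m, (if i = k then ρ else 0) * (b' * y k) = ρ * b' * y i := by
        simp [ite_mul]
        ring
      have e2 : ∑ k : Fin m, τ * y i * y k * (b' * y k) = τ * b' * t * y i := by
        rw [← hsum, Finset.mul_sum, Finset.sum_mul]
        exact Finset.sum_congr rfl fun k _ => by ring
      rw [e1, e2]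
    rw [this]
    have h0 : (i.succ : Fin (m + 1)) ≠ 0 := Fin.succ_ne_zero i
    rw [Matrix.one_apply_ne h0]
    linear_combination (y i) * h3
  · simp only [blockMat_succ_zero, blockMat_zero_succ, blockMat_succ_succ]
    have : ∑ k : Fin m, ((if i = k then ρ else 0) + τ * y i * y k)
          * ((if k = j then ρ' else 0) + τ' * y k * y j)
        = (if i = j then ρ * ρ' else 0) + (ρ * τ' + τ * ρ' + τ * τ' * t) * y i * y j := by
      have e1 : ∀ k : Fin m, ((if i = k then ρ else 0) + τ * y i * y k)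
          * ((if k = j then ρ' else 0) + τ' * y k * y j)
          = (if i = k then ρ else 0) * (if k = j then ρ' else 0)
            + (if i = k then ρ * τ' * y i * y j else 0)
            + (if k = j then τ * ρ' * y i * y j else 0)
            + τ * τ' * y i * y j * (y k * y k) := by
        intro k
        split_ifs with h1 h2 h2 <;> (try subst h1) <;> (try subst h2) <;> ring
      simp only [e1, Finset.sum_add_distrib, ← Finset.mul_sum, hsum]
      have e2 : ∑ k : Fin m, (if i = k then ρ else 0) * (if k = j then ρ' else 0)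
          = if i = j then ρ * ρ' else 0 := by
        simp [ite_mul]
      have e3 : ∑ k : Fin m, (if i = k then ρ * τ' * y i * y j else 0) = ρ * τ' * y i * y j := by
        simp
      have e4 : ∑ k : Fin m, (if k = j then τ * ρ' * y i * y j else 0) = τ * ρ' * y i * y j := by
        simp
      rw [e2, e3, e4]
      ring
    rw [this]
    by_cases hij : i = j
    · subst hij
      simp only [if_true, Matrix.one_apply_eq, h4]
      linear_combination (y i * y i) * h5
    · have h0 : (i.succ : Fin (m + 1)) ≠ j.succ := fun h => hij (Fin.succ_injective _ h)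
      rw [Matrix.one_apply_ne h0, if_neg hij]
      linear_combination (y i * y j) * h5

theorem blockMat_inv {c b ρ τ c' b' ρ' τ' : ℝ} (y : Fin m → ℝ) 
    (h1 : c * c' + b * b' * (y ⬝ᵥ y) = 1)
    (h2 : c * b' + b * ρ' + b * τ' * (y ⬝ᵥ y) = 0)
    (h3 : b * c' + ρ * b' + τ * b' * (y ⬝ᵥ y) = 0)
    (h4 : ρ * ρ' = 1)
    (h5 : b * b' + ρ * τ' + τ * ρ' + τ * τ' * (y ⬝ᵥ y) = 0) :
    (blockMat c b ρ τ y)⁻¹ = blockMat c' b' ρ' τ' y :=
  Matrix.inv_eq_right_inv (blockMat_mul_eq_one y h1 h2 h3 h4 h5)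

theorem blockMat_sum_mul (c b ρ τ c' b' ρ' τ' : ℝ) (y : Fin m → ℝ) :
    ∑ i, ∑ j, blockMat c' b' ρ' τ' y i j * blockMat c b ρ τ y i j
      = c' * c + 2 * b' * b * (y ⬝ᵥ y) + m * ρ' * ρ + ρ' * τ * (y ⬝ᵥ y) + τ' * ρ * (y ⬝ᵥ y)
        + τ' * τ * (y ⬝ᵥ y) ^ 2 := by
  set t := y ⬝ᵥ y with ht
  have hsum : ∑ k, y k * y k = t := rfl
  rw [Fin.sum_univ_succ]
  simp only [Fin.sum_univ_succ, blockMat_zero_zero, blockMat_zero_succ, blockMat_succ_zero,
    blockMat_succ_succ]
  have e1 : ∑ j : Fin m, b' * y j * (b * y j) = b' * b * t := by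
    rw [← hsum, Finset.mul_sum]
    exact Finset.sum_congr rfl fun k _ => by ring
  have e2 : ∑ i : Fin m, (b' * y i * (b * y i)
      + ∑ j : Fin m, ((if i = j then ρ' else 0) + τ' * y i * y j)
          * ((if i = j then ρ else 0) + τ * y i * y j))
      = b' * b * t + (m * ρ' * ρ + ρ' * τ * t + τ' * ρ * t + τ' * τ * t ^ 2) := by
    rw [Finset.sum_add_distrib, e1]
    congr 1
    have e3 : ∀ i j : Fin m, ((if i = j then ρ' else 0) + τ' * y i * y j)
          * ((if i = j then ρ else 0) + τ * y i * y j)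
        = (if i = j then ρ' * ρ else 0) + (if i = j then (ρ' * τ + τ' * ρ) * (y i * y j) else 0)
          + τ' * τ * (y i * y i) * (y j * y j) := by
      intro i j
      by_cases h : i = j
      · subst h
        simp only [if_true]
        ring
      · simp only [h, if_false]
        ring
    simp only [e3, Finset.sum_add_distrib, Finset.sum_ite_eq, Finset.mem_univ, if_true,
      ← Finset.mul_sum, hsum, Finset.sum_const, Finset.card_univ, Fintype.card_fin, nsmul_eq_mul]
    simp only [← Finset.sum_mul, ← Finset.mul_sum, hsum]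
    ring
  rw [e2, e1]
  ring


theorem blockMat_isHermitian (c b ρ τ : ℝ) (y : Fin m → ℝ) : (blockMat c b ρ τ y).IsHermitian := by
  rw [Matrix.IsHermitian, Matrix.conjTranspose_eq_transpose_of_trivial]
  ext i j
  refine Fin.cases ?_ (fun i => ?_) i <;> refine Fin.cases ?_ (fun j => ?_) j <;>
    simp only [Matrix.transpose_apply, blockMat_zero_zero, blockMat_zero_succ, blockMat_succ_zero,
      blockMat_succ_succ]
  by_cases h : i = j
  · subst h
    ring
  · rw [if_neg h, if_neg (Ne.symm h)]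
    ring

theorem blockMat_quad (c b ρ τ : ℝ) (y : Fin m → ℝ) (z : Fin (m + 1) → ℝ) :
    z ⬝ᵥ (blockMat c b ρ τ y *ᵥ z)
      = c * z 0 ^ 2 + 2 * b * z 0 * (∑ k : Fin m, y k * z k.succ)
        + ρ * (∑ k : Fin m, z k.succ * z k.succ)
        + τ * (∑ k : Fin m, y k * z k.succ) ^ 2 := by
  simp only [dotProduct, mulVec, Fin.sum_univ_succ, blockMat_zero_zero, blockMat_zero_succ,
    blockMat_succ_zero, blockMat_succ_succ]
  set η := ∑ k : Fin m, y k * z k.succ with hη
  have e1 : ∑ x : Fin m, b * y x * z x.succ = b * η := by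
    rw [hη, Finset.mul_sum]
    exact Finset.sum_congr rfl fun k _ => by ring
  have e2 : ∀ i : Fin m, ∑ x : Fin m, ((if i = x then ρ else 0) + τ * y i * y x) * z x.succ
      = ρ * z i.succ + τ * y i * η := by
    intro i
    simp only [add_mul, Finset.sum_add_distrib]
    congr 1
    · simp [ite_mul]
    · rw [hη, Finset.mul_sum]
      exact Finset.sum_congr rfl fun k _ => by ring
  simp only [e1, e2]
  have e3 : ∑ x : Fin m, z x.succ * (b * y x * z 0 + (ρ * z x.succ + τ * y x * η))
      = b * z 0 * η + ρ * (∑ k : Fin m, z k.succ * z k.succ) + τ * η ^ 2 := by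
    have : ∀ x : Fin m, z x.succ * (b * y x * z 0 + (ρ * z x.succ + τ * y x * η))
        = b * z 0 * (y x * z x.succ) + ρ * (z x.succ * z x.succ) + τ * η * (y x * z x.succ) := by
      intro x
      ring
    simp only [this, Finset.sum_add_distrib, ← Finset.mul_sum, ← hη]
    ring
  rw [e3]
  ring

theorem blockMat_posDef {c b ρ τ : ℝ} (y : Fin m → ℝ) (hc : 0 < c) (hρ : 0 < ρ)
    (hD : 0 < c * (ρ + τ * (y ⬝ᵥ y)) - b ^ 2 * (y ⬝ᵥ y)) : (blockMat c b ρ τ y).PosDef := by
  rw [Matrix.posDef_iff_dotProduct_mulVec]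
  refine ⟨blockMat_isHermitian c b ρ τ y, fun z hz => ?_⟩
  simp only [star_trivial]
  rw [blockMat_quad]
  set t := y ⬝ᵥ y with ht
  set η := ∑ k : Fin m, y k * z k.succ with hη
  set N := ∑ k : Fin m, z k.succ * z k.succ with hN
  have hN0 : 0 ≤ N := Finset.sum_nonneg fun k _ => mul_self_nonneg _
  have ht0 : 0 ≤ t := Finset.sum_nonneg fun k _ => mul_self_nonneg _
  have hCS : η ^ 2 ≤ t * N := by
    have := Finset.sum_mul_sq_le_sq_mul_sq Finset.univ y (fun k => z k.succ)
    simpa [hη, ht, hN, dotProduct, sq] using this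
  have hkey : 0 ≤ (c * τ - b ^ 2) * η ^ 2 + c * ρ * N
      ∧ (0 < N → 0 < (c * τ - b ^ 2) * η ^ 2 + c * ρ * N) := by
    rcases le_total 0 (c * τ - b ^ 2) with h | h
    · have h1 : 0 ≤ (c * τ - b ^ 2) * η ^ 2 := mul_nonneg h (sq_nonneg _)
      have h2 : 0 < c * ρ := mul_pos hc hρ
      exact ⟨by positivity, fun hN' => by positivity⟩
    · have h1 : (c * τ - b ^ 2) * (t * N) ≤ (c * τ - b ^ 2) * η ^ 2 :=
        mul_le_mul_of_nonpos_left hCS h
      have h2 : (c * τ - b ^ 2) * (t * N) + c * ρ * N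
          = (c * (ρ + τ * t) - b ^ 2 * t) * N := by ring
      constructor
      · have := mul_nonneg hD.le hN0
        linarith
      · intro hN'
        have := mul_pos hD hN'
        linarith
  have hQ : c * (c * z 0 ^ 2 + 2 * b * z 0 * η + ρ * N + τ * η ^ 2)
      = (c * z 0 + b * η) ^ 2 + ((c * τ - b ^ 2) * η ^ 2 + c * ρ * N) := by ring
  refine (mul_pos_iff_of_pos_left hc).mp ?_
  rw [hQ]
  by_cases hNpos : 0 < N
  · have := hkey.2 hNpos
    positivity
  · have hN1 : N = 0 := le_antisymm (not_lt.mp hNpos) hN0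
    have hz' : ∀ k : Fin m, z k.succ = 0 := by
      intro k
      have := (Finset.sum_eq_zero_iff_of_nonneg (fun k _ => mul_self_nonneg (z (Fin.succ k)))).mp hN1
        k (Finset.mem_univ k)
      exact mul_self_eq_zero.mp this
    have hz0 : z 0 ≠ 0 := by
      intro h0
      apply hz
      funext k
      refine Fin.cases ?_ (fun k => ?_) k
      · simpa using h0
      · simpa using hz' k
    have hη0 : η = 0 := by
      rw [hη]
      simp [hz']
    rw [hη0, hN1]
    have h1 : c * z 0 ≠ 0 := mul_ne_zero hc.ne' hz0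
    have h2 : 0 < (c * z 0) ^ 2 := by positivity
    simpa using h2

/-- Reindexing equivalence splitting off the first coordinate. -/
def splitEquiv (m : ℕ) : Unit ⊕ Fin m ≃ Fin (m + 1) where
  toFun := Sum.elim (fun _ => 0) Fin.succ
  invFun := Fin.cases (Sum.inl ()) Sum.inr
  left_inv := by
    rintro (⟨⟩ | i) <;> simp
  right_inv := by
    intro i
    refine Fin.cases ?_ (fun i => ?_) i <;> simp

theorem blockMat_det (hm : 1 ≤ m) {c b ρ τ : ℝ} (y : Fin m → ℝ) (hc : c ≠ 0) (hρ : ρ ≠ 0) :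
    (blockMat c b ρ τ y).det
      = ρ ^ (m - 1) * (c * (ρ + τ * (y ⬝ᵥ y)) - b ^ 2 * (y ⬝ᵥ y)) := by
  classical
  have h1 : (blockMat c b ρ τ y).submatrix (splitEquiv m) (splitEquiv m)
      = Matrix.fromBlocks (c • (1 : Matrix Unit Unit ℝ))
        (Matrix.of fun _ j => b * y j : Matrix Unit (Fin m) ℝ)
        (Matrix.of fun i _ => b * y i : Matrix (Fin m) Unit ℝ)
        (ρ • (1 : Matrix (Fin m) (Fin m) ℝ) + τ • vecMulVec y y) := by
    ext i j
    rcases i with ⟨⟩ | i <;> rcases j with ⟨⟩ | j <;>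
      simp [splitEquiv, Matrix.one_apply, vecMulVec_apply, mul_assoc]
  rw [← Matrix.det_submatrix_equiv_self (splitEquiv m), h1]
  let _ : Invertible (c • (1 : Matrix Unit Unit ℝ)) :=
    Matrix.invertibleOfIsUnitDet _ (by simp [hc])
  rw [Matrix.det_fromBlocks₁₁]
  have h2 : ⅟(c • (1 : Matrix Unit Unit ℝ)) = c⁻¹ • (1 : Matrix Unit Unit ℝ) := by
    apply invOf_eq_right_inv
    simp [smul_smul, hc]
  rw [h2]
  have h3 : ρ • (1 : Matrix (Fin m) (Fin m) ℝ) + τ • vecMulVec y y
      - (Matrix.of fun i _ => b * y i : Matrix (Fin m) Unit ℝ) * (c⁻¹ • (1 : Matrix Unit Unit ℝ))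
        * (Matrix.of fun _ j => b * y j : Matrix Unit (Fin m) ℝ)
      = ρ • (1 : Matrix (Fin m) (Fin m) ℝ) + (τ - b ^ 2 / c) • vecMulVec y y := by
    ext i j
    simp [Matrix.mul_apply, Matrix.one_apply, vecMulVec_apply, sub_mul, div_eq_mul_inv]
    ring
  rw [h3, det_smul_one_add_vecMulVec hm ρ _ hρ]
  simp only [Matrix.det_smul, Matrix.det_one, Fintype.card_unit, pow_one, mul_one]
  field_simp
  ring

end Vale.Agent.Lib.P252
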