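import Mathlib

open Matrix
open scoped MatrixOrder

namespace Vale.Agent.Lib.P252

variable {n : ℕ}

theorem det_le_det_of_quad_le (A H : Matrix (Fin n) (Fin n) ℝ) (hA : A.PosDef) (hH : H.IsHermitian)
    (h : ∀ e : Fin n → ℝ, e ⬝ᵥ A *ᵥ e ≤ e ⬝ᵥ H *ᵥ e) : A.det ≤ H.det := by
  classical
  obtain ⟨B, hB⟩ := CStarAlgebra.nonneg_iff_eq_star_mul_self.mp hA.posSemidef.nonneg
  have hdetA : 0 < A.det := hA.det_pos
  have hBt : star B = Bᵀ := by
    ext i j
    simp [Matrix.star_apply]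
  rw [hBt] at hB
  have hdetB : B.det ≠ 0 := by
    intro h0
    rw [hB, det_mul, h0, mul_zero] at hdetA
    exact lt_irrefl _ hdetA
  have hBu : IsUnit B.det := isUnit_iff_ne_zero.mpr hdetB
  set C := B⁻¹ with hC
  have hBC : B * C = 1 := Matrix.mul_nonsing_inv B hBu
  have hCB : C * B = 1 := Matrix.nonsing_inv_mul B hBu
  set D := Cᵀ * H * C with hD
  have hDH : D.IsHermitian := by
    have hHt : Hᵀ = H := by
      have := hH.eq
      rwa [Matrix.conjTranspose_eq_transpose_of_trivial] at this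
    rw [Matrix.IsHermitian, Matrix.conjTranspose_eq_transpose_of_trivial, hD]
    simp [Matrix.transpose_mul, hHt, Matrix.mul_assoc]
  have hHD : H = Bᵀ * D * B := by
    have h1 : Bᵀ * Cᵀ = 1 := by
      rw [← Matrix.transpose_mul, hCB, Matrix.transpose_one]
    calc H = (Bᵀ * Cᵀ) * H * (C * B) := by rw [h1, hCB]; simp
      _ = Bᵀ * D * B := by rw [hD]; simp only [Matrix.mul_assoc]
  have hdetD : 1 ≤ D.det := by
    rw [hDH.det_eq_prod_eigenvalues]
    simp only [RCLike.ofReal_real_eq_id, id_eq]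
    have hev : ∀ i, 1 ≤ hDH.eigenvalues i := by
      intro i
      rw [hDH.eigenvalues_eq]
      set v := (hDH.eigenvectorBasis i).ofLp with hv
      have hv1 : v ⬝ᵥ v = 1 := by
        have := hDH.eigenvectorBasis.orthonormal.1 i
        have h2 : ‖hDH.eigenvectorBasis i‖ ^ 2 = 1 := by rw [this]; norm_num
        rw [EuclideanSpace.norm_sq_eq] at h2
        simp only [Real.norm_eq_abs, sq_abs] at h2
        rw [dotProduct]
        simpa [hv, sq] using h2
      have hq := h (C *ᵥ v)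
      have h1 : (C *ᵥ v) ⬝ᵥ A *ᵥ (C *ᵥ v) = 1 := by
        rw [hB, ← Matrix.mulVec_mulVec, Matrix.dotProduct_mulVec, Matrix.vecMul_transpose,
          Matrix.mulVec_mulVec, hBC, Matrix.one_mulVec, hv1]
      have h2 : (C *ᵥ v) ⬝ᵥ H *ᵥ (C *ᵥ v) = v ⬝ᵥ D *ᵥ v := by
        rw [hD, ← Matrix.mulVec_mulVec, ← Matrix.mulVec_mulVec, Matrix.dotProduct_mulVec v Cᵀ,
          Matrix.vecMul_transpose]
      rw [h1, h2] at hq
      simpa using hq
    calc (1 : ℝ) = ∏ _i : Fin n, (1 : ℝ) := by simp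
      _ ≤ ∏ i, hDH.eigenvalues i :=
        Finset.prod_le_prod (fun _ _ => zero_le_one) (fun i _ => hev i)
  have hdetH : H.det = A.det * D.det := by
    rw [hHD, hB]
    simp only [det_mul, det_transpose]
    ring
  rw [hdetH]
  nlinarith

theorem det_smul_one_add_vecMulVec (hn : 1 ≤ n) (c κ : ℝ) (hc : c ≠ 0) (α : Fin n → ℝ) :
    (c • (1 : Matrix (Fin n) (Fin n) ℝ) + κ • vecMulVec α α).det
      = c ^ (n - 1) * (c + κ * (α ⬝ᵥ α)) := by
  classical
  have h1 : c • (1 : Matrix (Fin n) (Fin n) ℝ) + κ • vecMulVec α α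
      = c • (1 + replicateCol Unit ((κ / c) • α) * replicateRow Unit α) := by
    rw [smul_add, ← vecMulVec_eq Unit, smul_vecMulVec, smul_smul, mul_div_cancel₀ _ hc]
  rw [h1, det_smul, det_one_add_replicateCol_mul_replicateRow]
  have hcard : Fintype.card (Fin n) = n := Fintype.card_fin n
  rw [hcard]
  obtain ⟨m, rfl⟩ : ∃ m, n = m + 1 := ⟨n - 1, by omega⟩
  simp only [Nat.add_sub_cancel]
  rw [pow_succ]
  have : α ⬝ᵥ (κ / c) • α = (κ / c) * (α ⬝ᵥ α) := by simp [dotProduct_smul]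
  rw [this]
  field_simp

theorem quad_smul_one_add_vecMulVec (c κ : ℝ) (α e : Fin n → ℝ) :
    e ⬝ᵥ (c • (1 : Matrix (Fin n) (Fin n) ℝ) + κ • vecMulVec α α) *ᵥ e
      = c * (e ⬝ᵥ e) + κ * (α ⬝ᵥ e) ^ 2 := by
  classical
  rw [Matrix.add_mulVec, Matrix.smul_mulVec, Matrix.smul_mulVec, Matrix.one_mulVec,
    dotProduct_add, dotProduct_smul, dotProduct_smul, vecMulVec_mulVec]
  simp only [smul_eq_mul, dotProduct_smul]
  rw [dotProduct_comm e α]
  simp [dotProduct, Finset.sum_mul, mul_assoc, sq]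

end Vale.Agent.Lib.P252
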