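import Vale.Agent.Lib.P252.Defs
import Vale.Agent.Lib.P252.LinAlg

open Matrix Set Filter Topology

namespace Vale.Agent.Lib.P252

variable {n : ℕ}

theorem basis_expand (e : Fin n → ℝ) : e = ∑ i, e i • (Pi.single i (1 : ℝ) : Fin n → ℝ) := by
  ext k
  simp [Finset.sum_apply, Pi.single_apply]

theorem bilin_expand (B : (Fin n → ℝ) →L[ℝ] (Fin n → ℝ) →L[ℝ] ℝ) (e e' : Fin n → ℝ) :
    B e e' = e ⬝ᵥ (Matrix.of fun i j => B (Pi.single i 1) (Pi.single j 1)) *ᵥ e' := by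
  have h1 : ∀ x : Fin n → ℝ, (B x) e' = ∑ j, (B x) (Pi.single j 1) * e' j := by
    intro x
    conv_lhs => rw [basis_expand e']
    simp only [map_sum, map_smul, smul_eq_mul]
    exact Finset.sum_congr rfl fun j _ => mul_comm _ _
  have h2 : B e e' = ∑ i, e i * (B (Pi.single i 1)) e' := by
    conv_lhs => rw [basis_expand e]
    simp [map_sum, map_smul]
  rw [h2]
  simp only [dotProduct, mulVec, Matrix.of_apply]
  exact Finset.sum_congr rfl fun i _ => by rw [h1]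

theorem D2_eq_hess (φ : (Fin n → ℝ) → ℝ) (y e e' : Fin n → ℝ) :
    fderiv ℝ (fderiv ℝ φ) y e e' = e ⬝ᵥ hess φ y *ᵥ e' :=
  bilin_expand _ e e'

variable {φ : (Fin n → ℝ) → ℝ} {O : Set (Fin n → ℝ)}

theorem cda (hO : IsOpen O) (hφ : ContDiffOn ℝ 2 φ O) {y : Fin n → ℝ} (hy : y ∈ O) :
    ContDiffAt ℝ 2 φ y := hφ.contDiffAt (hO.mem_nhds hy)

theorem diffAt (hO : IsOpen O) (hφ : ContDiffOn ℝ 2 φ O) {y : Fin n → ℝ} (hy : y ∈ O) :
    DifferentiableAt ℝ φ y := (cda hO hφ hy).differentiableAt (by norm_num)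

theorem diffAt2 (hO : IsOpen O) (hφ : ContDiffOn ℝ 2 φ O) {y : Fin n → ℝ} (hy : y ∈ O) :
    DifferentiableAt ℝ (fderiv ℝ φ) y :=
  ((cda hO hφ hy).fderiv_right (m := 1) (by norm_num)).differentiableAt (by norm_num)

theorem hasDerivAt_line {y e : Fin n → ℝ} {t : ℝ} (h : DifferentiableAt ℝ φ (y + t • e)) :
    HasDerivAt (fun s : ℝ => φ (y + s • e)) (fderiv ℝ φ (y + t • e) e) t := by
  have h1 : HasDerivAt (fun s : ℝ => y + s • e) e t := by
    simpa using ((hasDerivAt_id t).smul_const e).const_add y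
  exact h.hasFDerivAt.comp_hasDerivAt t h1

theorem hasDerivAt_line2 {y e : Fin n → ℝ} {t : ℝ}
    (h : DifferentiableAt ℝ (fderiv ℝ φ) (y + t • e)) :
    HasDerivAt (fun s : ℝ => fderiv ℝ φ (y + s • e) e)
      (fderiv ℝ (fderiv ℝ φ) (y + t • e) e e) t := by
  have h1 : HasDerivAt (fun s : ℝ => y + s • e) e t := by
    simpa using ((hasDerivAt_id t).smul_const e).const_add y
  have h2 : HasDerivAt (fun s : ℝ => fderiv ℝ φ (y + s • e))
      (fderiv ℝ (fderiv ℝ φ) (y + t • e) e) t := h.hasFDerivAt.comp_hasDerivAt t h1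
  simpa using h2.clm_apply (hasDerivAt_const t e)

theorem tangent_strict (hO : IsOpen O) (hc : Convex ℝ O) (hφ : ContDiffOn ℝ 2 φ O)
    (hq : ∀ y ∈ O, ∀ e : Fin n → ℝ, e ≠ 0 → 0 < fderiv ℝ (fderiv ℝ φ) y e e)
    {y z : Fin n → ℝ} (hy : y ∈ O) (hz : z ∈ O) (hne : y ≠ z) :
    φ y + fderiv ℝ φ y (z - y) < φ z := by
  set e := z - y with he
  have he0 : e ≠ 0 := sub_ne_zero.mpr (Ne.symm hne)
  have hmem : ∀ t ∈ Icc (0 : ℝ) 1, y + t • e ∈ O := by
    intro t ht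
    have := hc.add_smul_sub_mem hy hz ht
    simpa [he] using this
  set g : ℝ → ℝ := fun s => φ (y + s • e) with hg
  set g' : ℝ → ℝ := fun s => fderiv ℝ φ (y + s • e) e with hg'
  have hd : ∀ t ∈ Icc (0 : ℝ) 1, HasDerivAt g (g' t) t := fun t ht =>
    hasDerivAt_line (diffAt hO hφ (hmem t ht))
  have hd2 : ∀ t ∈ Icc (0 : ℝ) 1, HasDerivAt g' (fderiv ℝ (fderiv ℝ φ) (y + t • e) e e) t :=
    fun t ht => hasDerivAt_line2 (diffAt2 hO hφ (hmem t ht))
  have hmono : StrictMonoOn g' (Icc (0 : ℝ) 1) := by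
    apply strictMonoOn_of_deriv_pos (convex_Icc 0 1)
    · exact fun t ht => (hd2 t ht).continuousAt.continuousWithinAt
    · intro t ht
      rw [interior_Icc] at ht
      have ht' : t ∈ Icc (0 : ℝ) 1 := ⟨ht.1.le, ht.2.le⟩
      rw [(hd2 t ht').deriv]
      exact hq _ (hmem t ht') e he0
  obtain ⟨c, hc1, hc2⟩ := exists_hasDerivAt_eq_slope g g' (by norm_num : (0 : ℝ) < 1)
    (fun t ht => (hd t ht).continuousAt.continuousWithinAt)
    (fun t ht => hd t ⟨ht.1.le, ht.2.le⟩)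
  have hlt : g' 0 < g' c :=
    hmono (by simp) ⟨hc1.1.le, hc1.2.le⟩ hc1.1
  have h0 : g 0 = φ y := by simp [hg]
  have h1 : g 1 = φ z := by simp [hg, he]
  have h0' : g' 0 = fderiv ℝ φ y e := by simp [hg']
  rw [hc2, h0, h1, h0'] at hlt
  simp only [sub_zero, div_one] at hlt
  linarith

theorem tangent_le (hO : IsOpen O) (hc : Convex ℝ O) (hφ : ContDiffOn ℝ 2 φ O)
    (hq : ∀ y ∈ O, ∀ e : Fin n → ℝ, e ≠ 0 → 0 < fderiv ℝ (fderiv ℝ φ) y e e)
    {y z : Fin n → ℝ} (hy : y ∈ O) (hz : z ∈ O) :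
    φ y + fderiv ℝ φ y (z - y) ≤ φ z := by
  by_cases h : y = z
  · subst h; simp
  · exact (tangent_strict hO hc hφ hq hy hz h).le

theorem convexOn_of_pos (hO : IsOpen O) (hc : Convex ℝ O) (hφ : ContDiffOn ℝ 2 φ O)
    (hq : ∀ y ∈ O, ∀ e : Fin n → ℝ, e ≠ 0 → 0 < fderiv ℝ (fderiv ℝ φ) y e e) :
    ConvexOn ℝ O φ := by
  refine ⟨hc, fun x hx z hz a b ha hb hab => ?_⟩
  have hw : a • x + b • z ∈ O := hc hx hz ha hb hab
  set w := a • x + b • z with hwdef
  have h1 := tangent_le hO hc hφ hq hw hx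
  have h2 := tangent_le hO hc hφ hq hw hz
  have h3 : a • (x - w) + b • (z - w) = 0 := by
    rw [smul_sub, smul_sub]
    have : a • w + b • w = w := by rw [← add_smul, hab, one_smul]
    rw [hwdef] at this ⊢
    simp only [sub_add_sub_comm]
    rw [this]
    simp
  have h4 : a * fderiv ℝ φ w (x - w) + b * fderiv ℝ φ w (z - w) = 0 := by
    have := congrArg (fderiv ℝ φ w) h3
    simpa using this
  simp only [smul_eq_mul]
  have h5 := mul_le_mul_of_nonneg_left h1 ha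
  have h6 := mul_le_mul_of_nonneg_left h2 hb
  rw [mul_add] at h5 h6
  have h7 : a * φ w + b * φ w = φ w := by rw [← add_mul, hab, one_mul]
  linarith

/-- The gradient map in coordinates. -/
noncomputable def grad (φ : (Fin n → ℝ) → ℝ) (y : Fin n → ℝ) : Fin n → ℝ :=
  fun i => fderiv ℝ φ y (Pi.single i 1)

noncomputable def gradD (φ : (Fin n → ℝ) → ℝ) (y : Fin n → ℝ) :
    (Fin n → ℝ) →L[ℝ] (Fin n → ℝ) :=
  ContinuousLinearMap.pi fun i => (fderiv ℝ (fderiv ℝ φ) y).flip (Pi.single i 1)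

theorem hasFDerivAt_grad {y : Fin n → ℝ} (h : DifferentiableAt ℝ (fderiv ℝ φ) y) :
    HasFDerivAt (grad φ) (gradD φ y) y := by
  rw [hasFDerivAt_pi']
  intro i
  have h1 := h.hasFDerivAt.clm_apply (hasFDerivAt_const ((Pi.single i 1 : Fin n → ℝ)) y)
  have h2 : (ContinuousLinearMap.proj i).comp (gradD φ y)
      = ((fderiv ℝ φ y).comp (0 : (Fin n → ℝ) →L[ℝ] (Fin n → ℝ))
        + (fderiv ℝ (fderiv ℝ φ) y).flip (Pi.single i 1)) := by
    ext v
    simp [gradD]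
  rw [h2]
  exact h1

theorem gradD_det (y : Fin n → ℝ) : (gradD φ y).det = (hess φ y).det := by
  classical
  have h : ((gradD φ y : (Fin n → ℝ) →L[ℝ] (Fin n → ℝ)) : (Fin n → ℝ) →ₗ[ℝ] (Fin n → ℝ))
      = Matrix.toLin' (hess φ y)ᵀ := by
    ext v i
    simp only [ContinuousLinearMap.coe_coe, gradD, ContinuousLinearMap.coe_pi',
      ContinuousLinearMap.flip_apply, LinearMap.coe_comp, Function.comp_apply,
      Matrix.toLin'_apply]
    rw [D2_eq_hess]
    simp only [mulVec, dotProduct, Matrix.transpose_apply, LinearMap.coe_single]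
    simp [Pi.single_apply, hess, mul_comm]
  rw [ContinuousLinearMap.det, h, LinearMap.det_toLin', Matrix.det_transpose]

theorem grad_injOn (hO : IsOpen O) (hc : Convex ℝ O) (hφ : ContDiffOn ℝ 2 φ O)
    (hq : ∀ y ∈ O, ∀ e : Fin n → ℝ, e ≠ 0 → 0 < fderiv ℝ (fderiv ℝ φ) y e e) :
    InjOn (grad φ) O := by
  intro z hz z' hz' hGG
  by_contra hne
  have h1 := tangent_strict hO hc hφ hq hz hz' hne
  have h2 := tangent_strict hO hc hφ hq hz' hz (Ne.symm hne)
  have hfd : fderiv ℝ φ z = fderiv ℝ φ z' := by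
    apply ContinuousLinearMap.ext
    intro v
    rw [basis_expand v]
    simp only [map_sum, map_smul]
    refine Finset.sum_congr rfl fun i _ => ?_
    have := congrFun hGG i
    simp only [grad] at this
    rw [this]
  rw [hfd] at h1
  have h3 : fderiv ℝ φ z' (z' - z) + fderiv ℝ φ z' (z - z') = 0 := by
    rw [← map_add]; simp
  linarith

theorem deriv2_nonpos_of_localMax {h h' : ℝ → ℝ} {h2 : ℝ} (hmax : IsLocalMax h 0)
    (hd : ∀ᶠ t in 𝓝 (0 : ℝ), HasDerivAt h (h' t) t) (hd2 : HasDerivAt h' h2 0) : h2 ≤ 0 := by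
  by_contra hpos
  rw [not_le] at hpos
  have hder : deriv h =ᶠ[𝓝 0] h' := hd.mono fun t ht => ht.deriv
  have h0 : HasDerivAt h (h' 0) 0 := hd.self_of_nhds
  have h00 : h' 0 = 0 := hmax.hasDerivAt_eq_zero h0
  have hdd : deriv (deriv h) 0 = h2 := by
    rw [hder.deriv_eq]; exact hd2.deriv
  have hmin : IsLocalMin h 0 := by
    apply isLocalMin_of_deriv_deriv_pos
    · rw [hdd]; exact hpos
    · rw [h0.deriv, h00]
    · exact h0.continuousAt
  have hconst : ∀ᶠ t in 𝓝 (0 : ℝ), h t = h 0 := by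
    filter_upwards [hmax, hmin] with t ht1 ht2
    exact le_antisymm ht1 ht2
  have hconst' : ∀ᶠ t in 𝓝 (0 : ℝ), h' t = 0 := by
    have := hconst.eventually_nhds
    filter_upwards [hd, this] with t ht1 ht2
    have : h =ᶠ[𝓝 t] fun _ => h 0 := ht2
    exact ht1.unique ((hasDerivAt_const t (h 0)).congr_of_eventuallyEq this)
  have hzero : HasDerivAt h' 0 0 := by
    have hc0 : h' =ᶠ[𝓝 0] fun _ => (0 : ℝ) := hconst'
    exact (hasDerivAt_const (0 : ℝ) (0 : ℝ)).congr_of_eventuallyEq hc0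
  have := hd2.unique hzero
  linarith

end Vale.Agent.Lib.P252
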