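import Vale.Agent.Lib.P252.Section

open Matrix Set Filter Topology

namespace Vale.Agent.Lib.P252

variable {n : ℕ}

/-- Multiplication by a matrix as a continuous linear map. -/
noncomputable def mulCLM (M : Matrix (Fin n) (Fin n) ℝ) : (Fin n → ℝ) →L[ℝ] (Fin n → ℝ) :=
  LinearMap.toContinuousLinearMap (Matrix.toLin' M)

@[simp] theorem mulCLM_apply (M : Matrix (Fin n) (Fin n) ℝ) (y : Fin n → ℝ) :
    mulCLM M y = M *ᵥ y := by
  simp [mulCLM]

theorem hess_normalized (M : Matrix (Fin n) (Fin n) ℝ) (p x0 : Fin n → ℝ) (c : ℝ)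
    {u : (Fin n → ℝ) → ℝ} {y : Fin n → ℝ} (hu : ContDiffAt ℝ 2 u (p + M *ᵥ y)) :
    hess (fun y' => c * tangentGap u x0 (p + M *ᵥ y')) y
      = c • (Mᵀ * hess u (p + M *ᵥ y) * M) := by
  classical
  set Ml := mulCLM M with hMl
  set T : (Fin n → ℝ) → (Fin n → ℝ) := fun y' => p + M *ᵥ y' with hT
  set L0 := fderiv ℝ u x0 with hL0
  have hTd : ∀ y', HasFDerivAt T Ml y' := by
    intro y'
    have h1 : HasFDerivAt (fun y' => p + Ml y') Ml y' := Ml.hasFDerivAt.const_add p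
    have h2 : (fun y' => p + Ml y') = T := by
      funext z; simp [hT, hMl]
    rwa [h2] at h1
  have hTcont : Continuous T := by
    have : T = fun y' => p + Ml y' := by funext z; simp [hT, hMl]
    rw [this]; fun_prop
  have hev : ∀ᶠ y' in 𝓝 y, ContDiffAt ℝ 2 u (T y') :=
    hTcont.continuousAt.eventually (hu.eventually (by norm_num))
  have h1 : ∀ᶠ y' in 𝓝 y, HasFDerivAt (fun y' => c * tangentGap u x0 (T y'))
      (c • ((fderiv ℝ u (T y') - L0).comp Ml)) y' := by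
    filter_upwards [hev] with y' hy'
    have hud : HasFDerivAt u (fderiv ℝ u (T y')) (T y') :=
      (hy'.differentiableAt (by norm_num)).hasFDerivAt
    have hA : HasFDerivAt (fun x => u x0 + L0 (x - x0)) L0 (T y') := by
      have : HasFDerivAt (fun x => L0 (x - x0)) L0 (T y') := by
        have h3 := L0.hasFDerivAt.comp (T y') ((hasFDerivAt_id (T y')).sub_const x0)
        rw [ContinuousLinearMap.comp_id] at h3
        exact h3
      exact this.const_add _
    have hgap : HasFDerivAt (tangentGap u x0) (fderiv ℝ u (T y') - L0) (T y') := hud.sub hA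
    exact (hgap.comp y' (hTd y')).const_mul c
  have h2 : fderiv ℝ (fun y' => c * tangentGap u x0 (T y')) =ᶠ[𝓝 y]
      fun y' => c • ((fderiv ℝ u (T y') - L0).comp Ml) := by
    filter_upwards [h1] with y' hy'
    exact hy'.fderiv
  set G : ((Fin n → ℝ) →L[ℝ] ℝ) →L[ℝ] ((Fin n → ℝ) →L[ℝ] ℝ) :=
    (ContinuousLinearMap.compL ℝ (Fin n → ℝ) (Fin n → ℝ) ℝ).flip Ml with hG
  have h3 : HasFDerivAt (fun y' => c • ((fderiv ℝ u (T y') - L0).comp Ml))
      (c • (G.comp ((fderiv ℝ (fderiv ℝ u) (T y)).comp Ml))) y := by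
    have hDu : HasFDerivAt (fderiv ℝ u) (fderiv ℝ (fderiv ℝ u) (T y)) (T y) :=
      ((hu.fderiv_right (m := 1) (by norm_num)).differentiableAt (by norm_num)).hasFDerivAt
    have h4 : HasFDerivAt (fun y' => fderiv ℝ u (T y'))
        ((fderiv ℝ (fderiv ℝ u) (T y)).comp Ml) y := hDu.comp y (hTd y)
    have h5 : HasFDerivAt (fun y' => G (fderiv ℝ u (T y') - L0))
        (G.comp ((fderiv ℝ (fderiv ℝ u) (T y)).comp Ml)) y :=
      G.hasFDerivAt.comp y (h4.sub_const L0)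
    have h6 : (fun y' => c • ((fderiv ℝ u (T y') - L0).comp Ml))
        = fun y' => c • G (fderiv ℝ u (T y') - L0) := by
      funext z
      simp [hG]
    rw [h6]
    exact h5.const_smul c
  have h4 : fderiv ℝ (fderiv ℝ (fun y' => c * tangentGap u x0 (T y'))) y
      = c • (G.comp ((fderiv ℝ (fderiv ℝ u) (T y)).comp Ml)) := by
    rw [h2.fderiv_eq]
    exact h3.fderiv
  ext i j
  simp only [hess, Matrix.of_apply]
  rw [h4]
  have hkey : ∀ e e' : Fin n → ℝ,
      (M *ᵥ e) ⬝ᵥ hess u (T y) *ᵥ (M *ᵥ e') = e ⬝ᵥ (Mᵀ * hess u (T y) * M) *ᵥ e' := by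
    intro e e'
    rw [← mulVec_mulVec, ← mulVec_mulVec, dotProduct_mulVec e Mᵀ, vecMul_transpose]
  have hval : (c • (G.comp ((fderiv ℝ (fderiv ℝ u) (T y)).comp Ml))) (Pi.single i 1) (Pi.single j 1)
      = c * ((M *ᵥ (Pi.single i 1 : Fin n → ℝ)) ⬝ᵥ hess u (T y) *ᵥ (M *ᵥ (Pi.single j 1))) := by
    rw [← D2_eq_hess]
    simp [hG, hMl]
  have hsingle : ∀ X : Matrix (Fin n) (Fin n) ℝ,
      (Pi.single i 1 : Fin n → ℝ) ⬝ᵥ X *ᵥ (Pi.single j 1) = X i j := by
    intro X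
    simp [dotProduct, mulVec, Pi.single_apply]
  rw [hval, hkey, hsingle]
  rfl

theorem contDiffOn_normalized (M : Matrix (Fin n) (Fin n) ℝ) (p x0 : Fin n → ℝ) (c : ℝ)
    {u : (Fin n → ℝ) → ℝ} {Ω : Set (Fin n → ℝ)} (hu : ContDiffOn ℝ 2 u Ω) :
    ContDiffOn ℝ 2 (fun y' => c * tangentGap u x0 (p + M *ᵥ y'))
      ((fun y' => p + M *ᵥ y') ⁻¹' Ω) := by
  have hT : ContDiff ℝ 2 (fun y' : Fin n → ℝ => p + M *ᵥ y') := by
    have : (fun y' : Fin n → ℝ => p + M *ᵥ y') = fun y' => p + mulCLM M y' := by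
      funext z; simp
    rw [this]
    exact contDiff_const.add (mulCLM M).contDiff
  have hgap : ContDiffOn ℝ 2 (tangentGap u x0) Ω := by
    have h1 : ContDiff ℝ 2 fun x : Fin n → ℝ => u x0 + fderiv ℝ u x0 (x - x0) := by
      apply contDiff_const.add
      exact (fderiv ℝ u x0).contDiff.comp (contDiff_id.sub contDiff_const)
    exact hu.sub h1.contDiffOn
  exact contDiffOn_const.mul (hgap.comp hT.contDiffOn (fun y hy => hy))

end Vale.Agent.Lib.P252
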