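import Mathlib

namespace Vale.Agent.Lib.P252

/-- The Hessian matrix of `f` at `x`: the second derivative of `f` at `x`, evaluated on the
standard basis vectors of `ℝⁿ`. -/
noncomputable def hess {n : ℕ} (f : (Fin n → ℝ) → ℝ) (x : Fin n → ℝ) :
    Matrix (Fin n) (Fin n) ℝ :=
  Matrix.of fun i j => fderiv ℝ (fderiv ℝ f) x (Pi.single i 1) (Pi.single j 1)

/-- The function `w = (det D²u) ^ (-(n+1)/(n+2))` of the affine maximal equation. -/
noncomputable def affW {n : ℕ} (u : (Fin n → ℝ) → ℝ) (x : Fin n → ℝ) : ℝ :=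
  (hess u x).det ^ (-((n : ℝ) + 1) / ((n : ℝ) + 2))

/-- The graph of `u` over `Ω`, as a subset of `ℝⁿ × ℝ`. -/
def graphOver {n : ℕ} (Ω : Set (Fin n → ℝ)) (u : (Fin n → ℝ) → ℝ) : Set ((Fin n → ℝ) × ℝ) :=
  {p | p.1 ∈ Ω ∧ p.2 = u p.1}

end Vale.Agent.Lib.P252
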