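import Mathlib

open Set Filter Topology

namespace Vale.Agent.Lib.P252

/-- `F` has first derivatives `a` and `b` at `(s, t)`, as a differentiable function of two
variables. -/
def HasGrad (F : ℝ → ℝ → ℝ) (a b s t : ℝ) : Prop :=
  HasFDerivAt (fun p : ℝ × ℝ => F p.1 p.2)
    (a • ContinuousLinearMap.fst ℝ ℝ ℝ + b • ContinuousLinearMap.snd ℝ ℝ ℝ) (s, t)

variable {F G : ℝ → ℝ → ℝ} {a b c d s t : ℝ}

theorem HasGrad.congr (h : HasGrad F a b s t) {a' b' : ℝ} (ha : a = a') (hb : b = b') :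
    HasGrad F a' b' s t := by
  rw [← ha, ← hb]
  exact h

theorem hasGrad_fst (s t : ℝ) : HasGrad (fun s _ => s) 1 0 s t := by
  have := (ContinuousLinearMap.fst ℝ ℝ ℝ).hasFDerivAt (x := (s, t))
  refine HasFDerivAt.congr_fderiv this ?_
  simp

theorem hasGrad_const (c s t : ℝ) : HasGrad (fun _ _ => c) 0 0 s t := by
  have : HasFDerivAt (fun _ : ℝ × ℝ => c) (0 : ℝ × ℝ →L[ℝ] ℝ) (s, t) := hasFDerivAt_const c (s, t)
  refine HasFDerivAt.congr_fderiv this ?_
  simp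

theorem hasGrad_of_deriv {φ : ℝ → ℝ} {φ1 : ℝ} (s : ℝ) (h : HasDerivAt φ φ1 t) :
    HasGrad (fun _ t => φ t) 0 φ1 s t := by
  have h1 := (ContinuousLinearMap.snd ℝ ℝ ℝ).hasFDerivAt (x := (s, t))
  have h2 : HasFDerivAt (fun p : ℝ × ℝ => φ p.2) _ (s, t) :=
    HasDerivAt.comp_hasFDerivAt (s, t) (f := fun p : ℝ × ℝ => p.2) h h1
  refine h2.congr_fderiv ?_
  ext <;> simp

theorem HasGrad.add (hF : HasGrad F a b s t) (hG : HasGrad G c d s t) :
    HasGrad (fun s t => F s t + G s t) (a + c) (b + d) s t := by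
  have h := HasFDerivAt.add hF hG
  refine h.congr_fderiv ?_
  ext <;> simp

theorem HasGrad.mul (hF : HasGrad F a b s t) (hG : HasGrad G c d s t) :
    HasGrad (fun s t => F s t * G s t) (F s t * c + G s t * a) (F s t * d + G s t * b) s t := by
  have h : HasFDerivAt (fun p : ℝ × ℝ => F p.1 p.2 * G p.1 p.2) _ (s, t) := HasFDerivAt.mul hF hG
  refine h.congr_fderiv ?_
  ext <;> simp

theorem HasGrad.const_mul (hF : HasGrad F a b s t) (r : ℝ) :
    HasGrad (fun s t => r * F s t) (r * a) (r * b) s t := by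
  have h : HasFDerivAt (fun p : ℝ × ℝ => r * F p.1 p.2) _ (s, t) := HasFDerivAt.const_mul hF r
  refine h.congr_fderiv ?_
  ext <;> simp

theorem HasGrad.pow (hF : HasGrad F a b s t) (n : ℕ) :
    HasGrad (fun s t => F s t ^ n) (n * F s t ^ (n - 1) * a) (n * F s t ^ (n - 1) * b) s t := by
  have h : HasFDerivAt (fun p : ℝ × ℝ => F p.1 p.2 ^ n) _ (s, t) := HasFDerivAt.pow hF n
  refine h.congr_fderiv ?_
  ext <;> simp

theorem HasGrad.pow_succ (hF : HasGrad F a b s t) (n : ℕ) :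
    HasGrad (fun s t => F s t ^ (n + 1)) (((n : ℝ) + 1) * F s t ^ n * a)
      (((n : ℝ) + 1) * F s t ^ n * b) s t := by
  have := hF.pow (n + 1)
  simpa using this

theorem HasGrad.inv (hF : HasGrad F a b s t) (h0 : F s t ≠ 0) :
    HasGrad (fun s t => (F s t)⁻¹) (-(a / F s t ^ 2)) (-(b / F s t ^ 2)) s t := by
  have h1 : HasDerivAt (fun x : ℝ => x⁻¹) (-(F s t ^ 2)⁻¹) (F s t) := hasDerivAt_inv h0
  have h : HasFDerivAt (fun p : ℝ × ℝ => (F p.1 p.2)⁻¹) _ (s, t) :=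
    HasDerivAt.comp_hasFDerivAt (s, t) (f := fun p : ℝ × ℝ => F p.1 p.2) h1 hF
  refine h.congr_fderiv ?_
  ext <;> simp <;> field_simp

theorem HasGrad.sqrt (hF : HasGrad F a b s t) (h0 : F s t ≠ 0) :
    HasGrad (fun s t => Real.sqrt (F s t)) (a / (2 * Real.sqrt (F s t)))
      (b / (2 * Real.sqrt (F s t))) s t := by
  have h : HasFDerivAt (fun p : ℝ × ℝ => Real.sqrt (F p.1 p.2)) _ (s, t) := HasFDerivAt.sqrt hF h0
  refine h.congr_fderiv ?_
  ext <;> simp <;> ring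

end Vale.Agent.Lib.P252
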