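import Vale.Agent.Lib.P252.Radial
import Vale.Agent.Lib.P252.Grad

open Matrix Set Filter Topology

namespace Vale.Agent.Lib.P252

/-- Profile data for the ansatz `sqrt (s² + 4 f(|y|²))` in dimension `k + 3`. -/
structure Profile (k : ℕ) (J : Set ℝ) (f f1 f2 g g1 g2 : ℝ → ℝ) : Prop where
  hJ : IsOpen J
  hJ0 : ∀ t, 0 ≤ t → t ∈ J
  hf : ∀ t ∈ J, HasDerivAt f (f1 t) t
  hf1 : ∀ t ∈ J, HasDerivAt f1 (f2 t) t
  hg : ∀ t ∈ J, HasDerivAt g (g1 t) t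
  hg1 : ∀ t ∈ J, HasDerivAt g1 (g2 t) t
  fpos : ∀ t ∈ J, 0 < f t
  f1pos : ∀ t ∈ J, 0 < f1 t
  Bpos : ∀ t ∈ J, 0 < f t * f1 t + 2 * t * f t * f2 t - t * f1 t ^ 2
  gdef : ∀ t ∈ J, g t = ((4 : ℝ) ^ (k + 3) * f1 t ^ (k + 1)
      * (f t * f1 t + 2 * t * f t * f2 t - t * f1 t ^ 2)) ^ (-((k : ℝ) + 4) / ((k : ℝ) + 5))
  am : ∀ t ∈ J, ((k : ℝ) + 4) * ((k : ℝ) + 3) * (f1 t + 2 * t * f2 t) * g t / 2
      + 2 * ((k : ℝ) + 4) * t * f1 t * g1 t + 2 * t * f t * g2 t + f t * g1 t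
      + ((k : ℝ) + 1) * (f t * f1 t + 2 * t * f t * f2 t - t * f1 t ^ 2) * g1 t / f1 t = 0

/-- The radius function `sqrt (s² + 4 f t)`. -/
noncomputable def RR (f : ℝ → ℝ) (s t : ℝ) : ℝ := Real.sqrt (s ^ 2 + 4 * f t)

section derivs

variable {k : ℕ} {J : Set ℝ} {f f1 f2 g g1 g2 : ℝ → ℝ}

theorem RR_pos (h : Profile k J f f1 f2 g g1 g2) (s : ℝ) {t : ℝ} (ht : t ∈ J) : 0 < RR f s t := by
  have := h.fpos t ht
  unfold RR
  apply Real.sqrt_pos.mpr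
  positivity

theorem RR_sq (h : Profile k J f f1 f2 g g1 g2) (s : ℝ) {t : ℝ} (ht : t ∈ J) :
    RR f s t ^ 2 = s ^ 2 + 4 * f t := by
  have := h.fpos t ht
  unfold RR
  exact Real.sq_sqrt (by positivity)

theorem hasGrad_RR (h : Profile k J f f1 f2 g g1 g2) (s : ℝ) {t : ℝ} (ht : t ∈ J) :
    HasGrad (RR f) (s * (RR f s t)⁻¹) (2 * f1 t * (RR f s t)⁻¹) s t := by
  have hp := h.fpos t ht
  have h1 : HasGrad (fun s t => s ^ 2 + 4 * f t) (2 * s) (4 * f1 t) s t := by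
    have a1 := ((hasGrad_fst s t).pow 2)
    have a2 := (hasGrad_of_deriv s (h.hf t ht)).const_mul 4
    have a3 := a1.add a2
    refine a3.congr (by simp) (by simp)
  have h2 := h1.sqrt (by positivity)
  have hr : 0 < RR f s t := RR_pos h s ht
  refine HasGrad.congr h2 ?_ ?_
  · change 2 * s / (2 * RR f s t) = _
    field_simp
  · change 4 * f1 t / (2 * RR f s t) = _
    field_simp
    ring

theorem hasGrad_RRinv (h : Profile k J f f1 f2 g g1 g2) (s : ℝ) {t : ℝ} (ht : t ∈ J) :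
    HasGrad (fun s t => (RR f s t)⁻¹) (-(s * ((RR f s t)⁻¹) ^ 3)) (-(2 * f1 t * ((RR f s t)⁻¹) ^ 3))
      s t := by
  have hr : 0 < RR f s t := RR_pos h s ht
  refine ((hasGrad_RR h s ht).inv hr.ne').congr ?_ ?_ <;> field_simp

/-- First derivative of `RR` in `s`. -/
noncomputable def Au (f : ℝ → ℝ) (s t : ℝ) : ℝ := s * (RR f s t)⁻¹

/-- First derivative of `RR` in `t`. -/
noncomputable def Bu (f f1 : ℝ → ℝ) (s t : ℝ) : ℝ := 2 * (f1 t * (RR f s t)⁻¹)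

theorem hasGrad_u (h : Profile k J f f1 f2 g g1 g2) (s : ℝ) {t : ℝ} (ht : t ∈ J) :
    HasGrad (RR f) (Au f s t) (Bu f f1 s t) s t := by
  refine (hasGrad_RR h s ht).congr rfl ?_
  simp only [Bu]
  ring

theorem hasGrad_Au (h : Profile k J f f1 f2 g g1 g2) (s : ℝ) {t : ℝ} (ht : t ∈ J) :
    HasGrad (Au f) (4 * f t * ((RR f s t)⁻¹) ^ 3) (-2 * s * f1 t * ((RR f s t)⁻¹) ^ 3) s t := by
  have hr : 0 < RR f s t := RR_pos h s ht
  have h2 := RR_sq h s ht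
  have h3 := (hasGrad_fst s t).mul (hasGrad_RRinv h s ht)
  refine HasGrad.congr h3 ?_ ?_
  · field_simp
    linear_combination h2
  · field_simp
    ring

theorem hasGrad_Bu (h : Profile k J f f1 f2 g g1 g2) (s : ℝ) {t : ℝ} (ht : t ∈ J) :
    HasGrad (Bu f f1) (-2 * s * f1 t * ((RR f s t)⁻¹) ^ 3)
      (2 * f2 t * (RR f s t)⁻¹ - 4 * f1 t ^ 2 * ((RR f s t)⁻¹) ^ 3) s t := by
  have hr : 0 < RR f s t := RR_pos h s ht
  have h3 := ((hasGrad_of_deriv s (h.hf1 t ht)).mul (hasGrad_RRinv h s ht)).const_mul 2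
  refine HasGrad.congr h3 ?_ ?_
  · field_simp
    ring
  · field_simp
    ring

/-- The function `w` in the coordinates `(s, t)`. -/
noncomputable def Wf (k : ℕ) (f g : ℝ → ℝ) (s t : ℝ) : ℝ := RR f s t ^ (k + 4) * g t

/-- Its first derivative in `s`. -/
noncomputable def Aw (k : ℕ) (f g : ℝ → ℝ) (s t : ℝ) : ℝ :=
  ((k : ℝ) + 4) * RR f s t ^ (k + 2) * s * g t

/-- Its first derivative in `t`. -/
noncomputable def Bw (k : ℕ) (f f1 g g1 : ℝ → ℝ) (s t : ℝ) : ℝ :=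
  RR f s t ^ (k + 4) * g1 t + 2 * ((k : ℝ) + 4) * RR f s t ^ (k + 2) * f1 t * g t

theorem hasGrad_Wf (h : Profile k J f f1 f2 g g1 g2) (s : ℝ) {t : ℝ} (ht : t ∈ J) :
    HasGrad (Wf k f g) (Aw k f g s t) (Bw k f f1 g g1 s t) s t := by
  have hr : 0 < RR f s t := RR_pos h s ht
  have h1 := (hasGrad_RR h s ht).pow_succ (k + 3)
  have h3 := h1.mul (hasGrad_of_deriv s (h.hg t ht))
  refine HasGrad.congr h3 ?_ ?_
  · simp only [Aw]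
    push_cast
    field_simp
    ring
  · simp only [Bw]
    push_cast
    field_simp
    ring

theorem hasGrad_Aw (h : Profile k J f f1 f2 g g1 g2) (s : ℝ) {t : ℝ} (ht : t ∈ J) :
    HasGrad (Aw k f g)
      (((k : ℝ) + 4) * RR f s t ^ (k + 2) * g t
        + ((k : ℝ) + 4) * ((k : ℝ) + 2) * RR f s t ^ k * s ^ 2 * g t)
      (((k : ℝ) + 4) * RR f s t ^ (k + 2) * s * g1 t
        + 2 * ((k : ℝ) + 4) * ((k : ℝ) + 2) * RR f s t ^ k * s * f1 t * g t) s t := by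
  have hr : 0 < RR f s t := RR_pos h s ht
  have h1 := ((hasGrad_RR h s ht).pow_succ (k + 1)).const_mul ((k : ℝ) + 4)
  have h3 := (h1.mul (hasGrad_fst s t)).mul (hasGrad_of_deriv s (h.hg t ht))
  refine HasGrad.congr h3 ?_ ?_
  · push_cast
    field_simp
    ring
  · push_cast
    field_simp
    ring

theorem hasGrad_Bw (h : Profile k J f f1 f2 g g1 g2) (s : ℝ) {t : ℝ} (ht : t ∈ J) :
    HasGrad (Bw k f f1 g g1)
      (((k : ℝ) + 4) * RR f s t ^ (k + 2) * s * g1 t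
        + 2 * ((k : ℝ) + 4) * ((k : ℝ) + 2) * RR f s t ^ k * s * f1 t * g t)
      (RR f s t ^ (k + 4) * g2 t + 4 * ((k : ℝ) + 4) * RR f s t ^ (k + 2) * f1 t * g1 t
        + 2 * ((k : ℝ) + 4) * RR f s t ^ (k + 2) * f2 t * g t
        + 4 * ((k : ℝ) + 4) * ((k : ℝ) + 2) * RR f s t ^ k * f1 t ^ 2 * g t) s t := by
  have hr : 0 < RR f s t := RR_pos h s ht
  have h1 := ((hasGrad_RR h s ht).pow_succ (k + 3)).mul (hasGrad_of_deriv s (h.hg1 t ht))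
  have h2 := (((((hasGrad_RR h s ht).pow_succ (k + 1)).const_mul (2 * ((k : ℝ) + 4))).mul
    (hasGrad_of_deriv s (h.hf1 t ht)))).mul (hasGrad_of_deriv s (h.hg t ht))
  have h3 := h1.add h2
  refine HasGrad.congr h3 ?_ ?_
  · push_cast
    field_simp
    ring
  · push_cast
    field_simp
    ring

end derivs


section scalar

/-- The scalar identity behind the equation: the trace of the inverse Hessian of `u` against the
Hessian of `w` is a multiple of the reduced equation. -/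
theorem trace_identity (k : ℕ) {R s t f f1 f2 g g1 g2 : ℝ} (hR : 0 < R) (hf1 : 0 < f1)
    (hB : 0 < f * f1 + 2 * t * f * f2 - t * f1 ^ 2) (h2 : R ^ 2 = s ^ 2 + 4 * f) :
    (R ^ 3 * (f1 + 2 * t * f2) / (4 * (f * f1 + 2 * t * f * f2 - t * f1 ^ 2))
        - t * f1 ^ 2 * R / (f * f1 + 2 * t * f * f2 - t * f1 ^ 2))
      * (((k : ℝ) + 4) * R ^ (k + 2) * g + ((k : ℝ) + 4) * ((k : ℝ) + 2) * R ^ k * s ^ 2 * g)
    + 2 * (s * f1 * R / (4 * (f * f1 + 2 * t * f * f2 - t * f1 ^ 2)))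
      * (2 * (((k : ℝ) + 4) * R ^ (k + 2) * s * g1
        + 2 * ((k : ℝ) + 4) * ((k : ℝ) + 2) * R ^ k * s * f1 * g)) * t
    + ((k + 2 : ℕ) : ℝ) * (R / (4 * f1)) * (2 * (R ^ (k + 4) * g1
        + 2 * ((k : ℝ) + 4) * R ^ (k + 2) * f1 * g))
    + (R / (4 * f1)) * (4 * (R ^ (k + 4) * g2 + 4 * ((k : ℝ) + 4) * R ^ (k + 2) * f1 * g1
        + 2 * ((k : ℝ) + 4) * R ^ (k + 2) * f2 * g
        + 4 * ((k : ℝ) + 4) * ((k : ℝ) + 2) * R ^ k * f1 ^ 2 * g)) * t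
    + (R * (f1 ^ 2 - 2 * f * f2) / (4 * f1 * (f * f1 + 2 * t * f * f2 - t * f1 ^ 2)))
      * (2 * (R ^ (k + 4) * g1 + 2 * ((k : ℝ) + 4) * R ^ (k + 2) * f1 * g)) * t
    + (R * (f1 ^ 2 - 2 * f * f2) / (4 * f1 * (f * f1 + 2 * t * f * f2 - t * f1 ^ 2)))
      * (4 * (R ^ (k + 4) * g2 + 4 * ((k : ℝ) + 4) * R ^ (k + 2) * f1 * g1
        + 2 * ((k : ℝ) + 4) * R ^ (k + 2) * f2 * g
        + 4 * ((k : ℝ) + 4) * ((k : ℝ) + 2) * R ^ k * f1 ^ 2 * g)) * t ^ 2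
    = R ^ (k + 5) / (2 * (f * f1 + 2 * t * f * f2 - t * f1 ^ 2))
      * (((k : ℝ) + 4) * ((k : ℝ) + 3) * (f1 + 2 * t * f2) * g / 2
      + 2 * ((k : ℝ) + 4) * t * f1 * g1 + 2 * t * f * g2 + f * g1
      + ((k : ℝ) + 1) * (f * f1 + 2 * t * f * f2 - t * f1 ^ 2) * g1 / f1) := by
  have hs : s ^ 2 = R ^ 2 - 4 * f := by linarith
  have hB' := hB.ne'
  have hf1' := hf1.ne'
  have hR' := hR.ne'
  have e1 : (s * f1 * R / (4 * (f * f1 + 2 * t * f * f2 - t * f1 ^ 2)))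
      * (2 * (((k : ℝ) + 4) * R ^ (k + 2) * s * g1
        + 2 * ((k : ℝ) + 4) * ((k : ℝ) + 2) * R ^ k * s * f1 * g))
      = s ^ 2 * ((f1 * R / (4 * (f * f1 + 2 * t * f * f2 - t * f1 ^ 2)))
      * (2 * (((k : ℝ) + 4) * R ^ (k + 2) * g1
        + 2 * ((k : ℝ) + 4) * ((k : ℝ) + 2) * R ^ k * f1 * g))) := by ring
  have e2 : 2 * (s * f1 * R / (4 * (f * f1 + 2 * t * f * f2 - t * f1 ^ 2)))
      * (2 * (((k : ℝ) + 4) * R ^ (k + 2) * s * g1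
        + 2 * ((k : ℝ) + 4) * ((k : ℝ) + 2) * R ^ k * s * f1 * g)) * t
      = 2 * (s * f1 * R / (4 * (f * f1 + 2 * t * f * f2 - t * f1 ^ 2))
      * (2 * (((k : ℝ) + 4) * R ^ (k + 2) * s * g1
        + 2 * ((k : ℝ) + 4) * ((k : ℝ) + 2) * R ^ k * s * f1 * g))) * t := by ring
  rw [e2, e1, hs]
  push_cast
  generalize hBdef : f * f1 + 2 * t * f * f2 - t * f1 ^ 2 = B at hB' ⊢
  field_simp
  rw [← hBdef]
  ring

end scalar


section assemble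

variable {k : ℕ} {J : Set ℝ} {f f1 f2 g g1 g2 : ℝ → ℝ}

/-- The function `sqrt (s² + 4 f(|y|²))`. -/
noncomputable def Uf (k : ℕ) (f : ℝ → ℝ) (z : Fin (k + 2 + 1) → ℝ) : ℝ := RR f (z 0) (tt z)

theorem hess_Uf (h : Profile k J f f1 f2 g g1 g2) (z : Fin (k + 2 + 1) → ℝ) :
    hess (Uf k f) z = blockMat (4 * f (tt z) * ((RR f (z 0) (tt z))⁻¹) ^ 3)
      (2 * (-2 * z 0 * f1 (tt z) * ((RR f (z 0) (tt z))⁻¹) ^ 3))
      (2 * Bu f f1 (z 0) (tt z))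
      (4 * (2 * f2 (tt z) * (RR f (z 0) (tt z))⁻¹
        - 4 * f1 (tt z) ^ 2 * ((RR f (z 0) (tt z))⁻¹) ^ 3)) (fun k => z k.succ) := by
  have := hess_radial (Φ := RR f) (A := Au f) (B := Bu f f1)
    (A1 := fun s t => 4 * f t * ((RR f s t)⁻¹) ^ 3)
    (A2 := fun s t => -2 * s * f1 t * ((RR f s t)⁻¹) ^ 3)
    (B2 := fun s t => 2 * f2 t * (RR f s t)⁻¹ - 4 * f1 t ^ 2 * ((RR f s t)⁻¹) ^ 3)
    h.hJ (fun s t ht => hasGrad_u h s ht) (fun s t ht => hasGrad_Au h s ht)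
    (fun s t ht => hasGrad_Bu h s ht) (z := z) (h.hJ0 _ (tt_nonneg z))
  exact this

theorem hess_Wf (h : Profile k J f f1 f2 g g1 g2) (z : Fin (k + 2 + 1) → ℝ) :
    hess (fun z : Fin (k + 2 + 1) → ℝ => Wf k f g (z 0) (tt z)) z = blockMat
      (((k : ℝ) + 4) * RR f (z 0) (tt z) ^ (k + 2) * g (tt z)
        + ((k : ℝ) + 4) * ((k : ℝ) + 2) * RR f (z 0) (tt z) ^ k * (z 0) ^ 2 * g (tt z))
      (2 * (((k : ℝ) + 4) * RR f (z 0) (tt z) ^ (k + 2) * (z 0) * g1 (tt z)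
        + 2 * ((k : ℝ) + 4) * ((k : ℝ) + 2) * RR f (z 0) (tt z) ^ k * (z 0) * f1 (tt z) * g (tt z)))
      (2 * Bw k f f1 g g1 (z 0) (tt z))
      (4 * (RR f (z 0) (tt z) ^ (k + 4) * g2 (tt z)
        + 4 * ((k : ℝ) + 4) * RR f (z 0) (tt z) ^ (k + 2) * f1 (tt z) * g1 (tt z)
        + 2 * ((k : ℝ) + 4) * RR f (z 0) (tt z) ^ (k + 2) * f2 (tt z) * g (tt z)
        + 4 * ((k : ℝ) + 4) * ((k : ℝ) + 2) * RR f (z 0) (tt z) ^ k * f1 (tt z) ^ 2 * g (tt z)))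
      (fun k => z k.succ) := by
  have := hess_radial (Φ := Wf k f g) (A := Aw k f g) (B := Bw k f f1 g g1)
    (A1 := fun s t => ((k : ℝ) + 4) * RR f s t ^ (k + 2) * g t
        + ((k : ℝ) + 4) * ((k : ℝ) + 2) * RR f s t ^ k * s ^ 2 * g t)
    (A2 := fun s t => ((k : ℝ) + 4) * RR f s t ^ (k + 2) * s * g1 t
        + 2 * ((k : ℝ) + 4) * ((k : ℝ) + 2) * RR f s t ^ k * s * f1 t * g t)
    (B2 := fun s t => RR f s t ^ (k + 4) * g2 t + 4 * ((k : ℝ) + 4) * RR f s t ^ (k + 2) * f1 t * g1 t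
        + 2 * ((k : ℝ) + 4) * RR f s t ^ (k + 2) * f2 t * g t
        + 4 * ((k : ℝ) + 4) * ((k : ℝ) + 2) * RR f s t ^ k * f1 t ^ 2 * g t)
    h.hJ (fun s t ht => hasGrad_Wf h s ht) (fun s t ht => hasGrad_Aw h s ht)
    (fun s t ht => hasGrad_Bw h s ht) (z := z) (h.hJ0 _ (tt_nonneg z))
  exact this

theorem inv_rel1 {R s t f f1 f2 : ℝ} (hR : 0 < R) (hB : 0 < f * f1 + 2 * t * f * f2 - t * f1 ^ 2)
    (h2 : R ^ 2 = s ^ 2 + 4 * f) :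
    (4 * f * (R⁻¹) ^ 3) * (R ^ 3 * (f1 + 2 * t * f2) / (4 * (f * f1 + 2 * t * f * f2 - t * f1 ^ 2))
        - t * f1 ^ 2 * R / (f * f1 + 2 * t * f * f2 - t * f1 ^ 2))
      + (2 * (-2 * s * f1 * (R⁻¹) ^ 3)) * (s * f1 * R / (4 * (f * f1 + 2 * t * f * f2 - t * f1 ^ 2)))
        * t = 1 := by
  have hs : s ^ 2 = R ^ 2 - 4 * f := by linarith
  have hR' := hR.ne'
  have e1 : (2 * (-2 * s * f1 * (R⁻¹) ^ 3)) * (s * f1 * R / (4 * (f * f1 + 2 * t * f * f2 - t * f1 ^ 2)))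
        * t = s ^ 2 * ((2 * (-2 * f1 * (R⁻¹) ^ 3)) * (f1 * R / (4 * (f * f1 + 2 * t * f * f2 - t * f1 ^ 2)))
        * t) := by ring
  rw [e1, hs]
  have hB' := hB.ne'
  generalize hBdef : f * f1 + 2 * t * f * f2 - t * f1 ^ 2 = B at hB' ⊢
  field_simp
  rw [← hBdef]
  ring

theorem inv_rel2 {R s t f f1 f2 : ℝ} (hR : 0 < R) (hf1 : 0 < f1)
    (hB : 0 < f * f1 + 2 * t * f * f2 - t * f1 ^ 2) :
    (4 * f * (R⁻¹) ^ 3) * (s * f1 * R / (4 * (f * f1 + 2 * t * f * f2 - t * f1 ^ 2)))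
      + (2 * (-2 * s * f1 * (R⁻¹) ^ 3)) * (R / (4 * f1))
      + (2 * (-2 * s * f1 * (R⁻¹) ^ 3))
        * (R * (f1 ^ 2 - 2 * f * f2) / (4 * f1 * (f * f1 + 2 * t * f * f2 - t * f1 ^ 2))) * t = 0 := by
  have hR' := hR.ne'
  have hf' := hf1.ne'
  have hB' := hB.ne'
  generalize hBdef : f * f1 + 2 * t * f * f2 - t * f1 ^ 2 = B at hB' ⊢
  field_simp
  rw [← hBdef]
  ring

theorem inv_rel3 {R s t f f1 f2 : ℝ} (hR : 0 < R) (hf1 : 0 < f1)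
    (hB : 0 < f * f1 + 2 * t * f * f2 - t * f1 ^ 2) :
    (2 * (-2 * s * f1 * (R⁻¹) ^ 3)) * (R ^ 3 * (f1 + 2 * t * f2) / (4 * (f * f1 + 2 * t * f * f2 - t * f1 ^ 2))
        - t * f1 ^ 2 * R / (f * f1 + 2 * t * f * f2 - t * f1 ^ 2))
      + (2 * (2 * (f1 * R⁻¹))) * (s * f1 * R / (4 * (f * f1 + 2 * t * f * f2 - t * f1 ^ 2)))
      + (4 * (2 * f2 * R⁻¹ - 4 * f1 ^ 2 * (R⁻¹) ^ 3))
        * (s * f1 * R / (4 * (f * f1 + 2 * t * f * f2 - t * f1 ^ 2))) * t = 0 := by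
  have hR' := hR.ne'
  have hf' := hf1.ne'
  have hB' := hB.ne'
  generalize hBdef : f * f1 + 2 * t * f * f2 - t * f1 ^ 2 = B at hB' ⊢
  field_simp
  ring

theorem inv_rel5 {R s t f f1 f2 : ℝ} (hR : 0 < R) (hf1 : 0 < f1)
    (hB : 0 < f * f1 + 2 * t * f * f2 - t * f1 ^ 2) (h2 : R ^ 2 = s ^ 2 + 4 * f) :
    (2 * (-2 * s * f1 * (R⁻¹) ^ 3)) * (s * f1 * R / (4 * (f * f1 + 2 * t * f * f2 - t * f1 ^ 2)))
      + (2 * (2 * (f1 * R⁻¹)))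
        * (R * (f1 ^ 2 - 2 * f * f2) / (4 * f1 * (f * f1 + 2 * t * f * f2 - t * f1 ^ 2)))
      + (4 * (2 * f2 * R⁻¹ - 4 * f1 ^ 2 * (R⁻¹) ^ 3)) * (R / (4 * f1))
      + (4 * (2 * f2 * R⁻¹ - 4 * f1 ^ 2 * (R⁻¹) ^ 3))
        * (R * (f1 ^ 2 - 2 * f * f2) / (4 * f1 * (f * f1 + 2 * t * f * f2 - t * f1 ^ 2))) * t = 0 := by
  have hs : s ^ 2 = R ^ 2 - 4 * f := by linarith
  have hR' := hR.ne'
  have hf' := hf1.ne'
  have e1 : (2 * (-2 * s * f1 * (R⁻¹) ^ 3)) * (s * f1 * R / (4 * (f * f1 + 2 * t * f * f2 - t * f1 ^ 2)))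
      = s ^ 2 * ((2 * (-2 * f1 * (R⁻¹) ^ 3)) * (f1 * R / (4 * (f * f1 + 2 * t * f * f2 - t * f1 ^ 2)))) := by
    ring
  rw [e1, hs]
  have hB' := hB.ne'
  generalize hBdef : f * f1 + 2 * t * f * f2 - t * f1 ^ 2 = B at hB' ⊢
  field_simp
  rw [← hBdef]
  ring

theorem schur_eq {R s t f f1 f2 : ℝ} (hR : 0 < R) (h2 : R ^ 2 = s ^ 2 + 4 * f) :
    (4 * f * (R⁻¹) ^ 3) * ((2 * (2 * (f1 * R⁻¹)))
        + (4 * (2 * f2 * R⁻¹ - 4 * f1 ^ 2 * (R⁻¹) ^ 3)) * t)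
      - (2 * (-2 * s * f1 * (R⁻¹) ^ 3)) ^ 2 * t
      = 16 * (f * f1 + 2 * t * f * f2 - t * f1 ^ 2) * (R⁻¹) ^ 4 := by
  have hs : s ^ 2 = R ^ 2 - 4 * f := by linarith
  have hR' := hR.ne'
  have e1 : (2 * (-2 * s * f1 * (R⁻¹) ^ 3)) ^ 2 = s ^ 2 * (16 * f1 ^ 2 * (R⁻¹) ^ 6) := by ring
  rw [e1, hs]
  field_simp
  ring

end assemble


section final

variable {k : ℕ} {J : Set ℝ} {f f1 f2 g g1 g2 : ℝ → ℝ}

theorem tt_dot (z : Fin (k + 2 + 1) → ℝ) :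
    (fun j : Fin (k + 2) => z j.succ) ⬝ᵥ (fun j => z j.succ) = tt z := rfl

theorem posDef_Uf (h : Profile k J f f1 f2 g g1 g2) (z : Fin (k + 2 + 1) → ℝ) :
    (hess (Uf k f) z).PosDef := by
  have ht := h.hJ0 _ (tt_nonneg z)
  have hR := RR_pos h (z 0) ht
  have hi : 0 < (RR f (z 0) (tt z))⁻¹ := inv_pos.mpr hR
  rw [hess_Uf h]
  apply blockMat_posDef
  · have := h.fpos _ ht
    positivity
  · have := h.f1pos _ ht
    simp only [Bu]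
    positivity
  · rw [tt_dot]
    simp only [Bu]
    rw [schur_eq hR (RR_sq h (z 0) ht)]
    have := h.Bpos _ ht
    positivity

theorem det_Uf (h : Profile k J f f1 f2 g g1 g2) (z : Fin (k + 2 + 1) → ℝ) :
    (hess (Uf k f) z).det = ((4 : ℝ) ^ (k + 3) * f1 (tt z) ^ (k + 1)
      * (f (tt z) * f1 (tt z) + 2 * tt z * f (tt z) * f2 (tt z) - tt z * f1 (tt z) ^ 2))
      * ((RR f (z 0) (tt z))⁻¹) ^ (k + 5) := by
  have ht := h.hJ0 _ (tt_nonneg z)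
  have hR := RR_pos h (z 0) ht
  have hi : 0 < (RR f (z 0) (tt z))⁻¹ := inv_pos.mpr hR
  have hf := h.fpos _ ht
  have hf1 := h.f1pos _ ht
  rw [hess_Uf h, blockMat_det (by omega)]
  · rw [tt_dot]
    simp only [Bu]
    rw [schur_eq hR (RR_sq h (z 0) ht)]
    simp only [Nat.add_succ_sub_one]
    have : (4:ℝ) ^ (k + 3) = 4 ^ (k + 1) * 16 := by rw [pow_add (4:ℝ) k 3, pow_add (4:ℝ) k 1]; ring
    rw [this]
    have e : 2 + k - 1 = k + 1 := by omega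
    ring
  · positivity
  · simp only [Bu]
    positivity

theorem affW_Uf (h : Profile k J f f1 f2 g g1 g2) :
    affW (Uf k f) = fun z : Fin (k + 2 + 1) → ℝ => Wf k f g (z 0) (tt z) := by
  funext z
  have ht := h.hJ0 _ (tt_nonneg z)
  have hR := RR_pos h (z 0) ht
  have hi : 0 < (RR f (z 0) (tt z))⁻¹ := inv_pos.mpr hR
  have hf1 := h.f1pos _ ht
  have hB := h.Bpos _ ht
  unfold affW Wf
  rw [det_Uf h, h.gdef _ ht]
  have hC : 0 ≤ (4 : ℝ) ^ (k + 3) * f1 (tt z) ^ (k + 1)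
      * (f (tt z) * f1 (tt z) + 2 * tt z * f (tt z) * f2 (tt z) - tt z * f1 (tt z) ^ 2) := by
    positivity
  have hexp : -(((k + 2 + 1 : ℕ) : ℝ) + 1) / (((k + 2 + 1 : ℕ) : ℝ) + 2)
      = -((k : ℝ) + 4) / ((k : ℝ) + 5) := by
    push_cast
    congr 1 <;> ring
  rw [hexp, Real.mul_rpow hC (by positivity)]
  have e2 : (((RR f (z 0) (tt z))⁻¹) ^ (k + 5)) ^ (-((k : ℝ) + 4) / ((k : ℝ) + 5))
      = RR f (z 0) (tt z) ^ (k + 4) := by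
    rw [← Real.rpow_natCast, ← Real.rpow_mul hi.le]
    have e3 : ((k + 5 : ℕ) : ℝ) * (-((k : ℝ) + 4) / ((k : ℝ) + 5)) = -(((k + 4 : ℕ) : ℝ)) := by
      push_cast
      have : (k : ℝ) + 5 ≠ 0 := by positivity
      field_simp
    rw [e3, Real.rpow_neg hi.le, Real.rpow_natCast, inv_pow, inv_inv]
  rw [e2]
  ring

theorem am_Uf (h : Profile k J f f1 f2 g g1 g2) (z : Fin (k + 2 + 1) → ℝ) :
    ∑ i, ∑ j, ((hess (Uf k f) z).det • (hess (Uf k f) z)⁻¹) i j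
      * hess (affW (Uf k f)) z i j = 0 := by
  have ht := h.hJ0 _ (tt_nonneg z)
  have hR := RR_pos h (z 0) ht
  have hf1 := h.f1pos _ ht
  have hB := h.Bpos _ ht
  have h2 := RR_sq h (z 0) ht
  have hinv : (hess (Uf k f) z)⁻¹ = blockMat
      ((RR f (z 0) (tt z)) ^ 3 * (f1 (tt z) + 2 * tt z * f2 (tt z))
          / (4 * (f (tt z) * f1 (tt z) + 2 * tt z * f (tt z) * f2 (tt z) - tt z * f1 (tt z) ^ 2))
        - tt z * f1 (tt z) ^ 2 * (RR f (z 0) (tt z))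
          / (f (tt z) * f1 (tt z) + 2 * tt z * f (tt z) * f2 (tt z) - tt z * f1 (tt z) ^ 2))
      (z 0 * f1 (tt z) * (RR f (z 0) (tt z))
          / (4 * (f (tt z) * f1 (tt z) + 2 * tt z * f (tt z) * f2 (tt z) - tt z * f1 (tt z) ^ 2)))
      ((RR f (z 0) (tt z)) / (4 * f1 (tt z)))
      ((RR f (z 0) (tt z)) * (f1 (tt z) ^ 2 - 2 * f (tt z) * f2 (tt z))
          / (4 * f1 (tt z) * (f (tt z) * f1 (tt z) + 2 * tt z * f (tt z) * f2 (tt z)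
            - tt z * f1 (tt z) ^ 2)))
      (fun k => z k.succ) := by
    rw [hess_Uf h]
    apply blockMat_inv
    · rw [tt_dot]
      exact inv_rel1 hR hB h2
    · rw [tt_dot]
      exact inv_rel2 hR hf1 hB
    · rw [tt_dot]
      simp only [Bu]
      exact inv_rel3 hR hf1 hB
    · simp only [Bu]
      have := hR.ne'
      have := hf1.ne'
      field_simp
      norm_num
    · rw [tt_dot]
      simp only [Bu]
      exact inv_rel5 hR hf1 hB h2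
  have e : ∀ (d : ℝ) (P Q : Matrix (Fin (k + 2 + 1)) (Fin (k + 2 + 1)) ℝ),
      ∑ i, ∑ j, (d • P) i j * Q i j = d * ∑ i, ∑ j, P i j * Q i j := by
    intro d P Q
    simp only [Matrix.smul_apply, smul_eq_mul, Finset.mul_sum, mul_assoc]
  rw [affW_Uf h, hess_Wf h, e, hinv, blockMat_sum_mul, tt_dot]
  have := trace_identity k hR hf1 hB h2 (g := g (tt z)) (g1 := g1 (tt z)) (g2 := g2 (tt z))
  simp only [Bw]
  rw [h.am _ ht, mul_zero] at this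
  rw [this, mul_zero]

end final

end Vale.Agent.Lib.P252
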