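import Vale.Agent.Lib.P252.Picard

open Set Filter Topology
open scoped NNReal

namespace Vale.Agent.Lib.P252

variable {m : ℝ}

theorem Dl_sub (m s t : ℝ) :
    Dl m s - Dl m t = (t - s) * ((m ^ 2 - 2 * m + 9) - 4 * (s + t)) := by
  unfold Dl
  ring

theorem Dl_anti (hm : 9 ≤ m) {s t : ℝ} (hst : s ≤ t) (ht : t ≤ 9) : Dl m t ≤ Dl m s := by
  have h := Dl_sub m s t
  have h1 : 0 ≤ (t - s) * ((m ^ 2 - 2 * m + 9) - 4 * (s + t)) := by
    apply mul_nonneg (by linarith)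
    nlinarith
  linarith

theorem Dl_pos (hm : 9 ≤ m) {q t : ℝ} (hq : Dl m q = 0) (hq9 : q ≤ 9) (ht : t < q) : 0 < Dl m t := by
  have h := Dl_sub m t q
  have h1 : 0 < (q - t) * ((m ^ 2 - 2 * m + 9) - 4 * (t + q)) := by
    apply mul_pos (by linarith)
    nlinarith
  linarith

/-- The curve on which the second factor of the right hand side vanishes. -/
noncomputable def vc (m α : ℝ) : ℝ := Dl m α / (m ^ 2 - 3 * α)

theorem den_pos (hm : 9 ≤ m) {t : ℝ} (ht : t ≤ 9) : 0 < m ^ 2 - 3 * t := by nlinarith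

theorem vc_le_four (hm : 9 ≤ m) {t : ℝ} (ht0 : 0 ≤ t) (ht : t ≤ 9) : vc m t ≤ 4 := by
  have hd := den_pos hm ht
  rw [vc, div_le_iff₀ hd]
  unfold Dl
  have h1 : t * (4 * t - (m ^ 2 - 2 * m - 3)) ≤ 0 := by
    apply mul_nonpos_of_nonneg_of_nonpos ht0
    nlinarith
  nlinarith

theorem Dl_hasDerivAt (m t : ℝ) : HasDerivAt (Dl m) (8 * t - (m ^ 2 - 2 * m + 9)) t := by
  have hp := hasDerivAt_pow 2 t
  have h : HasDerivAt (fun x => 4 * x ^ 2 - (m ^ 2 - 2 * m + 9) * x + 4 * m ^ 2) _ t :=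
    ((hp.const_mul 4).fun_sub ((hasDerivAt_id' t).const_mul (m ^ 2 - 2 * m + 9))).add_const
    (4 * m ^ 2)
  refine h.congr_deriv ?_
  norm_num
  ring

theorem vc_hasDerivAt (hm : 9 ≤ m) {t : ℝ} (ht : t ≤ 9) :
    HasDerivAt (vc m) (((8 * t - (m ^ 2 - 2 * m + 9)) * (m ^ 2 - 3 * t) + 3 * Dl m t)
      / (m ^ 2 - 3 * t) ^ 2) t := by
  have hd := den_pos hm ht
  have h1 := Dl_hasDerivAt m t
  have h2 : HasDerivAt (fun t : ℝ => m ^ 2 - 3 * t) (-3) t := by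
    have := ((hasDerivAt_id' t).const_mul 3).const_sub (m ^ 2)
    simpa using this
  have h3 := h1.fun_div h2 hd.ne'
  refine h3.congr_deriv ?_
  ring

theorem vc_deriv_gt (hm : 9 ≤ m) {t : ℝ} (ht0 : 0 ≤ t) (ht : t ≤ 9) :
    -1 < ((8 * t - (m ^ 2 - 2 * m + 9)) * (m ^ 2 - 3 * t) + 3 * Dl m t) / (m ^ 2 - 3 * t) ^ 2 := by
  have hd := den_pos hm ht
  rw [lt_div_iff₀ (by positivity)]
  have e : (8 * t - (m ^ 2 - 2 * m + 9)) * (m ^ 2 - 3 * t) + 3 * Dl m t + (m ^ 2 - 3 * t) ^ 2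
      = (2 * t + 2 * m - 3) * (m ^ 2 - 3 * t) + 3 * (t ^ 2 + (2 * m - 3) * t + 2 * m ^ 2) := by
    unfold Dl
    ring
  have h1 : 0 < (2 * t + 2 * m - 3) * (m ^ 2 - 3 * t) := mul_pos (by linarith) hd
  have h2 : 0 < t ^ 2 + (2 * m - 3) * t + 2 * m ^ 2 := by
    have : 0 ≤ (2 * m - 3) * t := mul_nonneg (by linarith) ht0
    nlinarith
  nlinarith

theorem Fv_at_vc (hm : 9 ≤ m) {t : ℝ} (ht : t ≤ 9) : Fv m t (vc m t) = -1 := by
  have hd := den_pos hm ht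
  have h : Dl m t + vc m t * (3 * t - m ^ 2) = 0 := by
    rw [vc]
    field_simp
    ring
  rw [Fv, h]
  simp

theorem Fv_lower (hm : 9 ≤ m) {t : ℝ} (ht0 : 0 < t) (ht4 : t < 4) : -1 < Fv m t (4 - t) := by
  have h4 : 0 < 4 - t := by linarith
  have e : Fv m t (4 - t) = 2 * (t + 2 * m + 3) / ((m + t) * (4 - t)) - 1 := by
    unfold Fv Dl
    have hmt : m + t ≠ 0 := by positivity
    field_simp
    ring
  rw [e]
  have : 0 < 2 * (t + 2 * m + 3) / ((m + t) * (4 - t)) := by positivity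
  linarith

theorem Fv_ell_gt {ℓ t : ℝ} (hm : 9 ≤ m) (hℓ : 0 < ℓ) (ht0 : 0 < t) (h1 : 0 < ℓ + t - 2)
    (h2 : 0 < Dl m t + ℓ * (3 * t - m ^ 2)) : -1 < Fv m t ℓ := by
  have : 0 < (ℓ + t - 2) * (Dl m t + ℓ * (3 * t - m ^ 2)) / (t * (m + t) * ℓ) := by positivity
  rw [Fv]
  linarith

theorem Fv_ell_pos {ℓ t : ℝ} (hm : 9 ≤ m) (hℓ : 0 < ℓ) (ht0 : 0 < t)
    (h : t * (m + t) * ℓ < (ℓ + t - 2) * (Dl m t + ℓ * (3 * t - m ^ 2))) : 0 < Fv m t ℓ := by
  have hd : 0 < t * (m + t) * ℓ := by positivity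
  have := (one_lt_div hd).mpr h
  rw [Fv]
  linarith

/-- Right derivative from a derivative within an interval. -/
theorem right_of_Icc {v : ℝ → ℝ} {d a b t : ℝ} (h : HasDerivWithinAt v d (Icc a b) t)
    (ht : t ∈ Ico a b) : HasDerivWithinAt v d (Ici t) t :=
  h.mono_of_mem_nhdsWithin (Icc_mem_nhdsGE_of_mem ht)

/-- Solutions of the truncated problem stay between the three fences. -/
theorem exists_fenced {q a β v₀ : ℝ} (hm : 9 ≤ m) (hq : Dl m q = 0) (hq9 : q ≤ 9)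
    (ha0 : 0 < a) (ha1 : a ≤ 1) (haβ : a ≤ β) (hβ : β < q) (hv1 : 4 - a ≤ v₀) (hv2 : v₀ ≤ vc m a) :
    ∃ (ℓ : ℝ) (v : ℝ → ℝ), 0 < ℓ ∧ ℓ ≤ 1 ∧ v a = v₀
      ∧ (∀ t ∈ Icc a β, HasDerivWithinAt v (Fv m t (v t)) (Icc a β) t)
      ∧ ∀ t ∈ Icc a β, ℓ ≤ v t ∧ 4 - t ≤ v t ∧ v t ≤ vc m t := by
  have hm0 : (0 : ℝ) < m := by linarith
  have hm0' : 0 ≤ m := hm0.le
  have hDβ : 0 < Dl m β := Dl_pos hm hq hq9 hβ
  have hc : 0 < 2 * m ^ 2 + 9 * m + 81 := by positivity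
  obtain ⟨ℓ, hℓdef⟩ : ∃ ℓ, ℓ = min 1 (Dl m β / (2 * m ^ 2 + 9 * m + 81)) := ⟨_, rfl⟩
  have hℓ0 : 0 < ℓ := by
    rw [hℓdef]
    exact lt_min one_pos (by positivity)
  have hℓ1 : ℓ ≤ 1 := by
    rw [hℓdef]
    exact min_le_left _ _
  have hℓ2 : ℓ * (2 * m ^ 2 + 9 * m + 81) ≤ Dl m β := by
    have : ℓ ≤ Dl m β / (2 * m ^ 2 + 9 * m + 81) := by
      rw [hℓdef]
      exact min_le_right _ _
    rwa [le_div_iff₀ hc] at this
  have hℓ4 : ℓ ≤ 4 := by linarith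
  obtain ⟨v, hv0, hv⟩ := exists_picard (m := m) (ℓ := ℓ) (a := a) (b := β) v₀ hm0' hℓ0 hℓ4 ha0 haβ
  have hcont : ContinuousOn v (Icc a β) := fun t ht => (hv t ht).continuousWithinAt
  have hβ9 : β ≤ 9 := by linarith
  have hD : ∀ t ∈ Icc a β, Dl m β ≤ Dl m t := fun t ht => Dl_anti hm ht.2 hβ9
  -- the lower fence with slope minus one
  have hA : ∀ t ∈ Icc a β, 4 - t ≤ v t := by
    intro t ht
    have := image_le_of_deriv_right_lt_deriv_boundary (a := a) (b := β) (f := fun t => - v t)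
      (f' := fun t => - Ft m ℓ t (v t)) (B := fun t => t - 4) (B' := fun _ => 1)
      hcont.neg (fun x hx => (right_of_Icc (hv x (Ico_subset_Icc_self hx)) hx).neg)
      (by
        show - v a ≤ a - 4
        rw [hv0]
        linarith)
      (fun x => (hasDerivAt_id x).sub_const 4)
      (by
        intro x hx hcontact
        have hx0 : 0 < x := lt_of_lt_of_le ha0 hx.1
        have hxI : x ∈ Icc a β := Ico_subset_Icc_self hx
        have hvx : v x = 4 - x := by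
          have h' : - v x = x - 4 := hcontact
          linarith
        show - Ft m ℓ x (v x) < 1
        rw [hvx]
        rcases le_total ℓ (4 - x) with h | h
        · have hcl : clampv ℓ (4 - x) = 4 - x := clampv_of_mem h (by linarith)
          rw [Ft, hcl]
          have := Fv_lower hm hx0 (by linarith : x < 4)
          linarith
        · have hcl : clampv ℓ (4 - x) = ℓ := by
            rw [clampv, min_eq_left (by linarith), max_eq_left h]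
          rw [Ft, hcl]
          have h2 : 0 < Dl m x + ℓ * (3 * x - m ^ 2) := by
            have := hD x hxI
            nlinarith [mul_pos hℓ0 hx0, mul_pos hℓ0 hm0]
          have := Fv_ell_gt hm hℓ0 hx0 (by linarith) h2
          linarith) ht
    have this' : - v t ≤ t - 4 := this
    linarith
  -- the constant lower fence
  have hB : ∀ t ∈ Icc a β, ℓ ≤ v t := by
    intro t ht
    have := image_le_of_deriv_right_lt_deriv_boundary (a := a) (b := β) (f := fun t => - v t)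
      (f' := fun t => - Ft m ℓ t (v t)) (B := fun _ => - ℓ) (B' := fun _ => 0)
      hcont.neg (fun x hx => (right_of_Icc (hv x (Ico_subset_Icc_self hx)) hx).neg)
      (by
        show - v a ≤ - ℓ
        rw [hv0]
        linarith)
      (fun x => hasDerivAt_const x (-ℓ))
      (by
        intro x hx hcontact
        have hx0 : 0 < x := lt_of_lt_of_le ha0 hx.1
        have hxI : x ∈ Icc a β := Ico_subset_Icc_self hx
        have hvx : v x = ℓ := by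
          have h' : - v x = - ℓ := hcontact
          linarith
        have hlow := hA x hxI
        show - Ft m ℓ x (v x) < 0
        rw [hvx] at hlow ⊢
        have hcl : clampv ℓ ℓ = ℓ := clampv_of_mem le_rfl hℓ4
        rw [Ft, hcl]
        have hx9 : x ≤ 9 := by linarith [hxI.2]
        have hDx := hD x hxI
        have h1 : 2 ≤ ℓ + x - 2 := by linarith
        have h2 : Dl m β - ℓ * m ^ 2 ≤ Dl m x + ℓ * (3 * x - m ^ 2) := by
          nlinarith [mul_pos hℓ0 hx0]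
        have h3 : 0 < Dl m β - ℓ * m ^ 2 := by nlinarith [mul_pos hℓ0 hm0]
        have h4 : x * (m + x) ≤ 9 * (m + 9) := by nlinarith
        have h5 : x * (m + x) * ℓ ≤ 9 * (m + 9) * ℓ := mul_le_mul_of_nonneg_right h4 hℓ0.le
        have h6 : 2 * (Dl m β - ℓ * m ^ 2) ≤ (ℓ + x - 2) * (Dl m x + ℓ * (3 * x - m ^ 2)) :=
          mul_le_mul h1 h2 h3.le (by linarith)
        have h7 : 9 * (m + 9) * ℓ < 2 * (Dl m β - ℓ * m ^ 2) := by
          nlinarith [mul_pos hℓ0 hm0]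
        have := Fv_ell_pos hm hℓ0 hx0 (by linarith : x * (m + x) * ℓ < _)
        linarith) ht
    have this' : - v t ≤ - ℓ := this
    linarith
  -- the upper fence
  have hC : ∀ t ∈ Icc a β, v t ≤ vc m t := by
    intro t ht
    have hcontB : ContinuousOn (vc m) (Icc a β) := fun x hx =>
      (vc_hasDerivAt hm (by linarith [hx.2])).continuousAt.continuousWithinAt
    exact image_le_of_deriv_right_lt_deriv_boundary' (a := a) (b := β) (f := v)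
      (f' := fun t => Ft m ℓ t (v t)) (B := vc m)
      (B' := fun t => ((8 * t - (m ^ 2 - 2 * m + 9)) * (m ^ 2 - 3 * t) + 3 * Dl m t)
        / (m ^ 2 - 3 * t) ^ 2)
      hcont (fun x hx => right_of_Icc (hv x (Ico_subset_Icc_self hx)) hx)
      (by rw [hv0]; exact hv2) hcontB
      (fun x hx => (vc_hasDerivAt hm (by linarith [hx.2])).hasDerivWithinAt)
      (by
        intro x hx hcontact
        have hx0 : 0 < x := lt_of_lt_of_le ha0 hx.1
        have hxI : x ∈ Icc a β := Ico_subset_Icc_self hx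
        have hx9 : x ≤ 9 := by linarith [hxI.2]
        have hcl : clampv ℓ (v x) = v x :=
          clampv_of_mem (hB x hxI) (by rw [hcontact]; exact vc_le_four hm hx0.le hx9)
        rw [Ft, hcl, hcontact, Fv_at_vc hm hx9]
        exact vc_deriv_gt hm hx0.le hx9) ht
  refine ⟨ℓ, v, hℓ0, hℓ1, hv0, fun t ht => ?_, fun t ht => ⟨hB t ht, hA t ht, hC t ht⟩⟩
  have ht0 : 0 < t := lt_of_lt_of_le ha0 ht.1
  have ht9 : t ≤ 9 := by linarith [ht.2]
  have hcl : clampv ℓ (v t) = v t :=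
    clampv_of_mem (hB t ht) ((hC t ht).trans (vc_le_four hm ht0.le ht9))
  have := hv t ht
  rwa [Ft, hcl] at this

/-- Two solutions between the same bounds agree. -/
theorem sol_agree {ℓ a b : ℝ} {f g : ℝ → ℝ} (hm : 9 ≤ m) (hℓ : 0 < ℓ) (ha : 0 < a)
    (hf : ContinuousOn f (Icc a b)) (hf' : ∀ t ∈ Ico a b, HasDerivWithinAt f (Fv m t (f t)) (Ici t) t)
    (hfb : ∀ t ∈ Ico a b, ℓ ≤ f t ∧ f t ≤ 4)
    (hg : ContinuousOn g (Icc a b)) (hg' : ∀ t ∈ Ico a b, HasDerivWithinAt g (Fv m t (g t)) (Ici t) t)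
    (hgb : ∀ t ∈ Ico a b, ℓ ≤ g t ∧ g t ≤ 4)
    (h0 : f a = g a) : EqOn f g (Icc a b) := by
  have hm0 : 0 ≤ m := by linarith
  refine Ft_unique (m := m) (ℓ := ℓ) hm0 hℓ ha hf (fun t ht => ?_) hg (fun t ht => ?_) h0
  · rw [Ft, clampv_of_mem (hfb t ht).1 (hfb t ht).2]
    exact hf' t ht
  · rw [Ft, clampv_of_mem (hgb t ht).1 (hgb t ht).2]
    exact hg' t ht

/-- The solution on the whole interval up to the root. -/
theorem exists_global {q a v₀ : ℝ} (hm : 9 ≤ m) (hq : Dl m q = 0) (hq9 : q ≤ 9)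
    (ha0 : 0 < a) (ha1 : a ≤ 1) (haq : a < q) (hv1 : 4 - a ≤ v₀) (hv2 : v₀ ≤ vc m a) :
    ∃ V : ℝ → ℝ, (∀ t ∈ Ioo a q, HasDerivAt V (Fv m t (V t)) t)
      ∧ (∀ t ∈ Ioo a q, 0 < V t ∧ 4 - t ≤ V t ∧ V t ≤ vc m t)
      ∧ ∀ (w : ℝ → ℝ) (b : ℝ), a ≤ b → b < q → w a = v₀ → ContinuousOn w (Icc a b)
        → (∀ t ∈ Ico a b, HasDerivWithinAt w (Fv m t (w t)) (Ici t) t)
        → (∀ t ∈ Ico a b, 1 ≤ w t ∧ w t ≤ 4)
        → ∀ t ∈ Ioo a b, V t = w t := by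
  have key : ∀ β : ℝ, a ≤ β ∧ β < q → ∃ (ℓ : ℝ) (v : ℝ → ℝ), 0 < ℓ ∧ ℓ ≤ 1 ∧ v a = v₀
      ∧ (∀ t ∈ Icc a β, HasDerivWithinAt v (Fv m t (v t)) (Icc a β) t)
      ∧ ∀ t ∈ Icc a β, ℓ ≤ v t ∧ 4 - t ≤ v t ∧ v t ≤ vc m t :=
    fun β hβ => exists_fenced hm hq hq9 ha0 ha1 hβ.1 hβ.2 hv1 hv2
  choose! L W hL0 hL1 hW0 hWd hWb using key
  have hW4 : ∀ β, a ≤ β ∧ β < q → ∀ t ∈ Icc a β, W β t ≤ 4 := by
    intro β hβ t ht
    have ht0 : 0 < t := lt_of_lt_of_le ha0 ht.1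
    exact ((hWb β hβ t ht).2.2).trans (vc_le_four hm ht0.le (by linarith [ht.2]))
  have hagree : ∀ β₁ β₂, a ≤ β₁ ∧ β₁ < q → a ≤ β₂ ∧ β₂ < q → ∀ s, a ≤ s → s ≤ β₁ → s ≤ β₂ →
      W β₁ s = W β₂ s := by
    intro β₁ β₂ h₁ h₂ s hs hs₁ hs₂
    have hsub₁ : Icc a s ⊆ Icc a β₁ := Icc_subset_Icc_right hs₁
    have hsub₂ : Icc a s ⊆ Icc a β₂ := Icc_subset_Icc_right hs₂
    have := sol_agree (m := m) (ℓ := min (L β₁) (L β₂)) (a := a) (b := s)
      (f := W β₁) (g := W β₂) hm (lt_min (hL0 β₁ h₁) (hL0 β₂ h₂)) ha0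
      (fun t ht => ((hWd β₁ h₁ t (hsub₁ ht)).continuousWithinAt).mono hsub₁)
      (fun t ht => right_of_Icc (hWd β₁ h₁ t (hsub₁ (Ico_subset_Icc_self ht)))
        ⟨ht.1, lt_of_lt_of_le ht.2 hs₁⟩)
      (fun t ht => ⟨(min_le_left _ _).trans (hWb β₁ h₁ t (hsub₁ (Ico_subset_Icc_self ht))).1,
        hW4 β₁ h₁ t (hsub₁ (Ico_subset_Icc_self ht))⟩)
      (fun t ht => ((hWd β₂ h₂ t (hsub₂ ht)).continuousWithinAt).mono hsub₂)
      (fun t ht => right_of_Icc (hWd β₂ h₂ t (hsub₂ (Ico_subset_Icc_self ht)))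
        ⟨ht.1, lt_of_lt_of_le ht.2 hs₂⟩)
      (fun t ht => ⟨(min_le_right _ _).trans (hWb β₂ h₂ t (hsub₂ (Ico_subset_Icc_self ht))).1,
        hW4 β₂ h₂ t (hsub₂ (Ico_subset_Icc_self ht))⟩)
      ((hW0 β₁ h₁).trans (hW0 β₂ h₂).symm)
    exact this ⟨hs, le_rfl⟩
  have hmid : ∀ t ∈ Ioo a q, a ≤ (t + q) / 2 ∧ (t + q) / 2 < q := fun t ht =>
    ⟨by linarith [ht.1, ht.2], by linarith [ht.2]⟩
  refine ⟨fun t => W ((t + q) / 2) t, ?_, ?_, ?_⟩
  · intro t ht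
    have h₀ := hmid t ht
    have htβ : t < (t + q) / 2 := by linarith [ht.2]
    have hd : HasDerivAt (W ((t + q) / 2)) (Fv m t (W ((t + q) / 2) t)) t :=
      (hWd _ h₀ t ⟨ht.1.le, htβ.le⟩).hasDerivAt (Icc_mem_nhds ht.1 htβ)
    refine hd.congr_of_eventuallyEq ?_
    filter_upwards [Ioo_mem_nhds ht.1 htβ] with s hs
    have hsq : s ∈ Ioo a q := ⟨hs.1, by linarith [hs.2, h₀.2]⟩
    exact hagree _ _ (hmid s hsq) h₀ s hs.1.le (by linarith [hsq.2]) hs.2.le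
  · intro t ht
    have h₀ := hmid t ht
    have hb := hWb _ h₀ t ⟨ht.1.le, by linarith [ht.2]⟩
    exact ⟨lt_of_lt_of_le (hL0 _ h₀) hb.1, hb.2⟩
  · intro w b hab hbq hw0 hwc hwd hwb t ht
    have htq : t ∈ Ioo a q := ⟨ht.1, ht.2.trans hbq⟩
    have h₀ := hmid t htq
    have htβ : t ≤ (t + q) / 2 := by linarith [htq.2]
    have hsub₁ : Icc a t ⊆ Icc a ((t + q) / 2) := Icc_subset_Icc_right htβ
    have hsub₂ : Icc a t ⊆ Icc a b := Icc_subset_Icc_right ht.2.le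
    have := sol_agree (m := m) (ℓ := L ((t + q) / 2)) (a := a) (b := t)
      (f := W ((t + q) / 2)) (g := w) hm (hL0 _ h₀) ha0
      (fun s hs => ((hWd _ h₀ s (hsub₁ hs)).continuousWithinAt).mono hsub₁)
      (fun s hs => right_of_Icc (hWd _ h₀ s (hsub₁ (Ico_subset_Icc_self hs)))
        ⟨hs.1, lt_of_lt_of_le hs.2 htβ⟩)
      (fun s hs => ⟨(hWb _ h₀ s (hsub₁ (Ico_subset_Icc_self hs))).1,
        hW4 _ h₀ s (hsub₁ (Ico_subset_Icc_self hs))⟩)
      (hwc.mono hsub₂)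
      (fun s hs => hwd s ⟨hs.1, lt_trans hs.2 ht.2⟩)
      (fun s hs => ⟨(hL1 _ h₀).trans (hwb s ⟨hs.1, lt_trans hs.2 ht.2⟩).1,
        (hwb s ⟨hs.1, lt_trans hs.2 ht.2⟩).2⟩)
      ((hW0 _ h₀).trans hw0.symm)
    exact this ⟨ht.1.le, le_rfl⟩

end Vale.Agent.Lib.P252
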