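import Vale.Agent.Lib.P252.Glue

open Set Filter Topology Matrix
open scoped ContDiff

namespace Vale.Agent.Lib.P252

theorem contDiff_tt {m : ℕ} : ContDiff ℝ ∞ (tt : (Fin (m + 1) → ℝ) → ℝ) := by
  unfold tt
  refine ContDiff.sum fun k _ => ?_
  exact (contDiff_apply ℝ ℝ k.succ).mul (contDiff_apply ℝ ℝ k.succ)

theorem contDiff_Uf {k : ℕ} {J : Set ℝ} {f f1 f2 g g1 g2 : ℝ → ℝ}
    (h : Profile k J f f1 f2 g g1 g2) (hs : ContDiffOn ℝ (⊤ : ℕ∞) f J) :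
    ContDiff ℝ ∞ (Uf k f) := by
  rw [contDiff_iff_contDiffAt]
  intro z
  have ht := h.hJ0 _ (tt_nonneg z)
  have hp := h.fpos _ ht
  have h1 : ContDiffAt ℝ ∞ f (tt z) := hs.contDiffAt (h.hJ.mem_nhds ht)
  have h2 : ContDiffAt ℝ ∞ (fun z : Fin (k + 2 + 1) → ℝ => f (tt z)) z :=
    ContDiffAt.comp z h1 contDiff_tt.contDiffAt
  have h3 : ContDiffAt ℝ ∞ (fun z : Fin (k + 2 + 1) → ℝ => z 0 ^ 2 + 4 * f (tt z)) z :=
    (((contDiff_apply ℝ ℝ (0 : Fin (k + 2 + 1))).contDiffAt).pow 2).add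
      (contDiffAt_const.mul h2)
  have h4 : (z 0 ^ 2 + 4 * f (tt z)) ≠ 0 := by positivity
  exact h3.sqrt h4

/-- The square root of `s² + C` with `C > 0` is not a polynomial of degree two. -/
theorem sqrt_not_quadratic {C α β γ : ℝ} (hC : 0 < C)
    (h : ∀ s : ℝ, Real.sqrt (s ^ 2 + C) = α * s ^ 2 + β * s + γ) : False := by
  have h0 := h 0
  have h1 := h 1
  have h2 := h (-1)
  have h3 := h 2
  norm_num at h0 h1 h2 h3
  have hP : Real.sqrt C ^ 2 = C := Real.sq_sqrt hC.le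
  have hR : Real.sqrt (1 + C) ^ 2 = 1 + C := Real.sq_sqrt (by positivity)
  have hW : Real.sqrt (4 + C) ^ 2 = 4 + C := Real.sq_sqrt (by positivity)
  rw [h0] at hP
  rw [h1] at hR
  rw [h3] at hW
  have hβ : β = 0 := by linarith
  subst hβ
  have hR' : Real.sqrt (1 + C) = α + γ := by simpa using h1
  have hWe : α * 4 + γ = 4 * (α + γ) - 3 * γ := by ring
  have e1 : 2 * (α + γ) * γ = 1 + 2 * C := by
    have e2 : (4 * (α + γ) - 3 * γ) ^ 2 = 4 + C := by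
      rw [← hWe]
      simpa using hW
    have e3 : (α + γ) ^ 2 = 1 + C := by simpa using hR
    have e4 : γ ^ 2 = C := hP
    nlinarith
  have e3 : (α + γ) ^ 2 = 1 + C := by simpa using hR
  have e4 : γ ^ 2 = C := hP
  have e5 : (2 * (α + γ) * γ) ^ 2 = 4 * (α + γ) ^ 2 * γ ^ 2 := by ring
  rw [e1, e3, e4] at e5
  nlinarith

theorem exists_profile (k : ℕ) (hk : 7 ≤ k) :
    ∃ (J : Set ℝ) (f f1 f2 g g1 g2 : ℝ → ℝ), Profile k J f f1 f2 g g1 g2
      ∧ ContDiffOn ℝ (⊤ : ℕ∞) f J := by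
  have hk' : (7 : ℝ) ≤ k := by exact_mod_cast hk
  obtain ⟨q, δ, G, hG⟩ := exists_GData (m := (k : ℝ) + 2) (by linarith)
  exact exists_profile_of_GData hG

/-- For every `n ≥ 10` there is a smooth convex function on all of `ℝⁿ` solving the affine
maximal equation which is not a polynomial of degree at most two. -/
theorem entire_counterexample (n : ℕ) (hn : 10 ≤ n) :
    ∃ u : (Fin n → ℝ) → ℝ, ContDiff ℝ ∞ u ∧ (∀ x, (hess u x).PosDef)
      ∧ (∀ x, ∑ i, ∑ j, ((hess u x).det • (hess u x)⁻¹) i j * hess (affW u) x i j = 0)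
      ∧ ∀ (A : Matrix (Fin n) (Fin n) ℝ) (b : Fin n → ℝ) (c : ℝ),
          ¬ ∀ x, u x = (1 / 2) * (x ⬝ᵥ A *ᵥ x) + b ⬝ᵥ x + c := by
  obtain ⟨k, rfl⟩ : ∃ k, n = k + 2 + 1 := ⟨n - 3, by omega⟩
  have hk : 7 ≤ k := by omega
  obtain ⟨J, f, f1, f2, g, g1, g2, hP, hs⟩ := exists_profile k hk
  refine ⟨Uf k f, contDiff_Uf hP hs, posDef_Uf hP, am_Uf hP, ?_⟩
  intro A b c hall
  have h0 : (0 : ℝ) ∈ J := hP.hJ0 0 le_rfl
  have hpos := hP.fpos 0 h0
  refine sqrt_not_quadratic (C := 4 * f 0) (α := (1 / 2) * A 0 0) (β := b 0) (γ := c)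
    (by positivity) fun s => ?_
  have hz := hall (Pi.single 0 s)
  have htt : tt (Pi.single 0 s : Fin (k + 2 + 1) → ℝ) = 0 := by
    simp [tt]
  have hq : (Pi.single 0 s : Fin (k + 2 + 1) → ℝ) ⬝ᵥ A *ᵥ (Pi.single 0 s) = s ^ 2 * A 0 0 := by
    rw [Matrix.mulVec_single, single_dotProduct]
    simp
    ring
  have hb : b ⬝ᵥ (Pi.single 0 s : Fin (k + 2 + 1) → ℝ) = b 0 * s := by
    rw [dotProduct_single]
  rw [hq, hb] at hz
  have hU : Uf k f (Pi.single 0 s) = Real.sqrt (s ^ 2 + 4 * f 0) := by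
    simp only [Uf, RR, htt]
    simp
  rw [hU] at hz
  rw [hz]
  ring

end Vale.Agent.Lib.P252
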