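import Vale.Agent.Lib.P252.OdeTools

open Set Filter Topology

namespace Vale.Agent.Lib.P252

/-- Inverse of an increasing function which is unbounded above near the right end of its interval. -/
theorem exists_inverse {a b a' : ℝ} (ha' : a' ∈ Ioo a b) {T T' : ℝ → ℝ}
    (hT : ∀ x ∈ Ioo a b, HasDerivAt T (T' x) x) (hpos : ∀ x ∈ Ioo a b, 0 < T' x)
    (hunb : ∀ C : ℝ, ∃ x ∈ Ioo a b, C ≤ T x) :
    ∃ A : ℝ → ℝ, (∀ t, T a' < t → A t ∈ Ioo a' b ∧ T (A t) = t
        ∧ HasDerivAt A (T' (A t))⁻¹ t)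
      ∧ (∀ x ∈ Ioo a' b, T a' < T x ∧ A (T x) = x) := by
  have hmono : StrictMonoOn T (Ioo a b) := by
    apply strictMonoOn_of_deriv_pos (convex_Ioo a b)
    · exact fun x hx => (hT x hx).continuousAt.continuousWithinAt
    · intro x hx
      rw [interior_Ioo] at hx
      rw [(hT x hx).deriv]
      exact hpos x hx
  have hsub : Ioo a' b ⊆ Ioo a b := fun x hx => ⟨ha'.1.trans hx.1, hx.2⟩
  have hex : ∀ t, T a' < t → ∃ x ∈ Ioo a' b, T x = t := by
    intro t ht
    obtain ⟨x1, hx1, hx1'⟩ := hunb (t + 1)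
    have hx1a : a' < x1 := by
      by_contra hcon
      have hle : x1 ≤ a' := not_lt.mp hcon
      have := hmono.monotoneOn hx1 ha' hle
      linarith
    have hcont : ContinuousOn T (Icc a' x1) := fun x hx =>
      (hT x ⟨lt_of_lt_of_le ha'.1 hx.1, lt_of_le_of_lt hx.2 hx1.2⟩).continuousAt.continuousWithinAt
    have := intermediate_value_Ioo hx1a.le hcont
    obtain ⟨x, hx, hxt⟩ := this ⟨ht, by linarith⟩
    exact ⟨x, ⟨hx.1, hx.2.trans hx1.2⟩, hxt⟩
  classical
  let A : ℝ → ℝ := fun t => if h : T a' < t then Classical.choose (hex t h) else a'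
  have hA : ∀ t, T a' < t → A t ∈ Ioo a' b ∧ T (A t) = t := by
    intro t ht
    simp only [A, dif_pos ht]
    exact Classical.choose_spec (hex t ht)
  have hAT : ∀ x ∈ Ioo a' b, T a' < T x ∧ A (T x) = x := by
    intro x hx
    have h1 : T a' < T x := hmono ha' (hsub hx) hx.1
    refine ⟨h1, ?_⟩
    have h2 := hA (T x) h1
    exact hmono.injOn (hsub h2.1) (hsub hx) h2.2
  refine ⟨A, fun t ht => ⟨(hA t ht).1, (hA t ht).2, ?_⟩, hAT⟩
  have h0 := hA t ht
  have hcont : ContinuousAt A t := by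
    rw [Metric.continuousAt_iff]
    intro ε hε
    set x := A t with hx
    obtain ⟨ε', hε'0, hε'1, hl, hr⟩ : ∃ ε' : ℝ, 0 < ε' ∧ ε' ≤ ε ∧ a' < x - ε' ∧ x + ε' < b := by
      refine ⟨min ε (min ((x - a') / 2) ((b - x) / 2)), ?_, min_le_left _ _, ?_, ?_⟩
      · have h1 := h0.1.1
        have h2 := h0.1.2
        apply lt_min hε (lt_min (by linarith) (by linarith))
      · have := min_le_right ε (min ((x - a') / 2) ((b - x) / 2))
        have h3 := min_le_left ((x - a') / 2) ((b - x) / 2)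
        have h1 := h0.1.1
        linarith
      · have := min_le_right ε (min ((x - a') / 2) ((b - x) / 2))
        have h3 := min_le_right ((x - a') / 2) ((b - x) / 2)
        have h2 := h0.1.2
        linarith
    have hxl : x - ε' ∈ Ioo a' b := ⟨hl, by linarith⟩
    have hxr : x + ε' ∈ Ioo a' b := ⟨by linarith, hr⟩
    have h3 : T (x - ε') < t := by
      rw [← h0.2]
      exact hmono (hsub hxl) (hsub h0.1) (by linarith)
    have h4 : t < T (x + ε') := by
      rw [← h0.2]
      exact hmono (hsub h0.1) (hsub hxr) (by linarith)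
    have h5 : T a' < T (x - ε') := hmono ha' (hsub hxl) hxl.1
    refine ⟨min (t - T (x - ε')) (T (x + ε') - t), lt_min (by linarith) (by linarith), ?_⟩
    intro t' ht'
    rw [Real.dist_eq, abs_lt] at ht'
    have h6 := min_le_left (t - T (x - ε')) (T (x + ε') - t)
    have h7 := min_le_right (t - T (x - ε')) (T (x + ε') - t)
    have ht'1 : T (x - ε') < t' := by linarith [ht'.1]
    have ht'2 : t' < T (x + ε') := by linarith [ht'.2]
    have h8 := hA t' (h5.trans ht'1)
    have h9 : x - ε' < A t' := by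
      apply (hmono.lt_iff_lt (hsub hxl) (hsub h8.1)).mp
      rw [h8.2]
      exact ht'1
    have h10 : A t' < x + ε' := by
      apply (hmono.lt_iff_lt (hsub h8.1) (hsub hxr)).mp
      rw [h8.2]
      exact ht'2
    rw [Real.dist_eq, abs_lt]
    constructor <;> linarith
  have hev : ∀ᶠ t' in 𝓝 t, T (A t') = t' := by
    filter_upwards [Ioi_mem_nhds ht] with t' ht'
    exact (hA t' ht').2
  exact HasDerivAt.of_local_left_inverse hcont (hT _ (hsub h0.1)) (hpos _ (hsub h0.1)).ne' hev

end Vale.Agent.Lib.P252
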