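import Vale.Agent.Lib.P252.Entire
import Vale.Agent.Lib.P252.Invert

open Set Filter Topology

namespace Vale.Agent.Lib.P252

/-- The solution of the reduced first order equation that the construction starts from. -/
structure GData (m q δ : ℝ) (G : ℝ → ℝ) : Prop where
  hm : 1 ≤ m
  hq : 0 < q
  hδ : 0 < δ
  hδ1 : δ ≤ 1
  smooth : ContDiffOn ℝ (⊤ : ℕ∞) G (Ioo (-δ) q)
  Vpos : ∀ α ∈ Ioo (-δ) q, 0 < 4 + α * G α
  Ypos : ∀ α ∈ Ioo (-δ) q, 0 < 2 + α * (1 + G α)
  ode : ∀ α ∈ Ioo (-δ) q, (m + α) * (4 + α * G α) * (1 + G α + α * deriv G α)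
    = (2 + α * (1 + G α)) * (α + 2 * m + 3 + (G α + 1) * (3 * α - m ^ 2))
  bound : ∀ α ∈ Ico 0 q, α * (4 + α * G α) ≤ 4 * (q - α)

/-- The algebraic identity turning the reduced equation into the equation for the profile. -/
theorem am_scalar {m α G E P g : ℝ} (hE : E ≠ 0) (hP : P ≠ 0) (hm : m + α ≠ 0) :
    (m + 2) * (m + 1) * (P * E / 2 + 2 * (α / E) * (P * E ^ 2 * (2 + G) / 8)) * g / 2
      + 2 * (m + 2) * (α / E) * (P * E / 2)
          * (-(m + 2) / 4 * g * E * ((m - 1 + α + (2 + α * (1 + G))) / (m + α)))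
      + 2 * (α / E) * P * (g * E ^ 2 * (m + 2) / 16 *
          ((m + 2) * ((m - 1 + α + (2 + α * (1 + G))) / (m + α)) ^ 2
            - G * ((m - 1 + α + (2 + α * (1 + G))) / (m + α))
            - ((2 + α * (1 + G)) * (α + 2 * m + 3 + (G + 1) * (3 * α - m ^ 2))
                + (4 + α * G) * (1 - (2 + α * (1 + G)))) / (m + α) ^ 2))
      + P * (-(m + 2) / 4 * g * E * ((m - 1 + α + (2 + α * (1 + G))) / (m + α)))
      + (m - 1) * (P * (P * E / 2) + 2 * (α / E) * P * (P * E ^ 2 * (2 + G) / 8)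
            - (α / E) * (P * E / 2) ^ 2)
          * (-(m + 2) / 4 * g * E * ((m - 1 + α + (2 + α * (1 + G))) / (m + α))) / (P * E / 2)
      = 0 := by
  field_simp
  ring


theorem am_scalar' (k : ℕ) {α G E P g : ℝ} (hE : E ≠ 0) (hP : P ≠ 0) (hm : (k : ℝ) + 2 + α ≠ 0) :
    ((k : ℝ) + 4) * ((k : ℝ) + 3) * (P * E / 2 + 2 * (α / E) * (P * E ^ 2 * (2 + G) / 8)) * g / 2
      + 2 * ((k : ℝ) + 4) * (α / E) * (P * E / 2)
          * (-((k : ℝ) + 4) / 4 * g * E * (((k : ℝ) + 1 + α + (2 + α * (1 + G))) / ((k : ℝ) + 2 + α)))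
      + 2 * (α / E) * P * (g * E ^ 2 * ((k : ℝ) + 4) / 16 *
          (((k : ℝ) + 4) * (((k : ℝ) + 1 + α + (2 + α * (1 + G))) / ((k : ℝ) + 2 + α)) ^ 2
            - G * (((k : ℝ) + 1 + α + (2 + α * (1 + G))) / ((k : ℝ) + 2 + α))
            - ((2 + α * (1 + G)) * (α + 2 * ((k : ℝ) + 2) + 3 + (G + 1) * (3 * α - ((k : ℝ) + 2) ^ 2))
                + (4 + α * G) * (1 - (2 + α * (1 + G)))) / ((k : ℝ) + 2 + α) ^ 2))
      + P * (-((k : ℝ) + 4) / 4 * g * E * (((k : ℝ) + 1 + α + (2 + α * (1 + G))) / ((k : ℝ) + 2 + α)))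
      + ((k : ℝ) + 1) * (P * (P * E / 2) + 2 * (α / E) * P * (P * E ^ 2 * (2 + G) / 8)
            - (α / E) * (P * E / 2) ^ 2)
          * (-((k : ℝ) + 4) / 4 * g * E * (((k : ℝ) + 1 + α + (2 + α * (1 + G))) / ((k : ℝ) + 2 + α)))
          / (P * E / 2)
      = 0 := by
  field_simp
  ring

theorem HasDerivAt_pow_succ {c : ℝ → ℝ} {c' x : ℝ} (h : HasDerivAt c c' x) (n : ℕ) :
    HasDerivAt (fun x => c x ^ (n + 1)) (((n : ℝ) + 1) * c x ^ n * c') x := by
  have := h.fun_pow (n + 1)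
  simpa using this

theorem exists_profile_of_GData {k : ℕ} {q δ : ℝ} {G : ℝ → ℝ} (h : GData ((k : ℝ) + 2) q δ G) :
    ∃ (J : Set ℝ) (f f1 f2 g g1 g2 : ℝ → ℝ), Profile k J f f1 f2 g g1 g2
      ∧ ContDiffOn ℝ (⊤ : ℕ∞) f J := by
  have hk0 : (0 : ℝ) ≤ k := Nat.cast_nonneg k
  have hq := h.hq
  have hδ := h.hδ
  have hδ1 := h.hδ1
  have hI0 : (0 : ℝ) ∈ Ioo (-δ) q := ⟨by linarith, hq⟩
  have hmα : ∀ α ∈ Ioo (-δ) q, 0 < (k : ℝ) + 2 + α := fun α hα => by linarith [hα.1]
  -- the auxiliary functions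
  have hVs : ContDiffOn ℝ (⊤ : ℕ∞) (fun α => 4 + α * G α) (Ioo (-δ) q) :=
    contDiffOn_const.add (contDiffOn_id.mul h.smooth)
  have hGV : ContDiffOn ℝ (⊤ : ℕ∞) (fun α => G α / (4 + α * G α)) (Ioo (-δ) q) :=
    h.smooth.div hVs fun α hα => (h.Vpos α hα).ne'
  have h2V : ContDiffOn ℝ (⊤ : ℕ∞) (fun α => 2 / (4 + α * G α)) (Ioo (-δ) q) :=
    contDiffOn_const.div hVs fun α hα => (h.Vpos α hα).ne'
  obtain ⟨ι, hι0, hιd, hιs⟩ := exists_primitive hGV hI0
  obtain ⟨φ, hφ0, hφd, hφs⟩ := exists_primitive h2V hI0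
  have hGd : ∀ α ∈ Ioo (-δ) q, HasDerivAt G (deriv G α) α := fun α hα =>
    ((h.smooth.contDiffAt (isOpen_Ioo.mem_nhds hα)).differentiableAt (by simp)).hasDerivAt
  have hEd : ∀ α ∈ Ioo (-δ) q, HasDerivAt (fun α => Real.exp (ι α))
      (Real.exp (ι α) * (G α / (4 + α * G α))) α := fun α hα => (hιd α hα).exp
  have hPd : ∀ α ∈ Ioo (-δ) q, HasDerivAt (fun α => Real.exp (φ α))
      (Real.exp (φ α) * (2 / (4 + α * G α))) α := fun α hα => (hφd α hα).exp
  -- the coordinate `t`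
  have hTd : ∀ α ∈ Ioo (-δ) q, HasDerivAt (fun α => α / Real.exp (ι α))
      (4 / (Real.exp (ι α) * (4 + α * G α))) α := by
    intro α hα
    have hV := (h.Vpos α hα).ne'
    have hE := Real.exp_ne_zero (ι α)
    have := (hasDerivAt_id α).div (hEd α hα) hE
    refine this.congr_deriv ?_
    simp only [id]
    field_simp
    ring
  have hTpos : ∀ α ∈ Ioo (-δ) q, 0 < 4 / (Real.exp (ι α) * (4 + α * G α)) := fun α hα => by
    have := h.Vpos α hα
    positivity
  have hunb : ∀ C : ℝ, ∃ x ∈ Ioo (-δ) q, C ≤ x / Real.exp (ι x) := by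
    have hq2 : q / 2 ∈ Ioo (-δ) q := ⟨by linarith, by linarith⟩
    have hmono : MonotoneOn (fun α => α / Real.exp (ι α) * (q - α)) (Ico (q / 2) q) := by
      have hd : ∀ α ∈ Ioo (q / 2) q, HasDerivAt (fun α => α / Real.exp (ι α) * (q - α))
          (4 / (Real.exp (ι α) * (4 + α * G α)) * (q - α) + α / Real.exp (ι α) * (-1)) α := by
        intro α hα
        have hα' : α ∈ Ioo (-δ) q := ⟨by linarith [hα.1], hα.2⟩
        exact (hTd α hα').mul ((hasDerivAt_id α).const_sub q)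
      apply monotoneOn_of_deriv_nonneg (convex_Ico _ _)
      · intro α hα
        have hα' : α ∈ Ioo (-δ) q := ⟨by linarith [hα.1], hα.2⟩
        exact ((hTd α hα').mul ((hasDerivAt_id α).const_sub q)).continuousAt.continuousWithinAt
      · intro α hα
        rw [interior_Ico] at hα
        exact (hd α hα).differentiableAt.differentiableWithinAt
      · intro α hα
        rw [interior_Ico] at hα
        rw [(hd α hα).deriv]
        have hα' : α ∈ Ioo (-δ) q := ⟨by linarith [hα.1], hα.2⟩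
        have hV := h.Vpos α hα'
        have hE := Real.exp_pos (ι α)
        have hb := h.bound α ⟨by linarith [hα.1], hα.2⟩
        have : 4 / (Real.exp (ι α) * (4 + α * G α)) * (q - α) + α / Real.exp (ι α) * (-1)
            = (4 * (q - α) - α * (4 + α * G α)) / (Real.exp (ι α) * (4 + α * G α)) := by
          field_simp
          ring
        rw [this]
        apply div_nonneg (by linarith) (by positivity)
    have hZ1 : 0 < q / 2 / Real.exp (ι (q / 2)) * (q - q / 2) := by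
      have := Real.exp_pos (ι (q / 2))
      have h1 : 0 < q - q / 2 := by linarith
      positivity
    intro C
    set Z1 := q / 2 / Real.exp (ι (q / 2)) * (q - q / 2) with hZ1def
    set ε := min (q / 2) (Z1 / (|C| + 1)) with hε
    have hεpos : 0 < ε := lt_min (by linarith) (by positivity)
    have hε1 : ε ≤ q / 2 := min_le_left _ _
    have hε2 : ε ≤ Z1 / (|C| + 1) := min_le_right _ _
    have hx : q - ε ∈ Ico (q / 2) q := ⟨by linarith, by linarith⟩
    have hxI : q - ε ∈ Ioo (-δ) q := ⟨by linarith [hx.1], hx.2⟩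
    refine ⟨q - ε, hxI, ?_⟩
    have h1 := hmono ⟨le_refl _, by linarith⟩ hx hx.1
    simp only at h1
    rw [← hZ1def] at h1
    have h2 : (q - ε) / Real.exp (ι (q - ε)) * (q - (q - ε))
        = (q - ε) / Real.exp (ι (q - ε)) * ε := by ring
    rw [h2] at h1
    have h3 : C * ε ≤ (q - ε) / Real.exp (ι (q - ε)) * ε := by
      refine le_trans ?_ h1
      have h4 : ε * (|C| + 1) ≤ Z1 := by
        rwa [le_div_iff₀ (by positivity)] at hε2
      have h5 : C ≤ |C| := le_abs_self C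
      nlinarith [abs_nonneg C]
    exact le_of_mul_le_mul_right h3 hεpos
  have ha' : -δ / 2 ∈ Ioo (-δ) q := ⟨by linarith, by linarith⟩
  obtain ⟨A, hA, hAT⟩ := exists_inverse ha' hTd hTpos hunb
  set c : ℝ := -δ / 2 / Real.exp (ι (-δ / 2)) with hc
  have hsub : Ioo (-δ / 2) q ⊆ Ioo (-δ) q := fun x hx => ⟨by linarith [hx.1], hx.2⟩
  have hAI : ∀ t, c < t → A t ∈ Ioo (-δ) q := fun t ht => hsub (hA t ht).1
  have hAT' : ∀ t, c < t → A t / Real.exp (ι (A t)) = t := fun t ht => (hA t ht).2.1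
  have hAd : ∀ t, c < t → HasDerivAt A (Real.exp (ι (A t)) * (4 + A t * G (A t)) / 4) t := by
    intro t ht
    refine (hA t ht).2.2.congr_deriv ?_
    rw [inv_div]
  have hc0 : c < 0 := by
    have hE := Real.exp_pos (ι (-δ / 2))
    rw [hc]
    apply div_neg_of_neg_of_pos (by linarith) hE
  -- the smoothness of the inverse
  have hAs : ContDiffOn ℝ (⊤ : ℕ∞) A (Ioi c) := by
    have hR : ContDiffOn ℝ (⊤ : ℕ∞)
        (fun p : ℝ × ℝ => Real.exp (ι p.2) * (4 + p.2 * G p.2) / 4) (univ ×ˢ Ioo (-δ) q) := by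
      have hsnd : ContDiffOn ℝ (⊤ : ℕ∞) (fun p : ℝ × ℝ => p.2) (univ ×ˢ Ioo (-δ) q) :=
        contDiff_snd.contDiffOn
      have hm : MapsTo (fun p : ℝ × ℝ => p.2) (univ ×ˢ Ioo (-δ) q) (Ioo (-δ) q) := fun p hp => hp.2
      have e1 := hιs.comp hsnd hm
      have e2 := hVs.comp hsnd hm
      exact ((Real.contDiff_exp.comp_contDiffOn e1).mul e2).div_const 4
    exact contDiffOn_of_ode isOpen_Ioi hR (fun t ht => ⟨mem_univ _, hAI t ht⟩)
      (fun t ht => hAd t ht)
  -- smoothness of the profile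
  have hfs : ContDiffOn ℝ (⊤ : ℕ∞) (fun t => Real.exp (φ (A t))) (Ioi c) :=
    Real.contDiff_exp.comp_contDiffOn (hφs.comp hAs (fun t ht => hAI t ht))
  -- the derivative of the last factor
  have hYd : ∀ α ∈ Ioo (-δ) q, HasDerivAt (fun α => 2 + α * (1 + G α))
      (1 + G α + α * deriv G α) α := by
    intro α hα
    have := (((hasDerivAt_id α).mul ((hasDerivAt_const α (1:ℝ)).add (hGd α hα))).const_add 2)
    refine this.congr_deriv ?_
    simp
  -- the factor `g` as a function of the parameter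
  set a : ℝ := -((k : ℝ) + 4) / ((k : ℝ) + 5) with ha
  have hk5 : (k : ℝ) + 5 ≠ 0 := by positivity
  let Xi : ℝ → ℝ := fun α => ((k : ℝ) + 1 + α + (2 + α * (1 + G α))) / ((k : ℝ) + 2 + α)
  let Th : ℝ → ℝ := fun α => ((2 + α * (1 + G α))
      * (α + 2 * ((k : ℝ) + 2) + 3 + (G α + 1) * (3 * α - ((k : ℝ) + 2) ^ 2))
      + (4 + α * G α) * (1 - (2 + α * (1 + G α)))) / ((k : ℝ) + 2 + α) ^ 2
  let H : ℝ → ℝ := fun α => (2 : ℝ) ^ (k + 3) * Real.exp (φ α) ^ (k + 2 + 1)
      * Real.exp (ι α) ^ (k + 1 + 1) * (2 + α * (1 + G α))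
  let ghat : ℝ → ℝ := fun α => H α ^ a
  have hYY : ∀ α ∈ Ioo (-δ) q, 1 + G α + α * deriv G α
      = (2 + α * (1 + G α))
        * (α + 2 * ((k : ℝ) + 2) + 3 + (G α + 1) * (3 * α - ((k : ℝ) + 2) ^ 2))
        / (((k : ℝ) + 2 + α) * (4 + α * G α)) := by
    intro α hα
    have hV := (h.Vpos α hα).ne'
    have hm := (hmα α hα).ne'
    rw [eq_div_iff (mul_ne_zero hm hV)]
    have := h.ode α hα
    linarith
  have hHpos : ∀ α ∈ Ioo (-δ) q, 0 < H α := by
    intro α hα
    have hY := h.Ypos α hα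
    simp only [H]
    positivity
  have hHd : ∀ α ∈ Ioo (-δ) q, HasDerivAt H (H α * (((k : ℝ) + 5) * Xi α / (4 + α * G α))) α := by
    intro α hα
    have hV := (h.Vpos α hα).ne'
    have hm := (hmα α hα).ne'
    have hY := (h.Ypos α hα).ne'
    have h1 := ((HasDerivAt_pow_succ (hPd α hα) (k + 2)).const_mul ((2 : ℝ) ^ (k + 3))).fun_mul
      (HasDerivAt_pow_succ (hEd α hα) (k + 1))
    have h2 := h1.fun_mul (hYd α hα)
    refine h2.congr_deriv ?_
    rw [hYY α hα]
    simp only [H, Xi]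
    push_cast
    have hEne := Real.exp_ne_zero (ι α)
    have hPne := Real.exp_ne_zero (φ α)
    field_simp
    ring
  have hgd : ∀ α ∈ Ioo (-δ) q, HasDerivAt ghat
      (-((k : ℝ) + 4) * ghat α * Xi α / (4 + α * G α)) α := by
    intro α hα
    have hV := (h.Vpos α hα).ne'
    have hH := hHpos α hα
    have h1 := (hHd α hα).rpow_const (p := a) (Or.inl hH.ne')
    refine h1.congr_deriv ?_
    rw [Real.rpow_sub_one hH.ne']
    simp only [ghat]
    rw [ha]
    field_simp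
  have hXid : ∀ α ∈ Ioo (-δ) q, HasDerivAt Xi (Th α / (4 + α * G α)) α := by
    intro α hα
    have hV := (h.Vpos α hα).ne'
    have hm := (hmα α hα).ne'
    have h1 := (((hasDerivAt_id' α).const_add ((k : ℝ) + 1)).fun_add (hYd α hα))
    have h2 := (hasDerivAt_id' α).const_add ((k : ℝ) + 2)
    have h3 := h1.fun_div h2 hm
    refine h3.congr_deriv ?_
    rw [hYY α hα]
    simp only [Th]
    field_simp
    ring
  have hg1d : ∀ α ∈ Ioo (-δ) q, HasDerivAt
      (fun α => -((k : ℝ) + 4) / 4 * ghat α * Real.exp (ι α) * Xi α)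
      (-((k : ℝ) + 4) / 4 * (-((k : ℝ) + 4) * ghat α * Xi α / (4 + α * G α)) * Real.exp (ι α) * Xi α
        + -((k : ℝ) + 4) / 4 * ghat α * (Real.exp (ι α) * (G α / (4 + α * G α))) * Xi α
        + -((k : ℝ) + 4) / 4 * ghat α * Real.exp (ι α) * (Th α / (4 + α * G α))) α := by
    intro α hα
    have h1 := (((hgd α hα).const_mul (-((k : ℝ) + 4) / 4)).fun_mul (hEd α hα)).fun_mul (hXid α hα)
    exact h1.congr_deriv (by ring)
  have hP1d : ∀ α ∈ Ioo (-δ) q, HasDerivAt (fun α => Real.exp (φ α) * Real.exp (ι α) / 2)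
      ((Real.exp (φ α) * (2 / (4 + α * G α)) * Real.exp (ι α)
        + Real.exp (φ α) * (Real.exp (ι α) * (G α / (4 + α * G α)))) / 2) α := by
    intro α hα
    exact ((hPd α hα).fun_mul (hEd α hα)).div_const 2
  refine ⟨Ioi c, fun t => Real.exp (φ (A t)), fun t => Real.exp (φ (A t)) * Real.exp (ι (A t)) / 2,
    fun t => Real.exp (φ (A t)) * Real.exp (ι (A t)) ^ 2 * (2 + G (A t)) / 8,
    fun t => ghat (A t),
    fun t => -((k : ℝ) + 4) / 4 * ghat (A t) * Real.exp (ι (A t)) * Xi (A t),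
    fun t => ghat (A t) * Real.exp (ι (A t)) ^ 2 * ((k : ℝ) + 4) / 16
      * (((k : ℝ) + 4) * Xi (A t) ^ 2 - G (A t) * Xi (A t) - Th (A t)), ?_, hfs⟩
  have hB : ∀ t, c < t → Real.exp (φ (A t)) * (Real.exp (φ (A t)) * Real.exp (ι (A t)) / 2)
        + 2 * t * Real.exp (φ (A t)) * (Real.exp (φ (A t)) * Real.exp (ι (A t)) ^ 2 * (2 + G (A t)) / 8)
        - t * (Real.exp (φ (A t)) * Real.exp (ι (A t)) / 2) ^ 2
      = Real.exp (φ (A t)) ^ 2 * Real.exp (ι (A t)) * (2 + A t * (1 + G (A t))) / 4 := by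
    intro t ht
    have e1 : t = A t / Real.exp (ι (A t)) := (hAT' t ht).symm
    generalize A t = α at *
    rw [e1]
    have hEne := Real.exp_ne_zero (ι α)
    field_simp
    ring
  constructor
  · exact isOpen_Ioi
  · intro t ht
    exact lt_of_lt_of_le hc0 ht
  · intro t ht
    have h1 := (hPd (A t) (hAI t ht)).comp t (hAd t ht)
    refine HasDerivAt.congr_deriv h1 ?_
    have hV := (h.Vpos _ (hAI t ht)).ne'
    field_simp
    norm_num
  · intro t ht
    have h1 := (hP1d (A t) (hAI t ht)).comp t (hAd t ht)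
    refine HasDerivAt.congr_deriv h1 ?_
    have hV := (h.Vpos _ (hAI t ht)).ne'
    field_simp
    ring
  · intro t ht
    exact (hgd (A t) (hAI t ht)).comp t (hAd t ht) |>.congr_deriv (by
      have hV := (h.Vpos _ (hAI t ht)).ne'
      field_simp)
  · intro t ht
    refine ((hg1d (A t) (hAI t ht)).comp t (hAd t ht)).congr_deriv ?_
    have hV := (h.Vpos _ (hAI t ht)).ne'
    field_simp
    ring
  · intro t ht
    exact Real.exp_pos _
  · intro t ht
    have := Real.exp_pos (φ (A t))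
    have := Real.exp_pos (ι (A t))
    positivity
  · intro t ht
    rw [hB t ht]
    have := h.Ypos _ (hAI t ht)
    have h1 := Real.exp_pos (φ (A t))
    have h2 := Real.exp_pos (ι (A t))
    positivity
  · intro t ht
    rw [hB t ht]
    simp only [ghat, H]
    congr 1
    have hEne := Real.exp_ne_zero (ι (A t))
    have h4 : (4 : ℝ) ^ (k + 3) = 2 ^ (k + 3) * 2 ^ (k + 1) * 4 := by
      have : (4 : ℝ) = 2 * 2 := by norm_num
      rw [this, mul_pow]
      ring
    rw [h4, div_pow]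
    field_simp
    ring
  · intro t ht
    have e1 : t = A t / Real.exp (ι (A t)) := (hAT' t ht).symm
    have hm := (hmα _ (hAI t ht)).ne'
    have := am_scalar' k (α := A t) (G := G (A t)) (E := Real.exp (ι (A t)))
      (P := Real.exp (φ (A t))) (g := ghat (A t)) (Real.exp_ne_zero _) (Real.exp_ne_zero _) hm
    simp only [Xi, Th]
    generalize A t = α at *
    rw [e1]
    exact this

end Vale.Agent.Lib.P252
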