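import Mathlib

open Set Filter Topology MeasureTheory

namespace Vale.Agent.Lib.P252

/-- A function on an open set whose derivative is `C^∞` is `C^∞`. -/
theorem contDiffOn_of_hasDerivAt {S : Set ℝ} (hS : IsOpen S) {F F' : ℝ → ℝ}
    (h : ∀ x ∈ S, HasDerivAt F (F' x) x) (h' : ContDiffOn ℝ (⊤ : ℕ∞) F' S) :
    ContDiffOn ℝ (⊤ : ℕ∞) F S := by
  rw [contDiffOn_infty_iff_deriv_of_isOpen hS]
  refine ⟨fun x hx => (h x hx).differentiableAt.differentiableWithinAt, ?_⟩
  exact h'.congr fun x hx => (h x hx).deriv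

/-- Solutions of `A' = R (t, A)` with `R` smooth are smooth. -/
theorem contDiffOn_of_ode {S : Set ℝ} (hS : IsOpen S) {A : ℝ → ℝ} {R : ℝ × ℝ → ℝ} {U : Set (ℝ × ℝ)}
    (hR : ContDiffOn ℝ (⊤ : ℕ∞) R U) (hU : ∀ t ∈ S, (t, A t) ∈ U)
    (h : ∀ t ∈ S, HasDerivAt A (R (t, A t)) t) : ContDiffOn ℝ (⊤ : ℕ∞) A S := by
  rw [contDiffOn_infty]
  intro n
  induction n with
  | zero =>
    have : ContinuousOn A S := fun t ht => (h t ht).continuousAt.continuousWithinAt
    exact contDiffOn_zero.mpr this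
  | succ n ih =>
    have h1 : ContDiffOn ℝ n (fun t => R (t, A t)) S :=
      (hR.of_le (by exact_mod_cast le_top)).comp (contDiffOn_id.prodMk ih) (fun t ht => hU t ht)
    push_cast
    rw [contDiffOn_succ_iff_deriv_of_isOpen hS]
    refine ⟨fun x hx => (h x hx).differentiableAt.differentiableWithinAt, by simp, ?_⟩
    exact h1.congr fun x hx => (h x hx).deriv

/-- A smooth function on an open interval has a smooth primitive vanishing at a given point. -/
theorem exists_primitive {a b : ℝ} {F : ℝ → ℝ} (hF : ContDiffOn ℝ (⊤ : ℕ∞) F (Ioo a b))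
    {c : ℝ} (hc : c ∈ Ioo a b) :
    ∃ P : ℝ → ℝ, P c = 0 ∧ (∀ x ∈ Ioo a b, HasDerivAt P (F x) x)
      ∧ ContDiffOn ℝ (⊤ : ℕ∞) P (Ioo a b) := by
  have hcont : ContinuousOn F (Ioo a b) := hF.continuousOn
  have hd : ∀ x ∈ Ioo a b, HasDerivAt (fun x => ∫ y in c..x, F y) (F x) x := by
    intro x hx
    have hsub : uIcc c x ⊆ Ioo a b := by
      intro y hy
      rcases uIcc_subset_Icc (left_mem_uIcc) (right_mem_uIcc) hy with _ 
      rcases le_total c x with h | h
      · rw [uIcc_of_le h] at hy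
        exact ⟨lt_of_lt_of_le hc.1 hy.1, lt_of_le_of_lt hy.2 hx.2⟩
      · rw [uIcc_of_ge h] at hy
        exact ⟨lt_of_lt_of_le hx.1 hy.1, lt_of_le_of_lt hy.2 hc.2⟩
    have h1 : IntervalIntegrable F volume c x := (hcont.mono hsub).intervalIntegrable
    have h2 : StronglyMeasurableAtFilter F (𝓝 x) volume :=
      hcont.stronglyMeasurableAtFilter isOpen_Ioo x hx
    have h3 : ContinuousAt F x := hcont.continuousAt (isOpen_Ioo.mem_nhds hx)
    exact intervalIntegral.integral_hasDerivAt_right h1 h2 h3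
  refine ⟨fun x => ∫ y in c..x, F y, by simp, hd, ?_⟩
  exact contDiffOn_of_hasDerivAt isOpen_Ioo hd hF

end Vale.Agent.Lib.P252
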