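import Vale.Agent.Lib.P252.PowerSer

open Set Filter Topology

namespace Vale.Agent.Lib.P252

/-- The Taylor coefficients of the reduced solution, defined by recursion. -/
noncomputable def Gc (m : ℝ) : ℕ → ℝ
  | 0 => (6 - 2 * m ^ 2) / (4 * m + 2 * m ^ 2)
  | 1 => (7 + 2 * m - m ^ 2 + (9 + m - 2 * m ^ 2 - 4) * Gc m 0 - (m ^ 2 + m) * (Gc m 0 * Gc m 0))
      / (8 * m + 2 * m ^ 2)
  | (j + 2) => ((if j = 0 then 4 else 0) + (9 + m - 2 * m ^ 2 - 4 * ((j : ℝ) + 2)) * Gc m (j + 1)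
      - (m ^ 2 + m * ((j : ℝ) + 3) / 2) * (∑ i : Fin (j + 2), Gc m i * Gc m (j + 1 - i))
      + 6 * Gc m j + (3 - ((j : ℝ) + 2) / 2) * (∑ i : Fin (j + 1), Gc m i * Gc m (j - i)))
      / (4 * m * ((j : ℝ) + 3) + 2 * m ^ 2)
  termination_by j => j
  decreasing_by
    all_goals omega

/-- The Cauchy square of the coefficients. -/
noncomputable def Sc (m : ℝ) (n : ℕ) : ℝ :=
  ∑ p ∈ Finset.HasAntidiagonal.antidiagonal n, Gc m p.1 * Gc m p.2

theorem Sc_eq_fin (m : ℝ) (n : ℕ) :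
    Sc m n = ∑ i : Fin (n + 1), Gc m i * Gc m (n - i) := by
  rw [Sc, Finset.Nat.sum_antidiagonal_eq_sum_range_succ_mk, Fin.sum_univ_eq_sum_range
    (fun i => Gc m i * Gc m (n - i))]

theorem Gc_rec0 {m : ℝ} (hm : 9 ≤ m) : (4 * m + 2 * m ^ 2) * Gc m 0 = 6 - 2 * m ^ 2 := by
  rw [Gc]
  have : 4 * m + 2 * m ^ 2 ≠ 0 := by positivity
  field_simp

theorem Gc_one (m : ℝ) : Gc m 1
    = (7 + 2 * m - m ^ 2 + (9 + m - 2 * m ^ 2 - 4) * Gc m 0 - (m ^ 2 + m) * (Gc m 0 * Gc m 0))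
      / (8 * m + 2 * m ^ 2) := by
  conv_lhs => rw [Gc]

theorem Gc_succ_succ (m : ℝ) (j : ℕ) : Gc m (j + 2)
    = ((if j = 0 then 4 else 0) + (9 + m - 2 * m ^ 2 - 4 * ((j : ℝ) + 2)) * Gc m (j + 1)
      - (m ^ 2 + m * ((j : ℝ) + 3) / 2) * (∑ i : Fin (j + 2), Gc m i * Gc m (j + 1 - i))
      + 6 * Gc m j + (3 - ((j : ℝ) + 2) / 2) * (∑ i : Fin (j + 1), Gc m i * Gc m (j - i)))
      / (4 * m * ((j : ℝ) + 3) + 2 * m ^ 2) := by
  conv_lhs => rw [Gc]

theorem Gc_rec1 {m : ℝ} (hm : 9 ≤ m) : (8 * m + 2 * m ^ 2) * Gc m 1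
    = 7 + 2 * m - m ^ 2 + (9 + m - 2 * m ^ 2 - 4) * Gc m 0 - (m ^ 2 + m) * Sc m 0 := by
  rw [Gc_one]
  have h : 8 * m + 2 * m ^ 2 ≠ 0 := by positivity
  have hS : Sc m 0 = Gc m 0 * Gc m 0 := by simp [Sc]
  rw [hS]
  field_simp

theorem Gc_rec2 {m : ℝ} (hm : 9 ≤ m) (j : ℕ) : (4 * m * ((j : ℝ) + 3) + 2 * m ^ 2) * Gc m (j + 2)
    = (if j = 0 then 4 else 0) + (9 + m - 2 * m ^ 2 - 4 * ((j : ℝ) + 2)) * Gc m (j + 1)
      - (m ^ 2 + m * ((j : ℝ) + 3) / 2) * Sc m (j + 1)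
      + 6 * Gc m j + (3 - ((j : ℝ) + 2) / 2) * Sc m j := by
  rw [Gc_succ_succ, Sc_eq_fin, Sc_eq_fin]
  have : 4 * m * ((j : ℝ) + 3) + 2 * m ^ 2 ≠ 0 := by positivity
  field_simp


section bound

variable {m : ℝ}

/-- The weighted coefficient. -/
noncomputable def bc (m : ℝ) (j : ℕ) : ℝ := |Gc m j| * (1 / 16 : ℝ) ^ j

/-- The Cauchy square of the weighted coefficients. -/
noncomputable def Bh (m : ℝ) (n : ℕ) : ℝ :=
  ∑ p ∈ Finset.HasAntidiagonal.antidiagonal n, bc m p.1 * bc m p.2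

/-- Partial sums of the weighted coefficients. -/
noncomputable def Bs (m : ℝ) (n : ℕ) : ℝ := ∑ j ∈ Finset.range n, bc m j

theorem bc_nonneg (m : ℝ) (j : ℕ) : 0 ≤ bc m j := by
  unfold bc
  positivity

theorem Bh_nonneg (m : ℝ) (n : ℕ) : 0 ≤ Bh m n :=
  Finset.sum_nonneg fun p _ => mul_nonneg (bc_nonneg m _) (bc_nonneg m _)

theorem Bs_nonneg (m : ℝ) (n : ℕ) : 0 ≤ Bs m n :=
  Finset.sum_nonneg fun j _ => bc_nonneg m j

theorem Bs_mono (m : ℝ) {n k : ℕ} (h : n ≤ k) : Bs m n ≤ Bs m k :=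
  Finset.sum_le_sum_of_subset_of_nonneg (Finset.range_mono h) fun j _ _ => bc_nonneg m j

theorem Sc_abs_le (m : ℝ) (n : ℕ) : |Sc m n| * (1 / 16 : ℝ) ^ n ≤ Bh m n := by
  have h1 : |Sc m n| ≤ ∑ p ∈ Finset.HasAntidiagonal.antidiagonal n, |Gc m p.1| * |Gc m p.2| := by
    refine (Finset.abs_sum_le_sum_abs _ _).trans ?_
    exact Finset.sum_le_sum fun p _ => by rw [abs_mul]
  calc |Sc m n| * (1 / 16 : ℝ) ^ n
      ≤ (∑ p ∈ Finset.HasAntidiagonal.antidiagonal n, |Gc m p.1| * |Gc m p.2|) * (1 / 16 : ℝ) ^ n :=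
        mul_le_mul_of_nonneg_right h1 (by positivity)
    _ = Bh m n := by
        rw [Finset.sum_mul, Bh]
        refine Finset.sum_congr rfl fun p hp => ?_
        have : p.1 + p.2 = n := Finset.HasAntidiagonal.mem_antidiagonal.mp hp
        rw [bc, bc, ← this, pow_add]
        ring

/-- The sum of the Cauchy squares is at most the square of the sum. -/
theorem sum_Bh_le (m : ℝ) (n : ℕ) : ∑ j ∈ Finset.range n, Bh m j ≤ Bs m n ^ 2 := by
  classical
  have h1 : ∑ j ∈ Finset.range n, Bh m j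
      = ∑ p ∈ (Finset.range n).biUnion (fun j => Finset.HasAntidiagonal.antidiagonal j),
          bc m p.1 * bc m p.2 := by
    rw [Finset.sum_biUnion]
    · rfl
    · intro i _ j _ hij
      rw [Function.onFun, Finset.disjoint_left]
      intro p hpi hpj
      exact hij ((Finset.HasAntidiagonal.mem_antidiagonal.mp hpi).symm.trans (Finset.HasAntidiagonal.mem_antidiagonal.mp hpj))
  have h2 : Bs m n ^ 2 = ∑ p ∈ Finset.range n ×ˢ Finset.range n, bc m p.1 * bc m p.2 := by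
    rw [sq, Bs, Finset.sum_mul_sum, Finset.sum_product]
  rw [h1, h2]
  apply Finset.sum_le_sum_of_subset_of_nonneg
  · intro p hp
    rw [Finset.mem_biUnion] at hp
    obtain ⟨j, hj, hp⟩ := hp
    have h3 : p.1 + p.2 = j := Finset.HasAntidiagonal.mem_antidiagonal.mp hp
    have h4 := Finset.mem_range.mp hj
    rw [Finset.mem_product, Finset.mem_range, Finset.mem_range]
    omega
  · intro p _ _
    exact mul_nonneg (bc_nonneg m _) (bc_nonneg m _)

theorem bc_zero_le (hm : 9 ≤ m) : bc m 0 ≤ 1 := by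
  have hD : 0 < 4 * m + 2 * m ^ 2 := by positivity
  have h := Gc_rec0 hm
  simp only [bc, pow_zero, mul_one]
  have h1 : |Gc m 0| * (4 * m + 2 * m ^ 2) = |6 - 2 * m ^ 2| := by
    rw [← h, abs_mul, abs_of_pos hD]
    ring
  have h2 : |6 - 2 * m ^ 2| ≤ 4 * m + 2 * m ^ 2 := by
    rw [abs_le]
    constructor <;> nlinarith
  nlinarith

theorem bc_one_le (hm : 9 ≤ m) :
    bc m 1 ≤ (1 / 16) * (1 + bc m 0 + (1 / 2) * Bh m 0) := by
  have hD : 0 < 8 * m + 2 * m ^ 2 := by positivity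
  have h := Gc_rec1 hm
  have hS := Sc_abs_le m 0
  simp only [pow_zero, mul_one] at hS
  simp only [bc, pow_zero, mul_one, pow_one] at *
  have h1 : |Gc m 1| * (8 * m + 2 * m ^ 2) ≤ |7 + 2 * m - m ^ 2|
      + |9 + m - 2 * m ^ 2 - 4| * |Gc m 0| + (m ^ 2 + m) * |Sc m 0| := by
    have : |Gc m 1| * (8 * m + 2 * m ^ 2) = |(8 * m + 2 * m ^ 2) * Gc m 1| := by
      rw [abs_mul, abs_of_pos hD]
      ring
    rw [this, h]
    have hmm : 0 ≤ m ^ 2 + m := by positivity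
    calc |7 + 2 * m - m ^ 2 + (9 + m - 2 * m ^ 2 - 4) * Gc m 0 - (m ^ 2 + m) * Sc m 0|
        ≤ |7 + 2 * m - m ^ 2 + (9 + m - 2 * m ^ 2 - 4) * Gc m 0| + |(m ^ 2 + m) * Sc m 0| :=
          abs_sub _ _
      _ ≤ |7 + 2 * m - m ^ 2| + |(9 + m - 2 * m ^ 2 - 4) * Gc m 0| + |(m ^ 2 + m) * Sc m 0| := by
          gcongr
          exact abs_add_le _ _
      _ = _ := by
          rw [abs_mul, abs_mul, abs_of_nonneg hmm]
  have h2 : |7 + 2 * m - m ^ 2| ≤ 8 * m + 2 * m ^ 2 := by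
    rw [abs_le]
    constructor <;> nlinarith
  have h3 : |9 + m - 2 * m ^ 2 - 4| ≤ 8 * m + 2 * m ^ 2 := by
    rw [abs_le]
    constructor <;> nlinarith
  have h4 : m ^ 2 + m ≤ (8 * m + 2 * m ^ 2) / 2 := by nlinarith
  have hG0 := abs_nonneg (Gc m 0)
  have hS0 := abs_nonneg (Sc m 0)
  have h5 : |Gc m 1| * (8 * m + 2 * m ^ 2)
      ≤ (8 * m + 2 * m ^ 2) * (1 + |Gc m 0| + (1 / 2) * |Sc m 0|) := by
    nlinarith [mul_le_mul_of_nonneg_right h3 hG0, mul_le_mul_of_nonneg_right h4 hS0]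
  have h6 : |Gc m 1| ≤ 1 + |Gc m 0| + (1 / 2) * |Sc m 0| := by
    have h5' : (8 * m + 2 * m ^ 2) * |Gc m 1|
        ≤ (8 * m + 2 * m ^ 2) * (1 + |Gc m 0| + (1 / 2) * |Sc m 0|) := by
      rw [mul_comm]
      exact h5
    exact le_of_mul_le_mul_left h5' hD
  have hB : |Sc m 0| ≤ Bh m 0 := hS
  nlinarith

theorem bc_succ_succ_le (hm : 9 ≤ m) (j : ℕ) :
    bc m (j + 2) ≤ (if j = 0 then (1 / 16 : ℝ) ^ 2 else 0) + (1 / 16) * bc m (j + 1)
      + (1 / 32) * Bh m (j + 1) + (1 / 16) ^ 2 * bc m j + (1 / 16) ^ 2 * Bh m j := by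
  have hj0 : (0 : ℝ) ≤ j := Nat.cast_nonneg j
  have hD : 0 < 4 * m * ((j : ℝ) + 3) + 2 * m ^ 2 := by positivity
  have h := Gc_rec2 hm j
  set D := 4 * m * ((j : ℝ) + 3) + 2 * m ^ 2 with hDdef
  have hS1 := Sc_abs_le m (j + 1)
  have hS0 := Sc_abs_le m j
  have h1 : |Gc m (j + 2)| * D ≤ |if j = 0 then (4 : ℝ) else 0|
      + |9 + m - 2 * m ^ 2 - 4 * ((j : ℝ) + 2)| * |Gc m (j + 1)|
      + (m ^ 2 + m * ((j : ℝ) + 3) / 2) * |Sc m (j + 1)|
      + 6 * |Gc m j| + |3 - ((j : ℝ) + 2) / 2| * |Sc m j| := by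
    have : |Gc m (j + 2)| * D = |D * Gc m (j + 2)| := by
      rw [abs_mul, abs_of_pos hD]
      ring
    rw [this, h]
    have hmm : 0 ≤ m ^ 2 + m * ((j : ℝ) + 3) / 2 := by positivity
    have e1 : ∀ a b c d e : ℝ, |a + b - c + d + e| ≤ |a| + |b| + |c| + |d| + |e| := by
      intro a b c d e
      have h1 := abs_add_le (a + b - c + d) e
      have h2 := abs_add_le (a + b - c) d
      have h3 := abs_sub (a + b) c
      have h4 := abs_add_le a b
      linarith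
    refine (e1 _ _ _ _ _).trans ?_
    rw [abs_mul, abs_mul, abs_mul, abs_mul, abs_of_nonneg hmm, abs_of_pos (by norm_num : (0:ℝ) < 6)]
  have h2 : |9 + m - 2 * m ^ 2 - 4 * ((j : ℝ) + 2)| ≤ D := by
    rw [abs_le, hDdef]
    constructor <;> nlinarith
  have h3 : m ^ 2 + m * ((j : ℝ) + 3) / 2 ≤ D / 2 := by
    rw [hDdef]
    nlinarith
  have h4 : (6 : ℝ) ≤ D := by
    rw [hDdef]
    nlinarith
  have h5 : |3 - ((j : ℝ) + 2) / 2| ≤ D := by
    rw [abs_le, hDdef]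
    constructor <;> nlinarith
  have h6 : |if j = 0 then (4 : ℝ) else 0| ≤ D * (if j = 0 then (1 : ℝ) else 0) := by
    split_ifs
    · rw [abs_of_pos (by norm_num : (0:ℝ) < 4), hDdef]
      nlinarith
    · simp
  have ha1 := abs_nonneg (Gc m (j + 1))
  have ha2 := abs_nonneg (Gc m j)
  have ha3 := abs_nonneg (Sc m (j + 1))
  have ha4 := abs_nonneg (Sc m j)
  have h7 : |Gc m (j + 2)| * D ≤ D * ((if j = 0 then (1 : ℝ) else 0) + |Gc m (j + 1)|
      + (1 / 2) * |Sc m (j + 1)| + |Gc m j| + |Sc m j|) := by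
    nlinarith [mul_le_mul_of_nonneg_right h2 ha1, mul_le_mul_of_nonneg_right h3 ha3,
      mul_le_mul_of_nonneg_right h4 ha2, mul_le_mul_of_nonneg_right h5 ha4]
  have h8 : |Gc m (j + 2)| ≤ (if j = 0 then (1 : ℝ) else 0) + |Gc m (j + 1)|
      + (1 / 2) * |Sc m (j + 1)| + |Gc m j| + |Sc m j| :=
    le_of_mul_le_mul_left (by rw [mul_comm] at h7; exact h7) hD
  have hp : (0 : ℝ) < (1 / 16) ^ (j + 2) := by positivity
  calc bc m (j + 2) = |Gc m (j + 2)| * (1 / 16) ^ (j + 2) := rfl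
    _ ≤ ((if j = 0 then (1 : ℝ) else 0) + |Gc m (j + 1)|
      + (1 / 2) * |Sc m (j + 1)| + |Gc m j| + |Sc m j|) * (1 / 16) ^ (j + 2) :=
        mul_le_mul_of_nonneg_right h8 hp.le
    _ = (if j = 0 then (1 : ℝ) else 0) * (1 / 16) ^ (j + 2)
        + (1 / 16) * bc m (j + 1) + (1 / 32) * (|Sc m (j + 1)| * (1 / 16) ^ (j + 1))
        + (1 / 16) ^ 2 * bc m j + (1 / 16) ^ 2 * (|Sc m j| * (1 / 16) ^ j) := by
        simp only [bc]
        ring
    _ ≤ _ := by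
        have e : (if j = 0 then (1 : ℝ) else 0) * (1 / 16) ^ (j + 2)
            = if j = 0 then (1 / 16 : ℝ) ^ 2 else 0 := by
          split_ifs with h0
          · subst h0
            norm_num
          · simp
        rw [e]
        have hh1 : (1 / 32 : ℝ) * (|Sc m (j + 1)| * (1 / 16) ^ (j + 1)) ≤ (1 / 32) * Bh m (j + 1) :=
          mul_le_mul_of_nonneg_left hS1 (by norm_num)
        have hh2 : ((1 : ℝ) / 16) ^ 2 * (|Sc m j| * (1 / 16) ^ j) ≤ (1 / 16) ^ 2 * Bh m j :=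
          mul_le_mul_of_nonneg_left hS0 (by norm_num)
        linarith

theorem sum_ite_le (n : ℕ) :
    ∑ j ∈ Finset.range n, (if j = 0 then ((1 : ℝ) / 16) ^ 2 else 0) ≤ (1 / 16) ^ 2 := by
  rw [Finset.sum_ite_eq']
  split_ifs
  · exact le_refl _
  · positivity

/-- All initial sums are bounded. -/
theorem Bs_le (hm : 9 ≤ m) (n : ℕ) : Bs m n ≤ 2 := by
  induction n using Nat.strong_induction_on with
  | _ n ih =>
    match n with
    | 0 => simp [Bs]
    | 1 =>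
      have := bc_zero_le hm
      simpa [Bs] using this.trans (by norm_num)
    | (k + 2) =>
      have hk := ih (k + 1) (by omega)
      have h1 : Bs m (k + 2) = bc m 0 + bc m 1 + ∑ j ∈ Finset.range k, bc m (j + 2) := by
        simp only [Bs]
        rw [Finset.sum_range_succ', Finset.sum_range_succ']
        ring
      have h2 : ∑ j ∈ Finset.range k, bc m (j + 2)
          ≤ ∑ j ∈ Finset.range k, ((if j = 0 then ((1 : ℝ) / 16) ^ 2 else 0)
            + (1 / 16) * bc m (j + 1) + (1 / 32) * Bh m (j + 1) + (1 / 16) ^ 2 * bc m j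
            + (1 / 16) ^ 2 * Bh m j) :=
        Finset.sum_le_sum fun j _ => bc_succ_succ_le hm j
      have e1 : ∑ j ∈ Finset.range k, bc m (j + 1) ≤ Bs m (k + 1) := by
        have : Bs m (k + 1) = ∑ j ∈ Finset.range k, bc m (j + 1) + bc m 0 := by
          simp only [Bs]
          rw [Finset.sum_range_succ']
        linarith [bc_nonneg m 0]
      have e2 : ∑ j ∈ Finset.range k, bc m j ≤ Bs m (k + 1) := Bs_mono m (by omega)
      have hS := sum_Bh_le m (k + 1)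
      have e3 : ∑ j ∈ Finset.range k, Bh m (j + 1) ≤ Bs m (k + 1) ^ 2 := by
        refine le_trans ?_ hS
        rw [Finset.sum_range_succ' _ k]
        linarith [Bh_nonneg m 0]
      have e4 : ∑ j ∈ Finset.range k, Bh m j ≤ Bs m (k + 1) ^ 2 := by
        refine le_trans ?_ hS
        rw [Finset.sum_range_succ _ k]
        linarith [Bh_nonneg m k]
      have e5 := sum_ite_le k
      have e6 : ∑ j ∈ Finset.range k, ((if j = 0 then ((1 : ℝ) / 16) ^ 2 else 0)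
            + (1 / 16) * bc m (j + 1) + (1 / 32) * Bh m (j + 1) + (1 / 16) ^ 2 * bc m j
            + (1 / 16) ^ 2 * Bh m j)
          = ∑ j ∈ Finset.range k, (if j = 0 then ((1 : ℝ) / 16) ^ 2 else 0)
            + (1 / 16) * ∑ j ∈ Finset.range k, bc m (j + 1)
            + (1 / 32) * ∑ j ∈ Finset.range k, Bh m (j + 1)
            + (1 / 16) ^ 2 * ∑ j ∈ Finset.range k, bc m j
            + (1 / 16) ^ 2 * ∑ j ∈ Finset.range k, Bh m j := by
        simp only [Finset.sum_add_distrib, Finset.mul_sum]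
      have hb0 := bc_zero_le hm
      have hb1 := bc_one_le hm
      have hB0 : Bh m 0 ≤ 1 := by
        have : Bh m 0 = bc m 0 * bc m 0 := by simp [Bh]
        rw [this]
        nlinarith [bc_nonneg m 0]
      have hsq : Bs m (k + 1) ^ 2 ≤ 4 := by
        nlinarith [Bs_nonneg m (k + 1)]
      rw [h1]
      nlinarith

theorem bc_le (hm : 9 ≤ m) (j : ℕ) : |Gc m j| * (1 / 16 : ℝ) ^ j ≤ 2 := by
  have h : bc m j ≤ Bs m (j + 1) := by
    simp only [Bs]
    rw [Finset.sum_range_succ]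
    have := Finset.sum_nonneg (s := Finset.range j) fun i _ => bc_nonneg m i
    linarith
  exact h.trans (Bs_le hm _)

theorem Sc_le (hm : 9 ≤ m) (j : ℕ) : |Sc m j| * (1 / 16 : ℝ) ^ j ≤ 4 := by
  have h1 := Sc_abs_le m j
  have h2 : Bh m j ≤ ∑ i ∈ Finset.range (j + 1), Bh m i := by
    rw [Finset.sum_range_succ]
    have := Finset.sum_nonneg (s := Finset.range j) fun i _ => Bh_nonneg m i
    linarith
  have h3 := sum_Bh_le m (j + 1)
  have h4 := Bs_le hm (j + 1)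
  nlinarith [Bs_nonneg m (j + 1)]

end bound

section sum

variable {m : ℝ}

theorem ev_Sc (hm : 9 ≤ m) {x : ℝ} (hx : |x| < 1 / 16) : ev (Sc m) x = ev (Gc m) x ^ 2 := by
  have hs := ev_summable_abs (by norm_num) (bc_le hm) hx
  have h := tsum_mul_tsum_eq_tsum_sum_antidiagonal_of_summable_norm hs hs
  rw [sq]
  unfold ev
  rw [h]
  refine tsum_congr fun n => ?_
  rw [Sc, Finset.sum_mul]
  refine Finset.sum_congr rfl fun p hp => ?_
  have hn : p.1 + p.2 = n := Finset.HasAntidiagonal.mem_antidiagonal.mp hp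
  rw [← hn, pow_add]
  ring

theorem ev_zero (c : ℕ → ℝ) : ev c 0 = c 0 := by
  unfold ev
  rw [tsum_eq_single 0]
  · simp
  · intro j hj
    simp [hj]

theorem ev_Gc_hasDerivAt (hm : 9 ≤ m) {x : ℝ} (hx : |x| < 1 / 16) :
    HasDerivAt (ev (Gc m)) (deriv (ev (Gc m)) x) x :=
  (ev_hasDerivAt (by norm_num) (bc_le hm) hx).differentiableAt.hasDerivAt

theorem ev_Sc_deriv (hm : 9 ≤ m) {x : ℝ} (hx : |x| < 1 / 16) :
    deriv (ev (Sc m)) x = 2 * ev (Gc m) x * deriv (ev (Gc m)) x := by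
  have hev : ev (Sc m) =ᶠ[𝓝 x] fun y => ev (Gc m) y ^ 2 := by
    have hopen : IsOpen {y : ℝ | |y| < 1 / 16} := isOpen_lt continuous_abs continuous_const
    filter_upwards [hopen.mem_nhds hx] with y hy using ev_Sc hm hy
  rw [hev.deriv_eq]
  have h := (ev_Gc_hasDerivAt hm hx).fun_pow 2
  rw [h.deriv]
  simp

/-- The reduced equation for the sum of the series. -/
theorem ev_Gc_ode (hm : 9 ≤ m) {x : ℝ} (hx : |x| < 1 / 16) :
    (m + x) * (4 + x * ev (Gc m) x) * (1 + ev (Gc m) x + x * deriv (ev (Gc m) ) x)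
      = (2 + x * (1 + ev (Gc m) x))
        * (x + 2 * m + 3 + (ev (Gc m) x + 1) * (3 * x - m ^ 2)) := by
  have hρ : (0 : ℝ) < 1 / 16 := by norm_num
  have hF := ev_hasSum hρ (bc_le hm) hx
  have hX := ev_hasSum_deriv hρ (bc_le hm) hx
  have hS := ev_hasSum hρ (Sc_le hm) hx
  have hZ := ev_hasSum_deriv hρ (Sc_le hm) hx
  rw [ev_Sc_deriv hm hx] at hZ
  rw [ev_Sc hm hx] at hS
  set F := ev (Gc m) x with hFdef
  set F' := deriv (ev (Gc m)) x with hF'def
  let a : ℕ → ℝ := fun j => (4 * m * (j : ℝ) + 4 * m + 2 * m ^ 2) * Gc m j * x ^ j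
  let e : ℕ → ℝ := fun j => ((5 + m - 2 * m ^ 2) * Gc m j - 4 * (j : ℝ) * Gc m j
    - (m ^ 2 + m) * Sc m j - (m / 2) * (j : ℝ) * Sc m j) * x ^ j
  let h : ℕ → ℝ := fun j => (6 * Gc m j + 2 * Sc m j - (1 / 2) * (j : ℝ) * Sc m j) * x ^ j
  have hA : HasSum a (4 * m * (x * F') + (4 * m + 2 * m ^ 2) * F) := by
    have := (hX.mul_left (4 * m)).add (hF.mul_left (4 * m + 2 * m ^ 2))
    have hfe : a = fun b : ℕ => 4 * m * ((b : ℝ) * Gc m b * x ^ b)
        + (4 * m + 2 * m ^ 2) * (Gc m b * x ^ b) := by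
      funext j
      simp only [a]
      ring
    rw [hfe]
    exact this
  have hE : HasSum e ((5 + m - 2 * m ^ 2) * F - 4 * (x * F')
      - (m ^ 2 + m) * F ^ 2 - (m / 2) * (x * (2 * F * F'))) := by
    have := (((hF.mul_left (5 + m - 2 * m ^ 2)).sub (hX.mul_left 4)).sub
      (hS.mul_left (m ^ 2 + m))).sub (hZ.mul_left (m / 2))
    have hfe : e = fun b : ℕ => (5 + m - 2 * m ^ 2) * (Gc m b * x ^ b)
        - 4 * ((b : ℝ) * Gc m b * x ^ b) - (m ^ 2 + m) * (Sc m b * x ^ b)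
        - m / 2 * ((b : ℝ) * Sc m b * x ^ b) := by
      funext j
      simp only [e]
      ring
    rw [hfe]
    exact this
  have hH : HasSum h (6 * F + 2 * F ^ 2 - (1 / 2) * (x * (2 * F * F'))) := by
    have := ((hF.mul_left 6).add (hS.mul_left 2)).sub (hZ.mul_left (1 / 2))
    have hfe : h = fun b : ℕ => 6 * (Gc m b * x ^ b) + 2 * (Sc m b * x ^ b)
        - 1 / 2 * ((b : ℝ) * Sc m b * x ^ b) := by
      funext j
      simp only [h]
      ring
    rw [hfe]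
    exact this
  have hA2 := (hasSum_nat_add_iff' 2).mpr hA
  have hE1 := (hasSum_nat_add_iff' 1).mpr hE
  have hI : HasSum (fun j : ℕ => if j = 0 then 4 * x ^ 2 else 0) (4 * x ^ 2) :=
    hasSum_ite_eq 0 (4 * x ^ 2)
  have hR := (hI.add (hE1.mul_left x)).add (hH.mul_left (x ^ 2))
  have hfun : (fun n => a (n + 2)) = fun j : ℕ => (if j = 0 then 4 * x ^ 2 else 0)
      + x * e (j + 1) + x ^ 2 * h j := by
    funext j
    have hr := Gc_rec2 hm j
    have hi : (if j = 0 then (4 : ℝ) else 0) * x ^ (j + 2) = if j = 0 then 4 * x ^ 2 else 0 := by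
      split_ifs with h0
      · subst h0
        simp
      · simp
    simp only [a, e, h]
    push_cast
    rw [← hi]
    linear_combination (x ^ (j + 2)) * hr
  rw [hfun] at hA2
  have huniq := hA2.unique hR
  simp only [Finset.sum_range_succ, Finset.sum_range_zero, zero_add] at huniq
  have e0 : a 0 = (4 * m + 2 * m ^ 2) * Gc m 0 := by simp [a]
  have e1 : a 1 = (8 * m + 2 * m ^ 2) * Gc m 1 * x := by
    simp only [a]
    push_cast
    ring
  have e2 : e 0 = (5 + m - 2 * m ^ 2) * Gc m 0 - (m ^ 2 + m) * Sc m 0 := by simp [e]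
  rw [e0, e1, e2, Gc_rec0 hm, Gc_rec1 hm] at huniq
  linear_combination huniq

end sum

end Vale.Agent.Lib.P252
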