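import Vale.Agent.Lib.P252.FromG
import Vale.Agent.Lib.P252.Series
import Vale.Agent.Lib.P252.Fence
import Vale.Agent.Lib.P252.OdeTools

open Set Filter Topology

namespace Vale.Agent.Lib.P252

variable {m : ℝ}

theorem exists_root (hm : 9 ≤ m) : ∃ q, 4 < q ∧ q ≤ 9 ∧ Dl m q = 0 := by
  have hcont : ContinuousOn (Dl m) (Icc 4 9) := by
    unfold Dl
    fun_prop
  have h4 : 0 < Dl m 4 := by
    unfold Dl
    nlinarith
  have h9 : Dl m 9 ≤ 0 := by
    unfold Dl
    nlinarith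
  obtain ⟨q, hq, hq0⟩ := intermediate_value_Icc' (by norm_num : (4 : ℝ) ≤ 9) hcont ⟨h9, h4.le⟩
  refine ⟨q, lt_of_le_of_ne hq.1 ?_, hq.2, hq0⟩
  rintro rfl
  linarith

theorem vc_bound (hm : 9 ≤ m) {q t : ℝ} (hq : Dl m q = 0) (h4 : 4 < q) (hq9 : q ≤ 9) (ht0 : 0 ≤ t)
    (htq : t < q) : t * vc m t ≤ 4 * (q - t) := by
  have hd := den_pos hm (t := t) (by linarith)
  have hs := Dl_sub m t q
  rw [hq, sub_zero] at hs
  have hroot : q * ((m ^ 2 - 2 * m + 9) - 4 * q) = 4 * m ^ 2 := by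
    unfold Dl at hq
    linarith
  have hQ : 4 * q ≤ (m ^ 2 - 2 * m + 9) - 4 * q := by
    have hq0 : 0 < q := by linarith
    refine le_of_mul_le_mul_left ?_ hq0
    rw [hroot]
    nlinarith
  rw [vc, ← mul_div_assoc, div_le_iff₀ hd, hs]
  have hqt : 0 ≤ q - t := by linarith
  have key : t * ((m ^ 2 - 2 * m + 9) - 4 * (t + q)) ≤ 4 * (m ^ 2 - 3 * t) := by
    have e : q * ((m ^ 2 - 2 * m + 9) - 4 * q) - t * ((m ^ 2 - 2 * m + 9) - 4 * (t + q)) - 12 * t
        = (q - t) * (((m ^ 2 - 2 * m + 9) - 4 * q) - 4 * q)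
          + 4 * (q ^ 2 - q * t + t ^ 2 - 3 * t) := by ring
    have h1 := mul_nonneg hqt (sub_nonneg.mpr hQ)
    have h2 : 0 ≤ q ^ 2 - q * t + t ^ 2 - 3 * t := by
      nlinarith [sq_nonneg (2 * t - q - 3), mul_pos (by linarith : 0 < q - 3) (by linarith : 0 < q + 1)]
    linarith
  calc t * ((q - t) * ((m ^ 2 - 2 * m + 9) - 4 * (t + q)))
      = (q - t) * (t * ((m ^ 2 - 2 * m + 9) - 4 * (t + q))) := by ring
    _ ≤ (q - t) * (4 * (m ^ 2 - 3 * t)) := mul_le_mul_of_nonneg_left key hqt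
    _ = 4 * (q - t) * (m ^ 2 - 3 * t) := by ring

/-- The right hand side along a solution of the reduced equation. -/
theorem Fv_of_ode {α G G' : ℝ} (hα : α ≠ 0) (hmα : m + α ≠ 0) (hV : 4 + α * G ≠ 0)
    (h : (m + α) * (4 + α * G) * (1 + G + α * G')
      = (2 + α * (1 + G)) * (α + 2 * m + 3 + (G + 1) * (3 * α - m ^ 2))) :
    Fv m α (4 + α * G) = G + α * G' := by
  have e : (4 + α * G + α - 2) * (Dl m α + (4 + α * G) * (3 * α - m ^ 2))
      = α * ((2 + α * (1 + G)) * (α + 2 * m + 3 + (G + 1) * (3 * α - m ^ 2))) := by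
    unfold Dl
    ring
  rw [Fv, e, ← h]
  field_simp
  ring

/-- The reduced equation from the equation for `V`. -/
theorem ode_of_Fv {α V V' : ℝ} (hα : α ≠ 0) (hmα : m + α ≠ 0) (hV : V ≠ 0) (hV' : V' = Fv m α V) :
    (m + α) * (4 + α * ((V - 4) / α)) * (1 + (V - 4) / α + α * ((V' * α - (V - 4)) / α ^ 2))
      = (2 + α * (1 + (V - 4) / α))
        * (α + 2 * m + 3 + ((V - 4) / α + 1) * (3 * α - m ^ 2)) := by
  rw [hV', Fv]
  unfold Dl
  field_simp
  ring

/-- The behaviour of the series near the origin. -/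
theorem series_near_zero (hm : 9 ≤ m) : ∃ ε : ℝ, 0 < ε ∧ ε ≤ 1 / 16 ∧ ∀ α, |α| < ε →
    -1 < ev (Gc m) α ∧ 0 < 4 * α - (m ^ 2 - 2 * m - 3) - ev (Gc m) α * (m ^ 2 - 3 * α)
      ∧ |α * ev (Gc m) α| < 1 := by
  have hm0 : 0 < m := by linarith
  have hcd : ContDiffOn ℝ (⊤ : ℕ∞) (ev (Gc m)) (Ioo (-(1 / 16)) (1 / 16)) :=
    ev_contDiffOn (by norm_num) (bc_le hm)
  have hc : ContinuousAt (ev (Gc m)) 0 :=
    hcd.continuousOn.continuousAt (Ioo_mem_nhds (by norm_num) (by norm_num))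
  have h0 : ev (Gc m) 0 = Gc m 0 := ev_zero _
  have hrec := Gc_rec0 hm
  have hD : 0 < 4 * m + 2 * m ^ 2 := by positivity
  have hG1 : -1 < Gc m 0 := by
    have : -1 * (4 * m + 2 * m ^ 2) < Gc m 0 * (4 * m + 2 * m ^ 2) := by
      rw [mul_comm (Gc m 0)]
      rw [hrec]
      nlinarith
    exact lt_of_mul_lt_mul_right this hD.le
  have hG2 : 0 < 4 * (0 : ℝ) - (m ^ 2 - 2 * m - 3) - Gc m 0 * (m ^ 2 - 3 * 0) := by
    have h1 : (4 * m + 2 * m ^ 2) * (4 * (0 : ℝ) - (m ^ 2 - 2 * m - 3) - Gc m 0 * (m ^ 2 - 3 * 0))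
        = m * (8 * m + 12) := by
      have : (4 * m + 2 * m ^ 2) * (4 * (0 : ℝ) - (m ^ 2 - 2 * m - 3) - Gc m 0 * (m ^ 2 - 3 * 0))
          = - (4 * m + 2 * m ^ 2) * (m ^ 2 - 2 * m - 3)
            - ((4 * m + 2 * m ^ 2) * Gc m 0) * m ^ 2 := by ring
      rw [this, hrec]
      ring
    have h2 : 0 < (4 * m + 2 * m ^ 2) * (4 * (0 : ℝ) - (m ^ 2 - 2 * m - 3) - Gc m 0 * (m ^ 2 - 3 * 0)) := by
      rw [h1]
      positivity
    exact (pos_iff_pos_of_mul_pos h2).mp hD
  have c1 : ∀ᶠ α in 𝓝 (0 : ℝ), -1 < ev (Gc m) α :=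
    hc.eventually (lt_mem_nhds (by rw [h0]; exact hG1))
  have c2 : ∀ᶠ α in 𝓝 (0 : ℝ), 0 < 4 * α - (m ^ 2 - 2 * m - 3) - ev (Gc m) α * (m ^ 2 - 3 * α) := by
    have hc2 : ContinuousAt
        (fun α => 4 * α - (m ^ 2 - 2 * m - 3) - ev (Gc m) α * (m ^ 2 - 3 * α)) 0 := by
      fun_prop
    refine hc2.eventually (lt_mem_nhds ?_)
    simp only [h0]
    exact hG2
  have c3 : ∀ᶠ α in 𝓝 (0 : ℝ), |α * ev (Gc m) α| < 1 := by
    have hc3 : ContinuousAt (fun α => |α * ev (Gc m) α|) 0 := by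
      fun_prop
    refine hc3.eventually (gt_mem_nhds ?_)
    simp
  obtain ⟨ε, hε, hall⟩ := Metric.eventually_nhds_iff.mp (c1.and (c2.and c3))
  refine ⟨min ε (1 / 16), lt_min hε (by norm_num), min_le_right _ _, fun α hα => ?_⟩
  have h1 : dist α 0 < ε := by
    rw [Real.dist_eq, sub_zero]
    exact lt_of_lt_of_le hα (min_le_left _ _)
  exact hall h1

/-- The existence of the reduced solution for all `m ≥ 9`. -/
theorem exists_GData (hm : 9 ≤ m) : ∃ q δ G, GData m q δ G := by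
  have hm0 : 0 < m := by linarith
  have hm0' : 0 ≤ m := hm0.le
  obtain ⟨q, hq4, hq9, hq⟩ := exists_root hm
  obtain ⟨ε, hε, hε16, hser⟩ := series_near_zero hm
  have hcd : ContDiffOn ℝ (⊤ : ℕ∞) (ev (Gc m)) (Ioo (-(1 / 16)) (1 / 16)) :=
    ev_contDiffOn (by norm_num) (bc_le hm)
  let vs : ℝ → ℝ := fun α => 4 + α * ev (Gc m) α
  have hsmall : ∀ α, |α| < ε → |α| < 1 / 16 := fun α h => lt_of_lt_of_le h hε16
  -- the series on the positive side
  have hvs : ∀ α, 0 < α → α < ε →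
      4 - α < vs α ∧ vs α < vc m α ∧ 1 ≤ vs α ∧ vs α ≤ 4 ∧
        HasDerivAt vs (Fv m α (vs α)) α := by
    intro α h0 hε'
    have habs : |α| < ε := by rwa [abs_of_pos h0]
    obtain ⟨h1, h2, -⟩ := hser α habs
    have hα9 : α ≤ 9 := by linarith
    have hd := den_pos hm hα9
    have hl : 4 - α < vs α := by
      simp only [vs]
      nlinarith
    have hu : vs α < vc m α := by
      rw [vc, lt_div_iff₀ hd]
      simp only [vs]
      unfold Dl
      nlinarith [mul_pos h0 h2]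
    have hvs4 : vs α ≤ 4 := hu.le.trans (vc_le_four hm h0.le hα9)
    have hvs1 : 1 ≤ vs α := by linarith
    refine ⟨hl, hu, hvs1, hvs4, ?_⟩
    have hd1 := ev_Gc_hasDerivAt hm (hsmall α habs)
    have hd2 : HasDerivAt vs (1 * ev (Gc m) α + α * deriv (ev (Gc m)) α) α :=
      ((hasDerivAt_id' α).fun_mul hd1).const_add 4
    have hF := Fv_of_ode (m := m) (α := α) (G := ev (Gc m) α) (G' := deriv (ev (Gc m)) α)
      h0.ne' (by positivity) (by
        have : 0 < 4 + α * ev (Gc m) α := by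
          have := hvs1
          simp only [vs] at this
          linarith
        exact this.ne') (ev_Gc_ode hm (hsmall α habs))
    have hF' : Fv m α (vs α) = 1 * ev (Gc m) α + α * deriv (ev (Gc m)) α := by
      simp only [vs]
      rw [hF]
      ring
    rw [hF']
    exact hd2
  -- the starting point
  obtain ⟨a, ha⟩ : ∃ a, a = ε / 3 := ⟨_, rfl⟩
  obtain ⟨α₁, hα₁⟩ : ∃ α₁, α₁ = 2 * ε / 3 := ⟨_, rfl⟩
  have ha0 : 0 < a := by rw [ha]; positivity
  have haα : a < α₁ := by rw [ha, hα₁]; linarith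
  have hα₁ε : α₁ < ε := by rw [hα₁]; linarith
  have hα₁q : α₁ < q := by linarith
  have hvsa := hvs a ha0 (by linarith)
  obtain ⟨V, hVd, hVb, hVw⟩ := exists_global (v₀ := vs a) (a := a) (q := q) hm hq hq9 ha0
    (by linarith) (by linarith) hvsa.1.le hvsa.2.1.le
  have hagree : ∀ t ∈ Ioo a α₁, V t = vs t := by
    intro t ht
    refine hVw vs α₁ haα.le hα₁q rfl ?_ ?_ ?_ t ht
    · intro s hs
      have hs0 : 0 < s := lt_of_lt_of_le ha0 hs.1
      exact (hvs s hs0 (lt_of_le_of_lt hs.2 hα₁ε)).2.2.2.2.continuousAt.continuousWithinAt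
    · intro s hs
      have hs0 : 0 < s := lt_of_lt_of_le ha0 hs.1
      exact (hvs s hs0 (hs.2.trans hα₁ε)).2.2.2.2.hasDerivWithinAt
    · intro s hs
      have hs0 : 0 < s := lt_of_lt_of_le ha0 hs.1
      have := hvs s hs0 (hs.2.trans hα₁ε)
      exact ⟨this.2.2.1, this.2.2.2.1⟩
  -- the glued function
  let G : ℝ → ℝ := fun α => if α < α₁ then ev (Gc m) α else (V α - 4) / α
  have hGl : ∀ α, α < α₁ → G α = ev (Gc m) α := fun α h => by simp only [G, if_pos h]
  have hGr : ∀ α ∈ Ioo a q, G α = (V α - 4) / α := by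
    intro α hα
    have hα0 : 0 < α := ha0.trans hα.1
    by_cases h : α < α₁
    · rw [hGl α h, hagree α ⟨hα.1, h⟩]
      simp only [vs]
      field_simp
      ring
    · simp only [G, if_neg h]
  have hVpos : ∀ α ∈ Ioo a q, 0 < V α := fun α hα => (hVb α hα).1
  have hcover : Ioo (-ε) q = Ioo (-ε) α₁ ∪ Ioo a q := by
    ext x
    simp only [mem_Ioo, mem_union]
    constructor
    · rintro ⟨h1, h2⟩
      by_cases hx : x < α₁
      · exact Or.inl ⟨h1, hx⟩
      · exact Or.inr ⟨by linarith, h2⟩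
    · rintro (⟨h1, h2⟩ | ⟨h1, h2⟩)
      · exact ⟨h1, by linarith⟩
      · exact ⟨by linarith, h2⟩
  have hsubl : Ioo (-ε) α₁ ⊆ Ioo (-(1 / 16)) (1 / 16) := by
    intro x hx
    exact ⟨by linarith [hx.1], by linarith [hx.2]⟩
  have hVsmooth : ContDiffOn ℝ (⊤ : ℕ∞) V (Ioo a q) :=
    contDiffOn_of_ode isOpen_Ioo (contDiffOn_Fv m hm0') (fun t ht => ⟨ha0.trans ht.1, hVpos t ht⟩)
      (fun t ht => hVd t ht)
  refine ⟨q, ε, G, ?_⟩
  refine
    { hm := by linarith
      hq := by linarith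
      hδ := hε
      hδ1 := by linarith
      smooth := ?_
      Vpos := ?_
      Ypos := ?_
      ode := ?_
      bound := ?_ }
  · rw [hcover]
    refine ContDiffOn.union_of_isOpen ?_ ?_ isOpen_Ioo isOpen_Ioo
    · exact (hcd.mono hsubl).congr fun x hx => hGl x hx.2
    · refine ContDiffOn.congr ?_ hGr
      refine ContDiffOn.div (hVsmooth.sub contDiffOn_const) contDiffOn_id ?_
      intro x hx
      exact (ha0.trans hx.1).ne'
  · intro α hα
    by_cases h : α < α₁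
    · rw [hGl α h]
      have habs : |α| < ε := abs_lt.mpr ⟨hα.1, h.trans hα₁ε⟩
      have := (abs_lt.mp (hser α habs).2.2).1
      linarith
    · have hα' : α ∈ Ioo a q := ⟨by linarith, hα.2⟩
      have hα0 : 0 < α := ha0.trans hα'.1
      rw [hGr α hα']
      have e : 4 + α * ((V α - 4) / α) = V α := by
        field_simp
        ring
      rw [e]
      exact hVpos α hα'
  · intro α hα
    by_cases h : α < α₁
    · rw [hGl α h]
      have habs : |α| < ε := abs_lt.mpr ⟨hα.1, h.trans hα₁ε⟩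
      have h1 := (abs_lt.mp (hser α habs).2.2).1
      have h2 := (abs_lt.mp habs).1
      nlinarith
    · have hα' : α ∈ Ioo a q := ⟨by linarith, hα.2⟩
      have hα0 : 0 < α := ha0.trans hα'.1
      rw [hGr α hα']
      have e : 2 + α * (1 + (V α - 4) / α) = V α + α - 2 := by
        field_simp
        ring
      rw [e]
      have := (hVb α hα').2.1
      linarith
  · intro α hα
    by_cases h : α < α₁
    · have hev : G =ᶠ[𝓝 α] ev (Gc m) := by
        filter_upwards [Iio_mem_nhds h] with x hx using hGl x hx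
      rw [hev.deriv_eq, hGl α h]
      have habs : |α| < ε := abs_lt.mpr ⟨hα.1, h.trans hα₁ε⟩
      exact ev_Gc_ode hm (hsmall α habs)
    · have hα' : α ∈ Ioo a q := ⟨by linarith, hα.2⟩
      have hα0 : 0 < α := ha0.trans hα'.1
      have hev : G =ᶠ[𝓝 α] fun x => (V x - 4) / x := by
        filter_upwards [Ioo_mem_nhds hα'.1 hα'.2] with x hx using hGr x hx
      have hd : HasDerivAt (fun x => (V x - 4) / x) ((Fv m α (V α) * α - (V α - 4)) / α ^ 2) α := by
        have := ((hVd α hα').sub_const 4).fun_div (hasDerivAt_id' α) hα0.ne'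
        refine this.congr_deriv ?_
        ring
      rw [hev.deriv_eq, hd.deriv, hGr α hα']
      exact ode_of_Fv hα0.ne' (by positivity) (hVpos α hα').ne' rfl
  · intro α hα
    rcases hα.1.eq_or_lt with h0 | h0
    · rw [← h0]
      simp only [zero_mul]
      linarith
    · have hle : 4 + α * G α ≤ vc m α := by
        by_cases h : α < α₁
        · rw [hGl α h]
          exact (hvs α h0 (h.trans hα₁ε)).2.1.le
        · have hα' : α ∈ Ioo a q := ⟨by linarith, hα.2⟩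
          rw [hGr α hα']
          have e : 4 + α * ((V α - 4) / α) = V α := by
            field_simp
            ring
          rw [e]
          exact (hVb α hα').2.2
      calc α * (4 + α * G α) ≤ α * vc m α := mul_le_mul_of_nonneg_left hle h0.le
        _ ≤ 4 * (q - α) := vc_bound hm hq hq4 hq9 h0.le hα.2

end Vale.Agent.Lib.P252
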