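import Vale.Agent.Lib.P252.Calc

open Matrix Set Filter Topology MeasureTheory

namespace Vale.Agent.Lib.P252

variable {n : ℕ} {φ : (Fin n → ℝ) → ℝ} {O : Set (Fin n → ℝ)}

theorem mass_bound (hn : 1 ≤ n) (hO : IsOpen O) (hc : Convex ℝ O) (hφ : ContDiffOn ℝ 2 φ O)
    (hq : ∀ y ∈ O, ∀ e : Fin n → ℝ, e ≠ 0 → 0 < fderiv ℝ (fderiv ℝ φ) y e e)
    (hnn : ∀ y ∈ O, 0 ≤ φ y)
    {ystar : Fin n → ℝ} (hstar : ystar ∈ O) (hstar1 : φ ystar ≤ 1)
    (hsimplex : ∀ y : Fin n → ℝ, (∀ i, 0 ≤ y i) → ∑ i, y i ≤ 1 → y ∈ O ∧ φ y ≤ 1)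
    {c : ℝ} (hlow : ∀ y ∈ O, φ y ≤ 1 → c ≤ (hess φ y).det) :
    c ≤ ((4 * (n : ℝ) * ((n : ℝ) + 1)) ^ 2) ^ n := by
  have hN : (1 : ℝ) ≤ (n : ℝ) := by exact_mod_cast hn
  set N : ℝ := (n : ℝ) with hNdef
  have hNpos : 0 < N := by linarith
  set D : ℝ := 4 * N * (N + 1) with hD
  have hDpos : 0 < D := by positivity
  set δ : ℝ := 1 / D with hδ
  have hδpos : 0 < δ := by positivity
  set c0 : Fin n → ℝ := fun _ => 1 / (N + 1) with hc0
  set z0 : Fin n → ℝ := (1 / 2 : ℝ) • (ystar + c0) with hz0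
  have hconv := convexOn_of_pos hO hc hφ hq
  -- the doubled ball lies in the sublevel set
  have hball : ∀ z' ∈ Metric.closedBall z0 (2 * δ), z' ∈ O ∧ φ z' ≤ 1 := by
    intro z' hz'
    rw [Metric.mem_closedBall] at hz'
    set c' : Fin n → ℝ := (2 : ℝ) • z' - ystar with hc'
    have hcomp : ∀ i, |c' i - 1 / (N + 1)| ≤ 4 * δ := by
      intro i
      have h1 : |z' i - z0 i| ≤ 2 * δ := by
        have := (dist_le_pi_dist z' z0 i).trans hz'
        rwa [Real.dist_eq] at this
      have h2 : c' i - 1 / (N + 1) = 2 * (z' i - z0 i) := by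
        simp only [hc', hz0, hc0, Pi.sub_apply, Pi.smul_apply, Pi.add_apply, smul_eq_mul]
        ring
      rw [h2, abs_mul, abs_of_pos (by norm_num : (0 : ℝ) < 2)]
      linarith
    have h4δ : 4 * δ = 1 / (N * (N + 1)) := by
      rw [hδ, hD]; field_simp
    have hnonneg : ∀ i, 0 ≤ c' i := by
      intro i
      have h1 := (abs_le.mp (hcomp i)).1
      have h2 : 1 / (N * (N + 1)) ≤ 1 / (N + 1) := by
        apply one_div_le_one_div_of_le (by positivity)
        nlinarith
      rw [h4δ] at h1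
      linarith
    have hsum : ∑ i, c' i ≤ 1 := by
      have h1 : ∀ i, c' i ≤ 1 / (N + 1) + 1 / (N * (N + 1)) := by
        intro i
        have h2 := (abs_le.mp (hcomp i)).2
        rw [h4δ] at h2
        linarith
      calc ∑ i, c' i ≤ ∑ _i : Fin n, (1 / (N + 1) + 1 / (N * (N + 1))) :=
            Finset.sum_le_sum fun i _ => h1 i
        _ = N * (1 / (N + 1) + 1 / (N * (N + 1))) := by
            rw [Finset.sum_const, Finset.card_univ, Fintype.card_fin, nsmul_eq_mul]
        _ = 1 := by field_simp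
    obtain ⟨hcO, hc1⟩ := hsimplex c' hnonneg hsum
    have hz'eq : z' = (1 / 2 : ℝ) • ystar + (1 / 2 : ℝ) • c' := by
      ext i
      simp only [hc', Pi.add_apply, Pi.smul_apply, Pi.sub_apply, smul_eq_mul]
      ring
    have hmem : z' ∈ O := by
      rw [hz'eq]
      exact hc hstar hcO (by norm_num) (by norm_num) (by norm_num)
    refine ⟨hmem, ?_⟩
    have h3 := hconv.2 hstar hcO (by norm_num : (0 : ℝ) ≤ 1 / 2) (by norm_num : (0 : ℝ) ≤ 1 / 2)
      (by norm_num)
    rw [← hz'eq] at h3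
    simp only [smul_eq_mul] at h3
    linarith
  set E : Set (Fin n → ℝ) := Metric.closedBall z0 δ with hE
  have hEsub : ∀ z ∈ E, z ∈ O ∧ φ z ≤ 1 := by
    intro z hz
    apply hball
    exact Metric.closedBall_subset_closedBall (by linarith) hz
  -- gradient bound on E
  have hgrad : ∀ z ∈ E, grad φ z ∈ Metric.closedBall (0 : Fin n → ℝ) (1 / δ) := by
    intro z hz
    rw [mem_closedBall_zero_iff, pi_norm_le_iff_of_nonneg (by positivity)]
    intro i
    obtain ⟨hzO, hz1⟩ := hEsub z hz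
    have hsingle : ‖(Pi.single i (1 : ℝ) : Fin n → ℝ)‖ = 1 := by
      rw [Pi.norm_single]; simp
    have hplus : ∀ s : ℝ, |s| = δ →
        z + s • (Pi.single i (1 : ℝ) : Fin n → ℝ) ∈ Metric.closedBall z0 (2 * δ) := by
      intro s hs
      rw [Metric.mem_closedBall]
      rw [hE, Metric.mem_closedBall] at hz
      calc dist (z + s • (Pi.single i (1 : ℝ) : Fin n → ℝ)) z0
          ≤ dist (z + s • (Pi.single i (1 : ℝ) : Fin n → ℝ)) z + dist z z0 := dist_triangle _ _ _
        _ = ‖s • (Pi.single i (1 : ℝ) : Fin n → ℝ)‖ + dist z z0 := by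
            rw [dist_eq_norm]; simp
        _ ≤ 2 * δ := by
            rw [norm_smul, hsingle, Real.norm_eq_abs, hs]
            linarith
    have hpos := hnn z hzO
    have h1 : δ * grad φ z i ≤ 1 := by
      obtain ⟨hm, hm1⟩ := hball _ (hplus δ (abs_of_pos hδpos))
      have := tangent_le hO hc hφ hq hzO hm
      simp only [add_sub_cancel_left, map_smul, smul_eq_mul] at this
      simp only [grad]
      linarith
    have h2 : -(δ * grad φ z i) ≤ 1 := by
      obtain ⟨hm, hm1⟩ := hball _ (hplus (-δ) (by rw [abs_neg, abs_of_pos hδpos]))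
      have := tangent_le hO hc hφ hq hzO hm
      simp only [add_sub_cancel_left, map_smul, smul_eq_mul] at this
      simp only [grad]
      linarith
    rw [Real.norm_eq_abs, abs_le]
    constructor
    · rw [neg_le]
      have : -grad φ z i = (-(δ * grad φ z i)) / δ := by field_simp
      rw [this]
      exact div_le_div_of_nonneg_right h2 hδpos.le
    · rw [le_div_iff₀ hδpos]
      linarith
  -- change of variables
  have hinj : InjOn (grad φ) E :=
    (grad_injOn hO hc hφ hq).mono fun z hz => (hEsub z hz).1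
  have hder : ∀ x ∈ E, HasFDerivWithinAt (grad φ) (gradD φ x) E x := fun x hx =>
    (hasFDerivAt_grad (diffAt2 hO hφ (hEsub x hx).1)).hasFDerivWithinAt
  have hcov := lintegral_abs_det_fderiv_eq_addHaar_image (volume : Measure (Fin n → ℝ))
    (measurableSet_closedBall (x := z0) (ε := δ)) hder hinj
  have hlow' : ENNReal.ofReal c * volume E ≤ volume (grad φ '' E) := by
    rw [← hcov, ← setLIntegral_const]
    apply setLIntegral_mono' measurableSet_closedBall
    intro x hx
    apply ENNReal.ofReal_le_ofReal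
    rw [gradD_det]
    exact (hlow x (hEsub x hx).1 (hEsub x hx).2).trans (le_abs_self _)
  have hup : volume (grad φ '' E) ≤ volume (Metric.closedBall (0 : Fin n → ℝ) (1 / δ)) :=
    measure_mono (by rintro _ ⟨z, hz, rfl⟩; exact hgrad z hz)
  have hvolE : volume E = ENNReal.ofReal ((2 * δ) ^ n) := by
    rw [hE, Real.volume_pi_closedBall z0 hδpos.le, Fintype.card_fin]
  have hvol2 : volume (Metric.closedBall (0 : Fin n → ℝ) (1 / δ))
      = ENNReal.ofReal ((2 * (1 / δ)) ^ n) := by
    rw [Real.volume_pi_closedBall 0 (by positivity), Fintype.card_fin]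
  by_cases hc0 : c ≤ 0
  · exact hc0.trans (by positivity)
  · push Not at hc0
    have h := hlow'.trans hup
    rw [hvolE, hvol2, ← ENNReal.ofReal_mul hc0.le,
      ENNReal.ofReal_le_ofReal_iff (by positivity)] at h
    have h1 : 1 / δ = D := by rw [hδ]; field_simp
    rw [h1] at h
    have hX : 0 < (2 * δ) ^ n := by positivity
    have h2 : (2 * D) ^ n = (D ^ 2) ^ n * (2 * δ) ^ n := by
      rw [← mul_pow]
      congr 1
      rw [hδ]
      field_simp
    rw [h2] at h
    exact le_of_mul_le_mul_right h hX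

end Vale.Agent.Lib.P252
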