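import Mathlib

open Set Filter Topology
open scoped NNReal

namespace Vale.Agent.Lib.P252

/-- The quadratic whose smaller root is the end point of the parameter interval. -/
noncomputable def Dl (m α : ℝ) : ℝ := 4 * α ^ 2 - (m ^ 2 - 2 * m + 9) * α + 4 * m ^ 2

/-- The right hand side of the equation for `V = 4 + α G`. -/
noncomputable def Fv (m α v : ℝ) : ℝ :=
  (v + α - 2) * (Dl m α + v * (3 * α - m ^ 2)) / (α * (m + α) * v) - 1

/-- Truncation of the unknown to the interval from `ℓ` to `4`. -/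
noncomputable def clampv (ℓ v : ℝ) : ℝ := max ℓ (min v 4)

/-- The truncated right hand side. -/
noncomputable def Ft (m ℓ α x : ℝ) : ℝ := Fv m α (clampv ℓ x)

theorem clampv_lip (ℓ : ℝ) : LipschitzWith 1 (clampv ℓ) :=
  (LipschitzWith.id.min_const 4).const_max ℓ

theorem clampv_ge (ℓ v : ℝ) : ℓ ≤ clampv ℓ v := le_max_left _ _

theorem clampv_le {ℓ : ℝ} (h : ℓ ≤ 4) (v : ℝ) : clampv ℓ v ≤ 4 :=
  max_le h (min_le_right _ _)

theorem clampv_of_mem {ℓ v : ℝ} (h1 : ℓ ≤ v) (h2 : v ≤ 4) : clampv ℓ v = v := by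
  rw [clampv, min_eq_left h2, max_eq_right h1]

theorem Fv_sub {m α v w : ℝ} (hα : α ≠ 0) (hm : m + α ≠ 0) (hv : v ≠ 0) (hw : w ≠ 0) :
    Fv m α v - Fv m α w
      = (v - w) * ((3 * α - m ^ 2) - (α - 2) * Dl m α / (v * w)) / (α * (m + α)) := by
  unfold Fv
  field_simp
  ring

theorem continuousOn_Fv (m : ℝ) (hm : 0 ≤ m) :
    ContinuousOn (fun p : ℝ × ℝ => Fv m p.1 p.2) {p | 0 < p.1 ∧ 0 < p.2} := by
  unfold Fv Dl
  refine ContinuousOn.sub (ContinuousOn.div ?_ ?_ ?_) continuousOn_const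
  · fun_prop
  · fun_prop
  · rintro p ⟨h1, h2⟩
    positivity

theorem contDiffOn_Fv (m : ℝ) (hm : 0 ≤ m) :
    ContDiffOn ℝ (⊤ : ℕ∞) (fun p : ℝ × ℝ => Fv m p.1 p.2) {p | 0 < p.1 ∧ 0 < p.2} := by
  unfold Fv Dl
  refine ContDiffOn.sub (ContDiffOn.div ?_ ?_ ?_) contDiffOn_const
  · refine ContDiff.contDiffOn ?_
    fun_prop
  · refine ContDiff.contDiffOn ?_
    fun_prop
  · rintro p ⟨h1, h2⟩
    positivity

theorem Ft_lip {m ℓ a b : ℝ} (hm : 0 ≤ m) (hℓ : 0 < ℓ) (ha : 0 < a) :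
    ∃ K : ℝ≥0, ∀ t ∈ Icc a b, LipschitzWith K (Ft m ℓ t) := by
  have hcont : ContinuousOn
      (fun t : ℝ => (|3 * t - m ^ 2| + |t - 2| * |Dl m t| / ℓ ^ 2) / (t * (m + t))) (Icc a b) := by
    refine ContinuousOn.div ?_ ?_ ?_
    · unfold Dl
      fun_prop
    · fun_prop
    · intro t ht
      have := lt_of_lt_of_le ha ht.1
      positivity
  obtain ⟨C, hC⟩ := isCompact_Icc.exists_bound_of_continuousOn hcont
  refine ⟨C.toNNReal, fun t ht => LipschitzWith.of_dist_le_mul fun x y => ?_⟩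
  have ht0 : 0 < t := lt_of_lt_of_le ha ht.1
  have hx := lt_of_lt_of_le hℓ (clampv_ge ℓ x)
  have hy := lt_of_lt_of_le hℓ (clampv_ge ℓ y)
  have hxℓ := clampv_ge ℓ x
  have hyℓ := clampv_ge ℓ y
  set v := clampv ℓ x with hv
  set w := clampv ℓ y with hw
  have hdist : |v - w| ≤ |x - y| := by
    have := (clampv_lip ℓ).dist_le_mul x y
    simpa [Real.dist_eq] using this
  have hCt := hC t ht
  rw [Real.norm_eq_abs] at hCt
  have hC' := (le_abs_self _).trans hCt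
  have hd : 0 < t * (m + t) := by positivity
  rw [Real.dist_eq, Real.dist_eq, Real.coe_toNNReal']
  have e := Fv_sub (m := m) (α := t) (v := v) (w := w) ht0.ne' (by positivity) hx.ne' hy.ne'
  simp only [Ft]
  rw [← hv, ← hw, e, abs_div, abs_mul, abs_of_pos hd]
  have hvw : ℓ ^ 2 ≤ v * w := by nlinarith
  have hin : |(3 * t - m ^ 2) - (t - 2) * Dl m t / (v * w)|
      ≤ |3 * t - m ^ 2| + |t - 2| * |Dl m t| / ℓ ^ 2 := by
    refine (abs_sub _ _).trans ?_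
    gcongr
    rw [abs_div, abs_mul, abs_of_pos (by positivity : 0 < v * w)]
    gcongr
  have h1 : |(3 * t - m ^ 2) - (t - 2) * Dl m t / (v * w)| / (t * (m + t)) ≤ C :=
    (div_le_div_of_nonneg_right hin hd.le).trans hC'
  have hC0 : 0 ≤ C := le_trans (abs_nonneg _) hCt
  rw [max_eq_left hC0]
  calc |v - w| * |(3 * t - m ^ 2) - (t - 2) * Dl m t / (v * w)| / (t * (m + t))
      = (|(3 * t - m ^ 2) - (t - 2) * Dl m t / (v * w)| / (t * (m + t))) * |v - w| := by ring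
    _ ≤ C * |x - y| := mul_le_mul h1 hdist (abs_nonneg _) hC0

theorem Ft_bound {m ℓ a b : ℝ} (hm : 0 ≤ m) (hℓ : 0 < ℓ) (hℓ4 : ℓ ≤ 4) (ha : 0 < a) :
    ∃ L : ℝ≥0, ∀ t ∈ Icc a b, ∀ x, ‖Ft m ℓ t x‖ ≤ L := by
  have hK : IsCompact (Icc a b ×ˢ Icc ℓ (4 : ℝ)) := isCompact_Icc.prod isCompact_Icc
  have hsub : Icc a b ×ˢ Icc ℓ (4 : ℝ) ⊆ {p : ℝ × ℝ | 0 < p.1 ∧ 0 < p.2} := by
    rintro ⟨t, w⟩ ⟨ht, hw⟩
    exact ⟨lt_of_lt_of_le ha ht.1, lt_of_lt_of_le hℓ hw.1⟩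
  obtain ⟨C, hC⟩ := hK.exists_bound_of_continuousOn ((continuousOn_Fv m hm).mono hsub)
  refine ⟨C.toNNReal, fun t ht x => ?_⟩
  have h := hC (t, clampv ℓ x) ⟨ht, clampv_ge ℓ x, clampv_le hℓ4 x⟩
  exact h.trans (Real.le_coe_toNNReal C)

theorem Ft_cont {m ℓ a b : ℝ} (hm : 0 ≤ m) (hℓ : 0 < ℓ) (ha : 0 < a) (x : ℝ) :
    ContinuousOn (fun t => Ft m ℓ t x) (Icc a b) := by
  have h1 : ContinuousOn (fun t : ℝ => (t, clampv ℓ x)) (Icc a b) := by fun_prop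
  refine (continuousOn_Fv m hm).comp h1 ?_
  intro t ht
  exact ⟨lt_of_lt_of_le ha ht.1, lt_of_lt_of_le hℓ (clampv_ge ℓ x)⟩

theorem exists_picard {m ℓ a b : ℝ} (v₀ : ℝ) (hm : 0 ≤ m) (hℓ : 0 < ℓ) (hℓ4 : ℓ ≤ 4) (ha : 0 < a)
    (hab : a ≤ b) :
    ∃ v : ℝ → ℝ, v a = v₀ ∧ ∀ t ∈ Icc a b, HasDerivWithinAt v (Ft m ℓ t (v t)) (Icc a b) t := by
  obtain ⟨K, hK⟩ := Ft_lip (a := a) (b := b) hm hℓ ha
  obtain ⟨L, hL⟩ := Ft_bound (a := a) (b := b) hm hℓ hℓ4 ha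
  let t₀ : Icc a b := ⟨a, left_mem_Icc.mpr hab⟩
  have hb : 0 ≤ b - a := by linarith
  have hPL : IsPicardLindelof (Ft m ℓ) t₀ v₀ (L * (b - a).toNNReal) 0 L K :=
    { lipschitzOnWith := fun t ht => (hK t ht).lipschitzOnWith
      continuousOn := fun x _ => Ft_cont hm hℓ ha x
      norm_le := fun t ht x _ => hL t ht x
      mul_max_le := by
        have e : ((t₀ : ℝ)) = a := rfl
        rw [e, sub_self, max_eq_left hb]
        simp [Real.coe_toNNReal _ hb] }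
  exact hPL.exists_eq_forall_mem_Icc_hasDerivWithinAt₀

theorem Ft_unique {m ℓ a b : ℝ} {f g : ℝ → ℝ} (hm : 0 ≤ m) (hℓ : 0 < ℓ) (ha : 0 < a)
    (hf : ContinuousOn f (Icc a b)) (hf' : ∀ t ∈ Ico a b, HasDerivWithinAt f (Ft m ℓ t (f t)) (Ici t) t)
    (hg : ContinuousOn g (Icc a b)) (hg' : ∀ t ∈ Ico a b, HasDerivWithinAt g (Ft m ℓ t (g t)) (Ici t) t)
    (h0 : f a = g a) : EqOn f g (Icc a b) := by
  obtain ⟨K, hK⟩ := Ft_lip (a := a) (b := b) hm hℓ ha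
  exact ODE_solution_unique_of_mem_Icc_right (s := fun _ => univ) (K := K)
    (fun t ht => (hK t (Ico_subset_Icc_self ht)).lipschitzOnWith)
    hf hf' (fun _ _ => mem_univ _) hg hg' (fun _ _ => mem_univ _) h0

end Vale.Agent.Lib.P252
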