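import Vale.Agent.Lib.P252.Defs

open Matrix Set

namespace Vale.Agent.Lib.P252

variable {n : ℕ}

/-- The matrix with columns `q j - p`. -/
def colMat (p : Fin n → ℝ) (q : Fin n → Fin n → ℝ) : Matrix (Fin n) (Fin n) ℝ :=
  Matrix.of fun i j => q j i - p i

theorem exists_normalization (S : Set (Fin n → ℝ)) (hS : IsCompact S) (hconv : Convex ℝ S)
    (hint : (interior S).Nonempty) :
    ∃ (p0 : Fin n → ℝ) (M : Matrix (Fin n) (Fin n) ℝ), M.det ≠ 0 ∧ p0 ∈ S ∧
      (∀ y : Fin n → ℝ, (∀ i, 0 ≤ y i) → ∑ i, y i ≤ 1 → p0 + M *ᵥ y ∈ S) ∧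
      (∀ y : Fin n → ℝ, p0 + M *ᵥ y ∈ S → ∀ i, |y i| ≤ 1) := by
  classical
  set K : Set ((Fin n → ℝ) × (Fin n → Fin n → ℝ)) := S ×ˢ Set.pi univ (fun _ => S) with hK
  have hKc : IsCompact K := hS.prod (isCompact_univ_pi fun _ => hS)
  obtain ⟨x, hx⟩ := hint
  have hxS : x ∈ S := interior_subset hx
  obtain ⟨ε, hε, hball⟩ : ∃ ε > 0, Metric.closedBall x ε ⊆ S := by
    obtain ⟨ε, hε, hb⟩ := Metric.nhds_basis_closedBall.mem_iff.mp (mem_interior_iff_mem_nhds.mp hx)
    exact ⟨ε, hε, hb⟩
  have hKne : K.Nonempty := ⟨(x, fun _ => x), hxS, fun _ _ => hxS⟩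
  have hcont : ContinuousOn
      (fun P : (Fin n → ℝ) × (Fin n → Fin n → ℝ) => |(colMat P.1 P.2).det|) K := by
    apply Continuous.continuousOn
    apply Continuous.abs
    apply Continuous.matrix_det
    refine continuous_matrix fun i j => ?_
    simp only [colMat, Matrix.of_apply]
    fun_prop
  obtain ⟨⟨p0, q⟩, hPK, hmax⟩ := hKc.exists_isMaxOn hKne hcont
  have hp0 : p0 ∈ S := hPK.1
  have hq : ∀ j, q j ∈ S := fun j => hPK.2 j (mem_univ j)
  set M := colMat p0 q with hM
  -- positivity of the maximum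
  have hpos : 0 < |M.det| := by
    have h1 : (x, fun j => x + ε • (Pi.single j (1 : ℝ) : Fin n → ℝ)) ∈ K := by
      refine ⟨hxS, fun j _ => hball ?_⟩
      rw [Metric.mem_closedBall, dist_eq_norm]
      rw [add_sub_cancel_left, norm_smul, Real.norm_eq_abs, abs_of_pos hε, Pi.norm_single]
      simp
    have h2 := hmax h1
    simp only [Set.mem_ofPred_eq] at h2
    have h3 : colMat x (fun j => x + ε • (Pi.single j (1 : ℝ) : Fin n → ℝ))
        = ε • (1 : Matrix (Fin n) (Fin n) ℝ) := by
      ext i j
      simp [colMat, Matrix.one_apply, Pi.single_apply]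
    rw [h3, det_smul, det_one, mul_one, Fintype.card_fin, abs_of_pos (by positivity)] at h2
    have h4 : 0 < ε ^ n := by positivity
    linarith
  have hdet : M.det ≠ 0 := abs_pos.mp hpos
  refine ⟨p0, M, hdet, hp0, ?_, ?_⟩
  · intro y hy0 hy1
    have hw : p0 + M *ᵥ y = ∑ o : Option (Fin n),
        (match o with | none => 1 - ∑ i, y i | some i => y i) •
        (match o with | none => p0 | some i => q i) := by
      rw [Fintype.sum_option]
      ext k
      simp only [Pi.add_apply, Finset.sum_apply, Pi.smul_apply, smul_eq_mul, mulVec, dotProduct,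
        hM, colMat, Matrix.of_apply, sub_mul]
      rw [Finset.sum_sub_distrib]
      simp only [mul_comm (p0 k), Finset.sum_mul, one_mul]
      have h6 : ∀ x : Fin n, q x k * y x = y x * q x k := fun x => mul_comm _ _
      simp only [h6]
      ring
    rw [hw]
    apply hconv.sum_mem
    · rintro (_ | i) _
      · simpa using hy1
      · simpa using hy0 i
    · rw [Fintype.sum_option]; simp
    · rintro (_ | i) _
      · exact hp0
      · exact hq i
  · intro y hy i
    set x' := p0 + M *ᵥ y with hx'
    have h1 : M.cramer (x' - p0) i = M.det * y i := by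
      have h2 : x' - p0 = M *ᵥ y := by rw [hx']; simp
      rw [h2, cramer_eq_adjugate_mulVec, mulVec_mulVec, adjugate_mul, smul_mulVec, one_mulVec]
      simp
    rw [cramer_apply] at h1
    have h2 : M.updateCol i (x' - p0) = colMat p0 (Function.update q i x') := by
      ext a b
      by_cases hb : b = i
      · subst hb
        simp [colMat]
      · simp [colMat, hb, hM]
    have h3 : (p0, Function.update q i x') ∈ K := by
      refine ⟨hp0, fun j _ => ?_⟩
      by_cases hj : j = i
      · subst hj; simpa using hy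
      · simpa [Function.update_of_ne hj] using hq j
    have h4 := hmax h3
    simp only [Set.mem_ofPred_eq] at h4
    rw [← h2, h1, abs_mul] at h4
    have h5 : |M.det| * |y i| ≤ |M.det| * 1 := by simpa using h4
    exact le_of_mul_le_mul_left h5 hpos

end Vale.Agent.Lib.P252
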