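import Vale.Agent.Lib.P252.Barrier
import Vale.Agent.Lib.P252.Simplex
import Vale.Agent.Lib.P252.Change

open Matrix Set Filter Topology

namespace Vale.Agent.Lib.P252

variable {n : ℕ}

theorem dot_self_nonneg (v : Fin n → ℝ) : 0 ≤ v ⬝ᵥ v :=
  Finset.sum_nonneg fun i _ => mul_self_nonneg (v i)

theorem dot_self_pos {v : Fin n → ℝ} (hv : v ≠ 0) : 0 < v ⬝ᵥ v := by
  have := Matrix.dotProduct_star_self_pos_iff.mpr hv
  simpa [star_trivial] using this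

/-- The dimensional constant of the mass bound. -/
noncomputable def massConst (n : ℕ) : ℝ := ((4 * (n : ℝ) * ((n : ℝ) + 1)) ^ 2) ^ n

/-- The barrier constant. -/
noncomputable def barrierConst (n : ℕ) (κ p : ℝ) : ℝ :=
  (κ * massConst n + 1) * (2 * (n : ℝ)) ^ (n - 1) * (16 * (n : ℝ)) / (p * (1 - p))

theorem normalized_lower {φ : (Fin n → ℝ) → ℝ} {O : Set (Fin n → ℝ)}
    (hn : 1 ≤ n) (hO : IsOpen O) (hc : Convex ℝ O) (hφ : ContDiffOn ℝ 2 φ O)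
    (hpd : ∀ y ∈ O, (hess φ y).PosDef)
    (hnn : ∀ y ∈ O, 0 ≤ φ y)
    (hS : IsCompact {y | y ∈ O ∧ φ y ≤ 1})
    (hcube : ∀ y ∈ O, φ y ≤ 1 → ∀ i, |y i| ≤ 1)
    (hsimplex : ∀ y : Fin n → ℝ, (∀ i, 0 ≤ y i) → ∑ i, y i ≤ 1 → y ∈ O ∧ φ y ≤ 1)
    {ystar : Fin n → ℝ} (hstar : ystar ∈ O) (hstar1 : φ ystar ≤ 1)
    (α : Fin n → ℝ) (γ : ℝ)
    (hg : ∀ y ∈ O, φ y ≤ 1 → 0 < γ + α ⬝ᵥ y ∧ γ + α ⬝ᵥ y ≤ 1)
    {c κ β p : ℝ} (hκ : 0 < κ) (hp0 : 0 < p) (hp1 : p < 1) (hpβ : p - 2 ≤ -β)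
    (hlow : ∀ y ∈ O, φ y ≤ 1 → c ≤ (hess φ y).det)
    (hup : ∀ y ∈ O, φ y ≤ 1 → (hess φ y).det ≤ κ * c * (γ + α ⬝ᵥ y) ^ (-β))
    {ym : Fin n → ℝ} (hym : ym ∈ O) (hym1 : φ ym ≤ 1) (hgm : γ + α ⬝ᵥ ym = 1)
    {yf : Fin n → ℝ} (hyf : yf ∈ O) (hyf1 : φ yf ≤ 1) (hgf : γ + α ⬝ᵥ yf ≤ 1 / 2) :
    3 / 4 - barrierConst n κ p * (γ + α ⬝ᵥ yf) ^ p ≤ φ yf := by
  have hN : (1 : ℝ) ≤ (n : ℝ) := by exact_mod_cast hn
  have hNpos : (0 : ℝ) < (n : ℝ) := by linarith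
  have hq : ∀ y ∈ O, ∀ e : Fin n → ℝ, e ≠ 0 → 0 < fderiv ℝ (fderiv ℝ φ) y e e := by
    intro y hy e he
    rw [D2_eq_hess]
    have := (hpd y hy).dotProduct_mulVec_pos he
    simpa [star_trivial] using this
  have hmass : c ≤ massConst n :=
    mass_bound hn hO hc hφ hq hnn hstar hstar1 hsimplex hlow
  have hCpos : 0 < massConst n := by
    unfold massConst; positivity
  set B := κ * massConst n with hB
  have hBpos : 0 < B := by positivity
  have hp1' : 0 < 1 - p := by linarith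
  set K := barrierConst n κ p with hK
  have hKpos : 0 < K := by
    rw [hK, barrierConst]
    positivity
  have hup' : ∀ y ∈ O, φ y ≤ 1 → (hess φ y).det ≤ B * (γ + α ⬝ᵥ y) ^ (-β) := by
    intro y hy hy1
    refine (hup y hy hy1).trans ?_
    have h1 : 0 < (γ + α ⬝ᵥ y) ^ (-β) := Real.rpow_pos_of_pos (hg y hy hy1).1 _
    have h2 : κ * c ≤ B := mul_le_mul_of_nonneg_left hmass hκ.le
    exact mul_le_mul_of_nonneg_right h2 h1.le
  -- lower bound for the slope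
  set d := ym - yf with hd
  have hαd : 1 / 2 ≤ α ⬝ᵥ d := by
    have : α ⬝ᵥ d = (γ + α ⬝ᵥ ym) - (γ + α ⬝ᵥ yf) := by
      rw [hd, dotProduct_sub]; ring
    rw [this, hgm]
    linarith
  have hdd : d ⬝ᵥ d ≤ 4 * (n : ℝ) := by
    have h1 : ∀ i, d i * d i ≤ 4 := by
      intro i
      have h2 := abs_le.mp (hcube ym hym hym1 i)
      have h3 := abs_le.mp (hcube yf hyf hyf1 i)
      have h4 : d i = ym i - yf i := rfl
      rw [h4]
      nlinarith [h2.1, h2.2, h3.1, h3.2]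
    calc d ⬝ᵥ d = ∑ i, d i * d i := rfl
      _ ≤ ∑ _i : Fin n, (4 : ℝ) := Finset.sum_le_sum fun i _ => h1 i
      _ = 4 * (n : ℝ) := by simp [mul_comm]
  have hCS : (α ⬝ᵥ d) ^ 2 ≤ (α ⬝ᵥ α) * (d ⬝ᵥ d) := by
    have := Finset.sum_mul_sq_le_sq_mul_sq (Finset.univ : Finset (Fin n)) α d
    simpa [dotProduct, sq] using this
  have hαα : 1 ≤ 16 * (n : ℝ) * (α ⬝ᵥ α) := by
    have h0 := dot_self_nonneg α
    have h1 : (1 / 2 : ℝ) ^ 2 ≤ (α ⬝ᵥ d) ^ 2 := by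
      apply pow_le_pow_left₀ (by norm_num) hαd
    have h2 : (α ⬝ᵥ α) * (d ⬝ᵥ d) ≤ (α ⬝ᵥ α) * (4 * (n : ℝ)) :=
      mul_le_mul_of_nonneg_left hdd h0
    nlinarith
  have hKB : B < (1 / (2 * (n : ℝ))) ^ (n - 1) * (K * p * (1 - p) * (α ⬝ᵥ α)) := by
    have h1 : K * p * (1 - p) = (B + 1) * (2 * (n : ℝ)) ^ (n - 1) * (16 * (n : ℝ)) := by
      rw [hK, barrierConst, hB]
      field_simp
    have h2 : (1 / (2 * (n : ℝ))) ^ (n - 1) * (2 * (n : ℝ)) ^ (n - 1) = 1 := by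
      rw [← mul_pow]
      have : 1 / (2 * (n : ℝ)) * (2 * (n : ℝ)) = 1 := by field_simp
      rw [this, one_pow]
    have h3 : (1 / (2 * (n : ℝ))) ^ (n - 1) * (K * p * (1 - p) * (α ⬝ᵥ α))
        = (B + 1) * (16 * (n : ℝ) * (α ⬝ᵥ α)) := by
      rw [h1]
      calc (1 / (2 * (n : ℝ))) ^ (n - 1) *
            ((B + 1) * (2 * (n : ℝ)) ^ (n - 1) * (16 * (n : ℝ)) * (α ⬝ᵥ α))
          = ((1 / (2 * (n : ℝ))) ^ (n - 1) * (2 * (n : ℝ)) ^ (n - 1)) *
            ((B + 1) * (16 * (n : ℝ) * (α ⬝ᵥ α))) := by ring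
        _ = (B + 1) * (16 * (n : ℝ) * (α ⬝ᵥ α)) := by rw [h2, one_mul]
    rw [h3]
    nlinarith
  exact barrier hn hO hφ hpd hS hcube α γ hg hp0 hp1 hpβ hKpos hup' hKB yf hyf hyf1

theorem pinching_false {u : (Fin n → ℝ) → ℝ} {Ω : Set (Fin n → ℝ)}
    (hn : 1 ≤ n) (hO : IsOpen Ω) (hc : Convex ℝ Ω) (hne : Ω.Nonempty)
    (hu : ContDiffOn ℝ 2 u Ω) (hpd : ∀ x ∈ Ω, (hess u x).PosDef)
    (hclosed : IsClosed (graphOver Ω u))
    (b : Fin n → ℝ) (hb : b ≠ 0) (γ : ℝ) (hℓ : ∀ x ∈ Ω, 0 < γ + b ⬝ᵥ x)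
    {β lam Lam : ℝ} (hβ0 : 0 ≤ β) (hβ2 : β < 2) (hlam : 0 < lam) (hLam : 0 < Lam)
    (hlow : ∀ x ∈ Ω, lam * (γ + b ⬝ᵥ x) ^ (-β) ≤ (hess u x).det)
    (hup : ∀ x ∈ Ω, (hess u x).det ≤ Lam * (γ + b ⬝ᵥ x) ^ (-β)) : False := by
  classical
  have hq : ∀ y ∈ Ω, ∀ e : Fin n → ℝ, e ≠ 0 → 0 < fderiv ℝ (fderiv ℝ u) y e e := by
    intro y hy e he
    rw [D2_eq_hess]
    have := (hpd y hy).dotProduct_mulVec_pos he
    simpa [star_trivial] using this
  set ℓ : (Fin n → ℝ) → ℝ := fun x => γ + b ⬝ᵥ x with hℓdef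
  have hℓcont : Continuous ℓ := by
    simp only [hℓdef, dotProduct]; fun_prop
  set a := sInf (ℓ '' Ω) with ha
  have hbdd : BddBelow (ℓ '' Ω) := ⟨0, by rintro _ ⟨x, hx, rfl⟩; exact (hℓ x hx).le⟩
  have hane : (ℓ '' Ω).Nonempty := hne.image _
  have ha0 : 0 ≤ a := le_csInf hane (by rintro _ ⟨x, hx, rfl⟩; exact (hℓ x hx).le)
  have hale : ∀ x ∈ Ω, a ≤ ℓ x := fun x hx => csInf_le hbdd ⟨x, hx, rfl⟩
  have hstrict : ∀ x ∈ Ω, a < ℓ x := by
    intro x hx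
    obtain ⟨r, hr, hball⟩ := Metric.isOpen_iff.mp hO x hx
    set ε := r / (2 * (‖b‖ + 1)) with hε
    have hεpos : 0 < ε := by positivity
    have hmem : x - ε • b ∈ Ω := by
      apply hball
      rw [Metric.mem_ball, dist_eq_norm, sub_sub_cancel_left, norm_neg, norm_smul,
        Real.norm_eq_abs, abs_of_pos hεpos, hε]
      have h1 : 0 ≤ ‖b‖ := norm_nonneg b
      rw [div_mul_eq_mul_div, div_lt_iff₀ (by positivity)]
      nlinarith
    have h1 := hale _ hmem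
    have h2 : ℓ (x - ε • b) = ℓ x - ε * (b ⬝ᵥ b) := by
      simp only [hℓdef, dotProduct_sub, dotProduct_smul, smul_eq_mul]
      ring
    have h3 := dot_self_pos hb
    rw [h2] at h1
    nlinarith [mul_pos hεpos h3]
  obtain ⟨x0, hx0⟩ := hne
  set ℓa0 := ℓ x0 - a with hℓa0
  have hℓa0pos : 0 < ℓa0 := by linarith [hstrict x0 hx0]
  -- constants
  set p : ℝ := (2 - β) / 3 with hp
  have hp0 : 0 < p := by rw [hp]; linarith
  have hp1 : p < 1 := by rw [hp]; linarith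
  have hpβ : p - 2 ≤ -β := by rw [hp]; linarith
  set κ : ℝ := Lam / lam with hκ
  have hκpos : 0 < κ := by positivity
  set K0 := barrierConst n κ p with hK0
  have hN : (1 : ℝ) ≤ (n : ℝ) := by exact_mod_cast hn
  have hNpos : (0 : ℝ) < (n : ℝ) := by linarith
  have hK0pos : 0 < K0 := by
    have h1 : 0 < 1 - p := by linarith
    have h2 : 0 < massConst n := by unfold massConst; positivity
    rw [hK0, barrierConst]
    positivity
  set ε : ℝ := min (1 / 2) ((1 / (4 * K0)) ^ (1 / p)) with hε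
  have hε1 : 0 < (1 / (4 * K0)) ^ (1 / p) := Real.rpow_pos_of_pos (by positivity) _
  have hεpos : 0 < ε := lt_min (by norm_num) hε1
  have hεle : ε ≤ 1 / 2 := min_le_left _ _
  have hεp : K0 * ε ^ p ≤ 1 / 4 := by
    have h1 : ε ^ p ≤ ((1 / (4 * K0)) ^ (1 / p)) ^ p :=
      Real.rpow_le_rpow hεpos.le (min_le_right _ _) hp0.le
    rw [← Real.rpow_mul (by positivity), one_div_mul_cancel hp0.ne', Real.rpow_one] at h1
    calc K0 * ε ^ p ≤ K0 * (1 / (4 * K0)) := mul_le_mul_of_nonneg_left h1 hK0pos.le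
      _ = 1 / 4 := by field_simp
  -- the point near the infimum
  obtain ⟨_, ⟨xf, hxf, rfl⟩, hxflt⟩ := exists_lt_of_csInf_lt hane
    (by linarith [mul_pos hεpos hℓa0pos] : sInf (ℓ '' Ω) < a + ε * ℓa0)
  -- the section
  set G := tangentGap u x0 xf with hG
  have hGnn : 0 ≤ G := tangentGap_nonneg hO hc hu hq hx0 hxf
  set h : ℝ := 2 * G + 1 with hh
  have hhpos : 0 < h := by positivity
  set S : Set (Fin n → ℝ) := {x | x ∈ Ω ∧ tangentGap u x0 x ≤ h} with hS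
  have hSc : IsCompact S := section_compact hn hO hc hu hq hclosed hx0 h
  have hSconv : Convex ℝ S := (tangentGap_convexOn hO hc hu hq x0).convex_le h
  have hzero : tangentGap u x0 x0 = 0 := by simp [tangentGap]
  have hx0S : x0 ∈ S := ⟨hx0, by rw [hzero]; exact hhpos.le⟩
  have hxfS : xf ∈ S := ⟨hxf, by rw [← hG, hh]; linarith⟩
  have hgapcont : ContinuousAt (tangentGap u x0) x0 := by
    have h1 : Continuous fun x : Fin n → ℝ => u x0 + fderiv ℝ u x0 (x - x0) := by fun_prop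
    exact (cda hO hu hx0).continuousAt.sub h1.continuousAt
  have hSint : (interior S).Nonempty := by
    refine ⟨x0, mem_interior_iff_mem_nhds.mpr ?_⟩
    have h1 : ∀ᶠ x in 𝓝 x0, tangentGap u x0 x < h :=
      hgapcont.eventually (gt_mem_nhds (by rw [hzero]; exact hhpos))
    filter_upwards [h1, hO.mem_nhds hx0] with x hx1 hx2
    exact ⟨hx2, hx1.le⟩
  obtain ⟨p0, M, hdet, -, hsimplexM, hcubeM⟩ := exists_normalization S hSc hSconv hSint
  have hMu : IsUnit M.det := isUnit_iff_ne_zero.mpr hdet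
  set T : (Fin n → ℝ) → (Fin n → ℝ) := fun y => p0 + M *ᵥ y with hT
  set Tinv : (Fin n → ℝ) → (Fin n → ℝ) := fun x => M⁻¹ *ᵥ (x - p0) with hTinv
  have hTT : ∀ x, T (Tinv x) = x := by
    intro x
    simp only [hT, hTinv, mulVec_mulVec, Matrix.mul_nonsing_inv M hMu, one_mulVec]
    abel
  have hTT' : ∀ y, Tinv (T y) = y := by
    intro y
    simp only [hT, hTinv, add_sub_cancel_left, mulVec_mulVec, Matrix.nonsing_inv_mul M hMu,
      one_mulVec]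
  have hTcont : Continuous T := by
    have : T = fun y => p0 + mulCLM M y := by funext z; simp [hT]
    rw [this]; fun_prop
  have hTinvcont : Continuous Tinv := by
    have : Tinv = fun x => mulCLM M⁻¹ (x - p0) := by funext z; simp [hTinv]
    rw [this]; fun_prop
  set O : Set (Fin n → ℝ) := T ⁻¹' Ω with hOdef
  have hOopen : IsOpen O := hO.preimage hTcont
  have hOconv : Convex ℝ O := by
    intro y1 hy1 y2 hy2 s t hs ht hst
    have h1 : T (s • y1 + t • y2) = s • T y1 + t • T y2 := by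
      simp only [hT, mulVec_add, mulVec_smul, smul_add]
      have : p0 = s • p0 + t • p0 := by rw [← add_smul, hst, one_smul]
      conv_lhs => rw [this]
      abel
    show T (s • y1 + t • y2) ∈ Ω
    rw [h1]
    exact hc hy1 hy2 hs ht hst
  set φ : (Fin n → ℝ) → ℝ := fun y => (1 / h) * tangentGap u x0 (T y) with hφdef
  have hφ : ContDiffOn ℝ 2 φ O := contDiffOn_normalized M p0 x0 (1 / h) hu
  have hφle : ∀ y, φ y ≤ 1 ↔ tangentGap u x0 (T y) ≤ h := by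
    intro y
    simp only [hφdef]
    rw [one_div, inv_mul_le_iff₀ hhpos, mul_one]
  have hhess : ∀ y ∈ O, hess φ y = (1 / h) • (Mᵀ * hess u (T y) * M) := fun y hy =>
    hess_normalized M p0 x0 (1 / h) (cda hO hu hy)
  have hinj : Function.Injective M.mulVec := by
    intro a1 a2 h12
    have h1 : M⁻¹ *ᵥ (M *ᵥ a1) = M⁻¹ *ᵥ (M *ᵥ a2) := by
      exact congrArg (fun v => M⁻¹ *ᵥ v) h12
    simpa [mulVec_mulVec, Matrix.nonsing_inv_mul M hMu] using h1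
  have hpdφ : ∀ y ∈ O, (hess φ y).PosDef := by
    intro y hy
    rw [hhess y hy]
    have h1 := (hpd (T y) hy).conjTranspose_mul_mul_same hinj
    rw [conjTranspose_eq_transpose_of_trivial] at h1
    exact h1.smul (by positivity)
  have hdetφ : ∀ y ∈ O, (hess φ y).det = (1 / h) ^ n * M.det ^ 2 * (hess u (T y)).det := by
    intro y hy
    rw [hhess y hy, det_smul, Fintype.card_fin, det_mul, det_mul, det_transpose]
    ring
  set F : ℝ := (1 / h) ^ n * M.det ^ 2 with hF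
  have hFpos : 0 < F := by positivity
  have hnn : ∀ y ∈ O, 0 ≤ φ y := by
    intro y hy
    exact mul_nonneg (by positivity) (tangentGap_nonneg hO hc hu hq hx0 hy)
  have hSmem : ∀ y, (y ∈ O ∧ φ y ≤ 1) ↔ T y ∈ S := by
    intro y
    rw [hφle]
    exact Iff.rfl
  have hScomp : IsCompact {y | y ∈ O ∧ φ y ≤ 1} := by
    have h1 : {y | y ∈ O ∧ φ y ≤ 1} = Tinv '' S := by
      ext y
      constructor
      · intro hy
        exact ⟨T y, (hSmem y).mp hy, hTT' y⟩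
      · rintro ⟨x, hx, rfl⟩
        apply (hSmem _).mpr
        rw [hTT]
        exact hx
    rw [h1]
    exact hSc.image hTinvcont
  have hcube : ∀ y ∈ O, φ y ≤ 1 → ∀ i, |y i| ≤ 1 := fun y hy hy1 =>
    hcubeM y ((hSmem y).mp ⟨hy, hy1⟩)
  have hsimplex : ∀ y : Fin n → ℝ, (∀ i, 0 ≤ y i) → ∑ i, y i ≤ 1 → y ∈ O ∧ φ y ≤ 1 :=
    fun y hy0 hy1 => (hSmem y).mpr (hsimplexM y hy0 hy1)
  have hmemOf : ∀ x ∈ S, Tinv x ∈ O ∧ φ (Tinv x) ≤ 1 := by
    intro x hx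
    apply (hSmem _).mpr
    rw [hTT]
    exact hx
  -- the maximum of the affine function on the section
  obtain ⟨xm, hxmS, hxmax⟩ := hSc.exists_isMaxOn ⟨x0, hx0S⟩ hℓcont.continuousOn
  set τ := ℓ xm - a with hτ
  have hτge : ℓa0 ≤ τ := by
    have : ℓ x0 ≤ ℓ xm := hxmax hx0S
    rw [hℓa0, hτ]; linarith
  have hτpos : 0 < τ := hℓa0pos.trans_le hτge
  have hℓle : ∀ x ∈ S, ℓ x ≤ τ + a := by
    intro x hx
    have : ℓ x ≤ ℓ xm := hxmax hx
    rw [hτ]; linarith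
  set α : Fin n → ℝ := (1 / τ) • (b ᵥ* M) with hα
  set γ' : ℝ := (γ + b ⬝ᵥ p0 - a) / τ with hγ'
  have hgform : ∀ y, γ' + α ⬝ᵥ y = (ℓ (T y) - a) / τ := by
    intro y
    simp only [hα, hγ', hℓdef, hT, dotProduct_add, dotProduct_mulVec, smul_dotProduct,
      smul_eq_mul]
    field_simp
    ring
  have hgformx : ∀ x, γ' + α ⬝ᵥ Tinv x = (ℓ x - a) / τ := by
    intro x
    rw [hgform, hTT]
  have hg : ∀ y ∈ O, φ y ≤ 1 → 0 < γ' + α ⬝ᵥ y ∧ γ' + α ⬝ᵥ y ≤ 1 := by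
    intro y hy hy1
    rw [hgform]
    have hTS := (hSmem y).mp ⟨hy, hy1⟩
    constructor
    · have := hstrict _ hy
      apply div_pos (by linarith) hτpos
    · rw [div_le_one hτpos]
      have := hℓle _ hTS
      linarith
  have hτa : 0 < τ + a := by linarith
  set c : ℝ := F * (lam * (τ + a) ^ (-β)) with hc'
  have hlowφ : ∀ y ∈ O, φ y ≤ 1 → c ≤ (hess φ y).det := by
    intro y hy hy1
    rw [hdetφ y hy]
    apply mul_le_mul_of_nonneg_left _ hFpos.le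
    have hTS := (hSmem y).mp ⟨hy, hy1⟩
    refine le_trans ?_ (hlow _ hy)
    apply mul_le_mul_of_nonneg_left _ hlam.le
    exact Real.rpow_le_rpow_of_nonpos (hℓ _ hy) (hℓle _ hTS) (by linarith)
  have hupφ : ∀ y ∈ O, φ y ≤ 1 → (hess φ y).det ≤ κ * c * (γ' + α ⬝ᵥ y) ^ (-β) := by
    intro y hy hy1
    rw [hdetφ y hy, hgform]
    have hTS := (hSmem y).mp ⟨hy, hy1⟩
    have hL := hℓ _ hy
    have hLa := hstrict _ hy
    have hLτ := hℓle _ hTS
    set L := ℓ (T y) with hLdef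
    have hgpos : 0 < (L - a) / τ := div_pos (by linarith) hτpos
    have hle : (τ + a) * ((L - a) / τ) ≤ L := by
      rw [← mul_div_assoc, div_le_iff₀ hτpos]
      nlinarith
    have h1 : L ^ (-β) ≤ ((τ + a) * ((L - a) / τ)) ^ (-β) :=
      Real.rpow_le_rpow_of_nonpos (by positivity) hle (by linarith)
    rw [Real.mul_rpow hτa.le hgpos.le] at h1
    have h2 : κ * c = F * (Lam * (τ + a) ^ (-β)) := by
      rw [hκ, hc']
      field_simp
    rw [h2]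
    calc F * (hess u (T y)).det ≤ F * (Lam * L ^ (-β)) :=
          mul_le_mul_of_nonneg_left (hup _ hy) hFpos.le
      _ ≤ F * (Lam * ((τ + a) ^ (-β) * ((L - a) / τ) ^ (-β))) := by
          apply mul_le_mul_of_nonneg_left _ hFpos.le
          exact mul_le_mul_of_nonneg_left h1 hLam.le
      _ = F * (Lam * (τ + a) ^ (-β)) * ((L - a) / τ) ^ (-β) := by ring
  -- points
  obtain ⟨hystar, hystar1⟩ := hmemOf x0 hx0S
  obtain ⟨hym, hym1⟩ := hmemOf xm hxmS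
  obtain ⟨hyf, hyf1⟩ := hmemOf xf hxfS
  have hgm : γ' + α ⬝ᵥ Tinv xm = 1 := by
    rw [hgformx, ← hτ, div_self hτpos.ne']
  have hgfle : γ' + α ⬝ᵥ Tinv xf ≤ ε := by
    rw [hgformx, div_le_iff₀ hτpos]
    have h1 : ε * ℓa0 ≤ ε * τ := mul_le_mul_of_nonneg_left hτge hεpos.le
    linarith
  have hgf : γ' + α ⬝ᵥ Tinv xf ≤ 1 / 2 := hgfle.trans hεle
  have hmain := normalized_lower hn hOopen hOconv hφ hpdφ hnn hScomp hcube hsimplex
    hystar hystar1 α γ' hg hκpos hp0 hp1 hpβ hlowφ hupφ hym hym1 hgm hyf hyf1 hgf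
  have hgfpos := (hg _ hyf hyf1).1
  have hpowle : (γ' + α ⬝ᵥ Tinv xf) ^ p ≤ ε ^ p :=
    Real.rpow_le_rpow hgfpos.le hgfle hp0.le
  have hK : K0 * (γ' + α ⬝ᵥ Tinv xf) ^ p ≤ 1 / 4 :=
    (mul_le_mul_of_nonneg_left hpowle hK0pos.le).trans hεp
  have hφf : φ (Tinv xf) = G / h := by
    simp only [hφdef, hTT]
    rw [hG]
    ring
  rw [hφf] at hmain
  have h3 : G / h < 1 / 2 := by
    rw [div_lt_iff₀ hhpos, hh]
    linarith
  linarith

end Vale.Agent.Lib.P252
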