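import Mathlib

open Set Filter Topology

namespace Vale.Agent.Lib.P252

/-- The sum of the power series with coefficients `c`. -/
noncomputable def ev (c : ℕ → ℝ) (x : ℝ) : ℝ := ∑' j, c j * x ^ j

variable {c : ℕ → ℝ} {ρ K : ℝ}

theorem ev_summable_abs (hρ : 0 < ρ) (hK : ∀ j, |c j| * ρ ^ j ≤ K) {x : ℝ} (hx : |x| < ρ) :
    Summable fun j => ‖c j * x ^ j‖ := by
  have hq0 : 0 ≤ |x| / ρ := by positivity
  have hq1 : |x| / ρ < 1 := (div_lt_one hρ).mpr hx
  have hg : Summable fun j : ℕ => K * (|x| / ρ) ^ j :=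
    (summable_geometric_of_lt_one hq0 hq1).mul_left K
  refine Summable.of_nonneg_of_le (fun j => norm_nonneg _) (fun j => ?_) hg
  have h1 : ‖c j * x ^ j‖ = |c j| * ρ ^ j * (|x| / ρ) ^ j := by
    rw [Real.norm_eq_abs, abs_mul, abs_pow, div_pow]
    have : ρ ^ j ≠ 0 := pow_ne_zero _ hρ.ne'
    field_simp
  rw [h1]
  exact mul_le_mul_of_nonneg_right (hK j) (by positivity)

theorem ev_hasSum (hρ : 0 < ρ) (hK : ∀ j, |c j| * ρ ^ j ≤ K) {x : ℝ} (hx : |x| < ρ) :
    HasSum (fun j => c j * x ^ j) (ev c x) :=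
  (ev_summable_abs hρ hK hx).of_norm.hasSum

/-- Term by term differentiation of a power series. -/
theorem ev_hasDerivAt (hρ : 0 < ρ) (hK : ∀ j, |c j| * ρ ^ j ≤ K) {x : ℝ} (hx : |x| < ρ) :
    HasDerivAt (ev c) (∑' j : ℕ, (j : ℝ) * c j * x ^ (j - 1)) x := by
  have hK0 : 0 ≤ K := le_trans (by positivity) (hK 0)
  set r := (|x| + ρ) / 2 with hr
  have hr0 : 0 < r := by
    have := abs_nonneg x
    rw [hr]
    linarith
  have hxr : |x| < r := by rw [hr]; linarith
  have hrρ : r < ρ := by rw [hr]; linarith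
  set q := r / ρ with hq
  have hq0 : 0 < q := by positivity
  have hq1 : q < 1 := (div_lt_one hρ).mpr hrρ
  have hsum : Summable fun j : ℕ => (j : ℝ) * q ^ j := by
    have := summable_pow_mul_geometric_of_norm_lt_one 1 (r := q)
      (by rw [Real.norm_eq_abs, abs_of_pos hq0]; exact hq1)
    simpa using this
  have hu : Summable fun j : ℕ => K / r * ((j : ℝ) * q ^ j) := hsum.mul_left _
  have hg : ∀ (j : ℕ) (y : ℝ), y ∈ Ioo (-r) r →
      HasDerivAt (fun z => c j * z ^ j) ((j : ℝ) * c j * y ^ (j - 1)) y := by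
    intro j y _
    have := (hasDerivAt_pow j y).const_mul (c j)
    refine this.congr_deriv ?_
    ring
  have hg' : ∀ (j : ℕ) (y : ℝ), y ∈ Ioo (-r) r →
      ‖(j : ℝ) * c j * y ^ (j - 1)‖ ≤ K / r * ((j : ℝ) * q ^ j) := by
    intro j y hy
    have hy' : |y| ≤ r := (abs_lt.mpr hy).le
    rcases Nat.eq_zero_or_pos j with rfl | hj
    · simp
    obtain ⟨i, rfl⟩ : ∃ i, j = i + 1 := ⟨j - 1, by omega⟩
    have hpow : r ^ i = r ^ (i + 1) / r := by
      rw [pow_succ]
      field_simp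
    have e1 : ‖((i + 1 : ℕ) : ℝ) * c (i + 1) * y ^ (i + 1 - 1)‖
        = ((i + 1 : ℕ) : ℝ) * |c (i + 1)| * |y| ^ i := by
      rw [Real.norm_eq_abs, abs_mul, abs_mul, abs_pow, Nat.abs_cast]
      simp
    rw [e1]
    have e2 : K / r * (((i + 1 : ℕ) : ℝ) * q ^ (i + 1))
        = ((i + 1 : ℕ) : ℝ) * (K / ρ ^ (i + 1)) * r ^ i := by
      rw [hq, div_pow, hpow]
      have : ρ ^ (i + 1) ≠ 0 := pow_ne_zero _ hρ.ne'
      field_simp
    rw [e2]
    have e3 : |c (i + 1)| ≤ K / ρ ^ (i + 1) := by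
      rw [le_div_iff₀ (by positivity)]
      exact hK (i + 1)
    have e4 : |y| ^ i ≤ r ^ i := pow_le_pow_left₀ (abs_nonneg y) hy' i
    have hnn : (0 : ℝ) ≤ ((i + 1 : ℕ) : ℝ) := Nat.cast_nonneg _
    have h5 : 0 ≤ K / ρ ^ (i + 1) := by positivity
    calc ((i + 1 : ℕ) : ℝ) * |c (i + 1)| * |y| ^ i
        ≤ ((i + 1 : ℕ) : ℝ) * (K / ρ ^ (i + 1)) * |y| ^ i :=
          mul_le_mul_of_nonneg_right (mul_le_mul_of_nonneg_left e3 hnn) (by positivity)
      _ ≤ ((i + 1 : ℕ) : ℝ) * (K / ρ ^ (i + 1)) * r ^ i :=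
          mul_le_mul_of_nonneg_left e4 (by positivity)
  have hx0 : x ∈ Ioo (-r) r := abs_lt.mp hxr
  have h0 : (0 : ℝ) ∈ Ioo (-r) r := ⟨by linarith, hr0⟩
  have hg0 : Summable fun j => c j * (0 : ℝ) ^ j := by
    have := ev_summable_abs hρ hK (x := 0) (by simpa using hρ)
    exact this.of_norm
  exact hasDerivAt_tsum_of_isPreconnected hu isOpen_Ioo isPreconnected_Ioo hg hg' h0 hg0 hx0

/-- The series of `j c_j x^j` sums to `x` times the derivative. -/
theorem ev_hasSum_deriv (hρ : 0 < ρ) (hK : ∀ j, |c j| * ρ ^ j ≤ K) {x : ℝ} (hx : |x| < ρ) :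
    HasSum (fun j : ℕ => (j : ℝ) * c j * x ^ j) (x * deriv (ev c) x) := by
  have hK0 : 0 ≤ K := le_trans (by positivity) (hK 0)
  have hd := ev_hasDerivAt hρ hK hx
  rw [hd.deriv]
  set r := (|x| + ρ) / 2 with hr
  have hr0 : 0 < r := by
    have := abs_nonneg x
    rw [hr]
    linarith
  have hxr : |x| < r := by rw [hr]; linarith
  have hrρ : r < ρ := by rw [hr]; linarith
  set q := r / ρ with hq
  have hq0 : 0 < q := by positivity
  have hq1 : q < 1 := (div_lt_one hρ).mpr hrρ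
  have hsum : Summable fun j : ℕ => (j : ℝ) * q ^ j := by
    have := summable_pow_mul_geometric_of_norm_lt_one 1 (r := q)
      (by rw [Real.norm_eq_abs, abs_of_pos hq0]; exact hq1)
    simpa using this
  have hu : Summable fun j : ℕ => K * ((j : ℝ) * q ^ j) := hsum.mul_left _
  have hs : Summable fun j : ℕ => (j : ℝ) * c j * x ^ j := by
    refine Summable.of_norm ?_
    refine Summable.of_nonneg_of_le (fun j => norm_nonneg _) (fun j => ?_) hu
    have e1 : ‖(j : ℝ) * c j * x ^ j‖ = (j : ℝ) * (|c j| * ρ ^ j) * (|x| / ρ) ^ j := by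
      rw [Real.norm_eq_abs, abs_mul, abs_mul, abs_pow, Nat.abs_cast, div_pow]
      have : ρ ^ j ≠ 0 := pow_ne_zero _ hρ.ne'
      field_simp
    rw [e1]
    have hnn : (0 : ℝ) ≤ (j : ℝ) := Nat.cast_nonneg _
    have h3 : (|x| / ρ) ^ j ≤ q ^ j :=
      pow_le_pow_left₀ (by positivity) (div_le_div_of_nonneg_right hxr.le hρ.le) j
    calc (j : ℝ) * (|c j| * ρ ^ j) * (|x| / ρ) ^ j ≤ (j : ℝ) * K * q ^ j := by
          apply mul_le_mul (mul_le_mul_of_nonneg_left (hK j) hnn) h3 (by positivity) (by positivity)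
      _ = K * ((j : ℝ) * q ^ j) := by ring
  have h2 : HasSum (fun j : ℕ => x * ((j : ℝ) * c j * x ^ (j - 1)))
      (x * ∑' j : ℕ, (j : ℝ) * c j * x ^ (j - 1)) := by
    have hs2 : Summable fun j : ℕ => (j : ℝ) * c j * x ^ (j - 1) := by
      by_cases hx0 : x = 0
      · subst hx0
        refine summable_of_ne_finset_zero (s := {0, 1}) ?_
        intro j hj
        simp only [Finset.mem_insert, Finset.mem_singleton, not_or] at hj
        have : j - 1 ≠ 0 := by omega
        simp [this]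
      · have : Summable fun j : ℕ => x⁻¹ * ((j : ℝ) * c j * x ^ j) := hs.mul_left _
        refine this.congr fun j => ?_
        rcases Nat.eq_zero_or_pos j with rfl | hj
        · simp
        obtain ⟨i, rfl⟩ : ∃ i, j = i + 1 := ⟨j - 1, by omega⟩
        simp only [Nat.add_sub_cancel, pow_succ]
        field_simp
    exact hs2.hasSum.mul_left x
  refine h2.congr_fun ?_ |> fun h => h
  intro j
  rcases Nat.eq_zero_or_pos j with rfl | hj
  · simp
  obtain ⟨i, rfl⟩ : ∃ i, j = i + 1 := ⟨j - 1, by omega⟩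
  simp only [Nat.add_sub_cancel, pow_succ]
  ring

/-- A power series with exponentially bounded coefficients is smooth on its disc. -/
theorem ev_contDiffOn (hρ : 0 < ρ) (hK : ∀ j, |c j| * ρ ^ j ≤ K) :
    ContDiffOn ℝ (⊤ : ℕ∞) (ev c) (Ioo (-ρ) ρ) := by
  have hK0 : 0 ≤ K := le_trans (by positivity) (hK 0)
  set p := FormalMultilinearSeries.ofScalars ℝ c with hp
  have hrad : ENNReal.ofReal ρ ≤ p.radius := by
    have hρ' : (ρ.toNNReal : ℝ) = ρ := Real.coe_toNNReal _ hρ.le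
    have : ((ρ.toNNReal : NNReal) : ENNReal) ≤ p.radius := by
      apply p.le_radius_of_bound K
      intro n
      rw [hρ']
      have e : ‖p n‖ = |c n| := by
        rw [hp, FormalMultilinearSeries.ofScalars_norm, Real.norm_eq_abs]
      rw [e]
      exact hK n
    simpa [ENNReal.ofReal] using this
  have hpos : 0 < p.radius := lt_of_lt_of_le (ENNReal.ofReal_pos.mpr hρ) hrad
  have hfp := p.hasFPowerSeriesOnBall hpos
  have han := hfp.analyticOnNhd
  have hev : ∀ x ∈ Ioo (-ρ) ρ, ev c x = p.sum x := by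
    intro x _
    simp only [ev, hp, FormalMultilinearSeries.sum]
    refine tsum_congr fun j => ?_
    rw [FormalMultilinearSeries.ofScalars_apply_eq]
    simp
  have hsub : Ioo (-ρ) ρ ⊆ Metric.eball (0 : ℝ) p.radius := by
    intro x hx
    have hx' : |x| < ρ := abs_lt.mpr hx
    rw [Metric.mem_eball, edist_dist, Real.dist_eq, sub_zero]
    exact lt_of_lt_of_le ((ENNReal.ofReal_lt_ofReal_iff hρ).mpr hx') hrad
  have hcd : ContDiffOn ℝ (⊤ : ℕ∞) p.sum (Ioo (-ρ) ρ) := by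
    have : ContDiffOn ℝ ⊤ p.sum (Ioo (-ρ) ρ) := (han.mono hsub).contDiffOn isOpen_Ioo.uniqueDiffOn
    exact this.of_le (by exact_mod_cast le_top)
  exact hcd.congr hev

end Vale.Agent.Lib.P252
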