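import Vale.Agent.Lib.P252.Defs
import Vale.Agent.Lib.P252.Block

open Matrix Set Filter Topology

namespace Vale.Agent.Lib.P252

variable {n : ℕ}

/-- The linear functional with coefficient vector `v`. -/
noncomputable def gradL (v : Fin n → ℝ) : (Fin n → ℝ) →L[ℝ] ℝ :=
  ∑ i, v i • ContinuousLinearMap.proj i

@[simp] theorem gradL_apply (v e : Fin n → ℝ) : gradL v e = ∑ i, v i * e i := by
  simp [gradL]

theorem gradL_single (v : Fin n → ℝ) (i : Fin n) : gradL v (Pi.single i 1) = v i := by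
  simp [gradL_apply, Pi.single_apply]

/-- If the gradient of `u` near `z` is `G` and the gradient of `G k` at `z` is `H k`,
the Hessian of `u` at `z` is `H`. -/
theorem hess_of_grad {u : (Fin n → ℝ) → ℝ} {G : Fin n → (Fin n → ℝ) → ℝ}
    {H : Fin n → Fin n → ℝ} {z : Fin n → ℝ}
    (h1 : ∀ᶠ z' in 𝓝 z, HasFDerivAt u (gradL (fun i => G i z')) z')
    (h2 : ∀ k, HasFDerivAt (G k) (gradL (H k)) z) :
    hess u z = Matrix.of fun i j => H j i := by
  have h3 : fderiv ℝ u =ᶠ[𝓝 z] fun z' => gradL (fun i => G i z') :=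
    h1.mono fun z' h => h.fderiv
  have h4 : HasFDerivAt (fun z' => gradL (fun i => G i z'))
      (∑ k, (gradL (H k)).smulRight (ContinuousLinearMap.proj k : (Fin n → ℝ) →L[ℝ] ℝ)) z := by
    simp only [gradL]
    have := HasFDerivAt.fun_sum (u := Finset.univ) (fun k _ =>
      (h2 k).smul_const (ContinuousLinearMap.proj k : (Fin n → ℝ) →L[ℝ] ℝ))
    exact this
  have h5 : fderiv ℝ (fderiv ℝ u) z = ∑ k, (gradL (H k)).smulRight
      (ContinuousLinearMap.proj k : (Fin n → ℝ) →L[ℝ] ℝ) := by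
    rw [h3.fderiv_eq]
    exact h4.fderiv
  ext i j
  simp only [hess, Matrix.of_apply, h5]
  simp [ContinuousLinearMap.smulRight_apply, gradL_apply, Pi.single_apply]

variable {m : ℕ}

/-- The squared norm of the last `m` coordinates. -/
def tt (z : Fin (m + 1) → ℝ) : ℝ := ∑ k : Fin m, z k.succ * z k.succ

theorem tt_nonneg (z : Fin (m + 1) → ℝ) : 0 ≤ tt z :=
  Finset.sum_nonneg fun _ _ => mul_self_nonneg _

theorem tt_eq_dot (z : Fin (m + 1) → ℝ) : tt z = (fun k : Fin m => z k.succ) ⬝ᵥ (fun k => z k.succ) :=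
  rfl

theorem hasFDerivAt_tt (z : Fin (m + 1) → ℝ) :
    HasFDerivAt tt (∑ k : Fin m, (2 * z k.succ) • 
      (ContinuousLinearMap.proj k.succ : (Fin (m + 1) → ℝ) →L[ℝ] ℝ)) z := by
  have := HasFDerivAt.fun_sum (u := Finset.univ) (A := fun (k : Fin m) (z : Fin (m + 1) → ℝ) =>
      z k.succ * z k.succ)
    (A' := fun k : Fin m => (2 * z k.succ) •
      (ContinuousLinearMap.proj k.succ : (Fin (m + 1) → ℝ) →L[ℝ] ℝ)) (x := z) (fun k _ => by
        have h := (ContinuousLinearMap.proj (R := ℝ) (φ := fun _ : Fin (m + 1) => ℝ)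
          k.succ).hasFDerivAt (x := z)
        have h2 : HasFDerivAt (fun z : Fin (m + 1) → ℝ => z k.succ * z k.succ) _ z := h.mul h
        refine h2.congr_fderiv (ContinuousLinearMap.ext fun v => ?_)
        simp
        ring)
  exact this

/-- Chain rule for a function of the first coordinate and of the squared norm of the others. -/
theorem hasFDerivAt_st {A : ℝ → ℝ → ℝ} {a b : ℝ} {z : Fin (m + 1) → ℝ}
    (h : HasFDerivAt (fun p : ℝ × ℝ => A p.1 p.2)
      (a • ContinuousLinearMap.fst ℝ ℝ ℝ + b • ContinuousLinearMap.snd ℝ ℝ ℝ) (z 0, tt z)) :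
    HasFDerivAt (fun z => A (z 0) (tt z))
      (gradL (Fin.cases a (fun k => 2 * z (Fin.succ k) * b))) z := by
  have h0 : HasFDerivAt (fun z : Fin (m + 1) → ℝ => (z 0, tt z))
      ((ContinuousLinearMap.proj 0 : (Fin (m + 1) → ℝ) →L[ℝ] ℝ).prod
        (∑ k : Fin m, (2 * z k.succ) •
          (ContinuousLinearMap.proj k.succ : (Fin (m + 1) → ℝ) →L[ℝ] ℝ))) z :=
    ((ContinuousLinearMap.proj (R := ℝ) (φ := fun _ : Fin (m + 1) => ℝ) 0).hasFDerivAt).prodMk
      (hasFDerivAt_tt z)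
  have h1 := h.comp z h0
  refine h1.congr_fderiv (ContinuousLinearMap.ext fun v => ?_)
  simp only [gradL_apply, Fin.sum_univ_succ, Fin.cases_zero, Fin.cases_succ]
  simp [Finset.mul_sum]
  refine Finset.sum_congr rfl fun k _ => by ring

/-- The Hessian of a function of the first coordinate and of the squared norm of the others. -/
theorem hess_radial {Φ A B A1 A2 B2 : ℝ → ℝ → ℝ} {J : Set ℝ} (hJ : IsOpen J)
    (h0 : ∀ s, ∀ t ∈ J, HasFDerivAt (fun p : ℝ × ℝ => Φ p.1 p.2)
      (A s t • ContinuousLinearMap.fst ℝ ℝ ℝ + B s t • ContinuousLinearMap.snd ℝ ℝ ℝ) (s, t))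
    (h1 : ∀ s, ∀ t ∈ J, HasFDerivAt (fun p : ℝ × ℝ => A p.1 p.2)
      (A1 s t • ContinuousLinearMap.fst ℝ ℝ ℝ + A2 s t • ContinuousLinearMap.snd ℝ ℝ ℝ) (s, t))
    (h2 : ∀ s, ∀ t ∈ J, HasFDerivAt (fun p : ℝ × ℝ => B p.1 p.2)
      (A2 s t • ContinuousLinearMap.fst ℝ ℝ ℝ + B2 s t • ContinuousLinearMap.snd ℝ ℝ ℝ) (s, t))
    {z : Fin (m + 1) → ℝ} (hz : tt z ∈ J) :
    hess (fun z => Φ (z 0) (tt z)) z
      = blockMat (A1 (z 0) (tt z)) (2 * A2 (z 0) (tt z)) (2 * B (z 0) (tt z))
          (4 * B2 (z 0) (tt z)) (fun k => z k.succ) := by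
  set G : Fin (m + 1) → (Fin (m + 1) → ℝ) → ℝ :=
    fun i z' => Fin.cases (A (z' 0) (tt z')) (fun k => 2 * z' (Fin.succ k) * B (z' 0) (tt z')) i
    with hG
  set H : Fin (m + 1) → Fin (m + 1) → ℝ :=
    fun i j => blockMat (A1 (z 0) (tt z)) (2 * A2 (z 0) (tt z)) (2 * B (z 0) (tt z))
          (4 * B2 (z 0) (tt z)) (fun k => z k.succ) i j with hH
  have htt : Continuous (tt : (Fin (m + 1) → ℝ) → ℝ) := by
    unfold tt
    fun_prop
  have hev : ∀ᶠ z' in 𝓝 z, tt z' ∈ J := htt.continuousAt.eventually (hJ.mem_nhds hz)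
  have hg1 : ∀ᶠ z' in 𝓝 z, HasFDerivAt (fun z => Φ (z 0) (tt z)) (gradL (fun i => G i z')) z' := by
    filter_upwards [hev] with z' hz'
    have := hasFDerivAt_st (A := Φ) (h0 (z' 0) (tt z') hz')
    exact this
  have hg2 : ∀ k, HasFDerivAt (G k) (gradL (H k)) z := by
    intro k
    refine Fin.cases ?_ (fun k => ?_) k
    · have := hasFDerivAt_st (A := A) (h1 (z 0) (tt z) hz)
      refine this.congr_fderiv ?_
      congr 1
      funext j
      refine Fin.cases ?_ (fun j => ?_) j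
      · simp [hH]
      · simp [hH]
        ring
    · have h3 := hasFDerivAt_st (A := B) (h2 (z 0) (tt z) hz)
      have h4 : HasFDerivAt (fun z' : Fin (m + 1) → ℝ => 2 * z' (Fin.succ k))
          ((2 : ℝ) • (ContinuousLinearMap.proj (Fin.succ k) : (Fin (m + 1) → ℝ) →L[ℝ] ℝ)) z :=
        ((ContinuousLinearMap.proj (R := ℝ) (φ := fun _ : Fin (m + 1) => ℝ)
          (Fin.succ k)).hasFDerivAt).const_mul 2
      have h5 : HasFDerivAt (fun z' : Fin (m + 1) → ℝ => 2 * z' (Fin.succ k) * B (z' 0) (tt z'))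
          _ z := h4.mul h3
      refine h5.congr_fderiv (ContinuousLinearMap.ext fun v => ?_)
      simp only [gradL_apply, Fin.sum_univ_succ, Fin.cases_zero, Fin.cases_succ, hH,
        blockMat_succ_zero, blockMat_succ_succ]
      simp only [ContinuousLinearMap.add_apply, ContinuousLinearMap.smul_apply, smul_eq_mul,
        ContinuousLinearMap.proj_apply, gradL_apply, Fin.sum_univ_succ, Fin.cases_zero,
        Fin.cases_succ]
      have e1 : ∑ j : Fin m, ((if k = j then 2 * B (z 0) (tt z) else 0)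
            + 4 * B2 (z 0) (tt z) * z k.succ * z j.succ) * v j.succ
          = 2 * B (z 0) (tt z) * v k.succ
            + 4 * B2 (z 0) (tt z) * z k.succ * ∑ j : Fin m, z j.succ * v j.succ := by
        simp only [add_mul, Finset.sum_add_distrib, Finset.mul_sum]
        congr 1
        · simp [ite_mul]
        · exact Finset.sum_congr rfl fun j _ => by ring
      have e2 : ∑ j : Fin m, 2 * z j.succ * A2 (z 0) (tt z) * v j.succ * 0 = 0 := by simp
      rw [e1]
      have e3 : ∑ j : Fin m, 2 * z j.succ * B2 (z 0) (tt z) * v j.succ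
          = 2 * B2 (z 0) (tt z) * ∑ j : Fin m, z j.succ * v j.succ := by
        rw [Finset.mul_sum]
        exact Finset.sum_congr rfl fun j _ => by ring
      rw [e3]
      ring
  rw [hess_of_grad hg1 hg2]
  ext i j
  simp only [Matrix.of_apply, hH]
  have := (blockMat_isHermitian (A1 (z 0) (tt z)) (2 * A2 (z 0) (tt z)) (2 * B (z 0) (tt z))
          (4 * B2 (z 0) (tt z)) (fun k => z k.succ)).apply i j
  simpa using this

end Vale.Agent.Lib.P252
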