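import Vale.Agent.Lib.P252.Calc

open Matrix Set Filter Topology

namespace Vale.Agent.Lib.P252

variable {n : ℕ} {u : (Fin n → ℝ) → ℝ} {Ω : Set (Fin n → ℝ)}

/-- The height of `u` above its tangent plane at `x0`. -/
noncomputable def tangentGap (u : (Fin n → ℝ) → ℝ) (x0 x : Fin n → ℝ) : ℝ :=
  u x - (u x0 + fderiv ℝ u x0 (x - x0))

theorem tangentGap_nonneg (hO : IsOpen Ω) (hc : Convex ℝ Ω) (hu : ContDiffOn ℝ 2 u Ω)
    (hq : ∀ y ∈ Ω, ∀ e : Fin n → ℝ, e ≠ 0 → 0 < fderiv ℝ (fderiv ℝ u) y e e)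
    {x0 x : Fin n → ℝ} (hx0 : x0 ∈ Ω) (hx : x ∈ Ω) : 0 ≤ tangentGap u x0 x := by
  have := tangent_le hO hc hu hq hx0 hx
  simp only [tangentGap]
  linarith

theorem tangentGap_pos (hO : IsOpen Ω) (hc : Convex ℝ Ω) (hu : ContDiffOn ℝ 2 u Ω)
    (hq : ∀ y ∈ Ω, ∀ e : Fin n → ℝ, e ≠ 0 → 0 < fderiv ℝ (fderiv ℝ u) y e e)
    {x0 x : Fin n → ℝ} (hx0 : x0 ∈ Ω) (hx : x ∈ Ω) (hne : x0 ≠ x) : 0 < tangentGap u x0 x := by
  have := tangent_strict hO hc hu hq hx0 hx hne
  simp only [tangentGap]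
  linarith

theorem tangentGap_convexOn (hO : IsOpen Ω) (hc : Convex ℝ Ω) (hu : ContDiffOn ℝ 2 u Ω)
    (hq : ∀ y ∈ Ω, ∀ e : Fin n → ℝ, e ≠ 0 → 0 < fderiv ℝ (fderiv ℝ u) y e e)
    (x0 : Fin n → ℝ) : ConvexOn ℝ Ω (tangentGap u x0) := by
  refine ⟨hc, fun x hx z hz a b ha hb hab => ?_⟩
  have h1 := (convexOn_of_pos hO hc hu hq).2 hx hz ha hb hab
  simp only [smul_eq_mul] at h1 ⊢
  simp only [tangentGap]
  have h2 : a • x + b • z - x0 = a • (x - x0) + b • (z - x0) := by
    have : x0 = a • x0 + b • x0 := by rw [← add_smul, hab, one_smul]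
    conv_lhs => rw [this]
    simp only [smul_sub]
    abel
  rw [h2, map_add, map_smul, map_smul]
  simp only [smul_eq_mul]
  have h3 : a * u x0 + b * u x0 = u x0 := by rw [← add_mul, hab, one_mul]
  nlinarith

theorem section_compact (hn : 1 ≤ n) (hO : IsOpen Ω) (hc : Convex ℝ Ω) (hu : ContDiffOn ℝ 2 u Ω)
    (hq : ∀ y ∈ Ω, ∀ e : Fin n → ℝ, e ≠ 0 → 0 < fderiv ℝ (fderiv ℝ u) y e e)
    (hclosed : IsClosed (graphOver Ω u)) {x0 : Fin n → ℝ} (hx0 : x0 ∈ Ω) (h : ℝ) :
    IsCompact {x | x ∈ Ω ∧ tangentGap u x0 x ≤ h} := by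
  classical
  set S : Set (Fin n → ℝ) := {x | x ∈ Ω ∧ tangentGap u x0 x ≤ h} with hS
  -- a small sphere in `Ω`
  obtain ⟨r', hr', hball⟩ := Metric.isOpen_iff.mp hO x0 hx0
  set r := r' / 2 with hr
  have hrpos : 0 < r := by positivity
  have hsph : Metric.sphere x0 r ⊆ Ω := by
    intro x hx
    apply hball
    rw [Metric.mem_sphere] at hx
    rw [Metric.mem_ball, hx]
    linarith
  have hgapCont : ContinuousOn (tangentGap u x0) Ω := by
    have h1 : Continuous fun x : Fin n → ℝ => u x0 + fderiv ℝ u x0 (x - x0) := by fun_prop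
    exact hu.continuousOn.sub h1.continuousOn
  have hi : Fin n := ⟨0, by omega⟩
  have hsphne : (Metric.sphere x0 r).Nonempty := by
    refine ⟨x0 + r • (Pi.single hi (1 : ℝ) : Fin n → ℝ), ?_⟩
    rw [Metric.mem_sphere, dist_eq_norm, add_sub_cancel_left, norm_smul, Real.norm_eq_abs,
      abs_of_pos hrpos, Pi.norm_single]
    simp
  obtain ⟨xm, hxm, hmin⟩ := (isCompact_sphere x0 r).exists_isMinOn hsphne
    (hgapCont.mono hsph)
  have hne0 : x0 ≠ xm := by
    intro h0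
    rw [Metric.mem_sphere, ← h0, dist_self] at hxm
    linarith
  have hmpos : 0 < tangentGap u x0 xm := tangentGap_pos hO hc hu hq hx0 (hsph hxm) hne0
  set m := tangentGap u x0 xm with hm
  have hconv := tangentGap_convexOn hO hc hu hq x0
  have hzero : tangentGap u x0 x0 = 0 := by simp [tangentGap]
  -- boundedness
  set R : ℝ := max r (r * h / m) with hR
  have hbdd : ∀ x ∈ S, dist x x0 ≤ R := by
    intro x hx
    by_cases hdist : dist x x0 ≤ r
    · exact hdist.trans (le_max_left _ _)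
    · rw [not_le] at hdist
      set d := dist x x0 with hd
      have hdpos : 0 < d := hrpos.trans hdist
      set t := r / d with ht
      have ht0 : 0 ≤ t := by positivity
      have ht1 : t ≤ 1 := by
        rw [ht, div_le_one hdpos]; exact hdist.le
      have hxt : x0 + t • (x - x0) ∈ Metric.sphere x0 r := by
        rw [Metric.mem_sphere, dist_eq_norm, add_sub_cancel_left, norm_smul, Real.norm_eq_abs,
          abs_of_nonneg ht0, ← dist_eq_norm, ← hd, ht]
        field_simp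
      have hxteq : x0 + t • (x - x0) = (1 - t) • x0 + t • x := by
        rw [smul_sub, sub_smul, one_smul]
        abel
      have h1 := hconv.2 hx0 hx.1 (by linarith : (0 : ℝ) ≤ 1 - t) ht0 (by ring)
      rw [← hxteq, hzero] at h1
      simp only [smul_eq_mul, mul_zero, zero_add] at h1
      have h2 : m ≤ tangentGap u x0 (x0 + t • (x - x0)) := hmin hxt
      have h3 : m ≤ t * h := by
        calc m ≤ t * tangentGap u x0 x := h2.trans h1
          _ ≤ t * h := mul_le_mul_of_nonneg_left hx.2 ht0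
      apply le_trans _ (le_max_right _ _)
      rw [ht, div_mul_eq_mul_div, le_div_iff₀ hdpos] at h3
      rw [le_div_iff₀ hmpos]
      linarith
  -- the compact piece of the graph
  set A : (Fin n → ℝ) → ℝ := fun x => u x0 + fderiv ℝ u x0 (x - x0) with hA
  have hAcont : Continuous A := by
    simp only [hA]; fun_prop
  set K : Set ((Fin n → ℝ) × ℝ) :=
    (fun P : (Fin n → ℝ) × ℝ => (P.1, A P.1 + P.2)) '' (Metric.closedBall x0 R ×ˢ Icc 0 h) with hK
  have hKc : IsCompact K :=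
    ((isCompact_closedBall x0 R).prod isCompact_Icc).image (by fun_prop)
  have hGK : IsCompact (graphOver Ω u ∩ K) := hKc.inter_left hclosed
  have hSeq : S = Prod.fst '' (graphOver Ω u ∩ K) := by
    ext x
    constructor
    · intro hx
      refine ⟨(x, u x), ⟨⟨hx.1, rfl⟩, ?_⟩, rfl⟩
      refine ⟨(x, tangentGap u x0 x), ⟨?_, ?_⟩, ?_⟩
      · exact Metric.mem_closedBall.mpr (hbdd x hx)
      · exact ⟨tangentGap_nonneg hO hc hu hq hx0 hx.1, hx.2⟩
      · simp [tangentGap, hA]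
    · rintro ⟨⟨x', s⟩, ⟨hg, ⟨⟨y, t⟩, ⟨hy1, hy2⟩, hy3⟩⟩, rfl⟩
      simp only [Prod.mk.injEq] at hy3
      obtain ⟨rfl, hs⟩ := hy3
      refine ⟨hg.1, ?_⟩
      have h4 : s = u y := hg.2
      simp only [tangentGap]
      have h5 : u y - (u x0 + fderiv ℝ u x0 (y - x0)) = t := by
        rw [← h4, ← hs]
        simp [hA]
      rw [h5]
      exact hy2.2
  rw [hSeq]
  exact hGK.image continuous_fst

end Vale.Agent.Lib.P252
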